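import Crest.Agent.R114.Deep

/-! `ℓ¹` averages and rapidly increasing sequences. -/

set_option autoImplicit false
set_option linter.unusedSectionVars false
open Filter Topology

namespace Crest.Agent.R114

variable {𝕜 : Type} [RCLike 𝕜] {Γ : Type} [LinearOrder Γ]

/-- recursive choice of a block sequence -/
theorem exists_succ_seq {v : ℕ → Γ →₀ 𝕜} (hv : Succ v) (m : ℕ) {τ : Type} (t0 : τ)
    (Q : ℕ → τ → (Γ →₀ 𝕜) → (Γ →₀ 𝕜) → τ → Prop)
    (hQ : ∀ k t m', ∃ x ∈ Blk v m', ∃ g t', Q k t x g t') :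
    ∃ (x g : ℕ → Γ →₀ 𝕜) (t : ℕ → τ), t 0 = t0 ∧ Succ x ∧
      ∀ k, x k ∈ Blk v (m + k) ∧ Q k (t k) (x k) (g k) (t (k + 1)) := by
  choose X hX G T hXQ using hQ
  choose M hM using fun k t m' => hv.exists_Lt_Blk (hX k t m')
  let s : ℕ → τ × ℕ := fun k => Nat.rec (t0, m)
    (fun k p => (T k p.1 p.2, max (p.2 + 1) (M k p.1 p.2))) k
  have hs : ∀ k, (s (k + 1)).2 = max ((s k).2 + 1) (M k (s k).1 (s k).2) := fun k => rfl
  have hmono : Monotone fun k => (s k).2 := monotone_nat_of_le_succ fun k => by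
    rw [hs]; omega
  have hge : ∀ k, m + k ≤ (s k).2 := by
    intro k
    induction k with
    | zero => exact le_rfl
    | succ k ih => rw [hs]; omega
  refine ⟨fun k => X k (s k).1 (s k).2, fun k => G k (s k).1 (s k).2, fun k => (s k).1, rfl,
    fun i j hij => hM i _ _ _ (Blk_anti v ?_ (hX j _ _)),
    fun k => ⟨Blk_anti v (hge k) (hX k _ _), hXQ k _ _⟩⟩
  exact le_trans ((le_max_right _ _).trans (hs i).ge) (hmono (Nat.succ_le_of_lt hij))

theorem sum_range_mul' {M : Type*} [AddCommMonoid M] (f : ℕ → M) (a n : ℕ) :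
    ∑ r ∈ Finset.range (a * n), f r = ∑ i ∈ Finset.range n, ∑ r ∈ Finset.range a, f (a * i + r) := by
  induction n with
  | zero => simp
  | succ n ih => rw [Nat.mul_succ, Finset.sum_range_add, ih, Finset.sum_range_succ]

theorem Succ.pair_diag {x g : ℕ → Γ →₀ 𝕜} (hx : Succ x)
    (hg : ∀ k, ∀ γ ∈ (g k).support, γ ∈ hull (x k)) {k l : ℕ} (h : k ≠ l) :
    pair (g k) (x l) = 0 := by
  rcases lt_or_gt_of_ne h with h | h
  · exact ((hx k l h).mono (hg k) fun _ => mem_hull).pair_left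
  · exact ((hx l k h).mono (fun _ => mem_hull) (hg k)).pair_right

theorem tendsto_mm : Tendsto (fun j => (mm j : ℝ)) atTop atTop := by
  refine tendsto_natCast_atTop_atTop.comp (tendsto_atTop_mono (fun j => ?_) tendsto_id)
  have : j + 5 < 2 ^ (j + 5) := Nat.lt_two_pow_self
  change j ≤ 2 ^ (j + 5)
  omega

namespace Data

variable {D : Data 𝕜 Γ} [Nonempty Γ]

/-- Sketch: otherwise, by induction on `s`, `nrm (∑_{r < N^s} y r) ≤ (N/2)^s` for all successive
`y` in the unit ball of `Blk v m` (group into `N` blocks `(2/N)^s ∑_{r ∈ Ico (i N^s) ((i+1) N^s)} y r`).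
Choose recursively with `exists_deep` and `Succ.exists_Lt_Blk` successive `y r` and `g r` with `Adm g`,
`δ ≤ re (pair (g r) (y r))`, `supp (g r) ⊆ hull (y r)`; for `N^s ≤ nn j` the node of weight `j` with
children `g r`, `r < N^s` (`Adm.sub`) gives `N^s δ / mm j ≤ (N/2)^s`; `exists_pow_le_nn` contradicts. -/
theorem exists_avg {v : ℕ → Γ →₀ 𝕜} {lam : Γ} (D : Data 𝕜 Γ) (hv : Base v lam) (m N : ℕ)
    (hN : 0 < N) : ∃ y : ℕ → Γ →₀ 𝕜, Succ y ∧ (∀ r, y r ∈ Blk v m ∧ D.nrm (y r) ≤ 1) ∧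
      (N : ℝ) / 2 ≤ D.nrm ⇑(∑ r ∈ Finset.range N, y r) := by
  by_contra hcon
  push Not at hcon
  have hNR : (0 : ℝ) < N := by exact_mod_cast hN
  have claim : ∀ s : ℕ, ∀ y : ℕ → Γ →₀ 𝕜, Succ y → (∀ r, y r ∈ Blk v m ∧ D.nrm (y r) ≤ 1) →
      D.nrm ⇑(∑ r ∈ Finset.range (N ^ s), y r) ≤ ((N : ℝ) / 2) ^ s := by
    intro s
    induction s with
    | zero => intro y _ hy; simpa using (hy 0).2
    | succ s ih =>
      intro y hy hb
      have hp : (0 : ℝ) < ((N : ℝ) / 2) ^ s := by positivity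
      let c : 𝕜 := (((((N : ℝ) / 2) ^ s)⁻¹ : ℝ) : 𝕜)
      have hc : ‖c‖ = (((N : ℝ) / 2) ^ s)⁻¹ := by
        rw [RCLike.norm_ofReal, abs_of_pos (inv_pos.2 hp)]
      let z : ℕ → Γ →₀ 𝕜 := fun i => c • ∑ r ∈ Finset.range (N ^ s), y (N ^ s * i + r)
      have hsupp : ∀ i, ∀ a ∈ (z i).support, ∃ r < N ^ s, a ∈ (y (N ^ s * i + r)).support := by
        intro i a ha
        obtain ⟨r, hr, h⟩ := Finset.mem_biUnion.1
          (Finsupp.support_finsetSum (Finsupp.support_smul ha))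
        exact ⟨r, Finset.mem_range.1 hr, h⟩
      have hz : Succ z := by
        intro i j hij a ha b hb'
        obtain ⟨r, hr, h⟩ := hsupp i a ha
        obtain ⟨r', -, h'⟩ := hsupp j b hb'
        refine hy _ _ ?_ a h b h'
        have : N ^ s * (i + 1) ≤ N ^ s * j := Nat.mul_le_mul_left _ hij
        rw [Nat.mul_succ] at this
        omega
      have h1 := hcon z hz fun i => ⟨Submodule.smul_mem _ _ (Submodule.sum_mem _ fun r _ =>
        (hb _).1), by
          simp only [z]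
          rw [Finsupp.coe_smul, nrm_smul, hc, inv_mul_le_iff₀ hp, mul_one]
          exact ih (fun r => y (N ^ s * i + r)) (fun a b hab => hy _ _ (by omega))
            fun r => hb _⟩
      simp only [z] at h1
      rw [← Finset.smul_sum, ← sum_range_mul', Finsupp.coe_smul, nrm_smul, hc,
        inv_mul_lt_iff₀ hp] at h1
      rw [pow_succ, pow_succ]
      exact h1.le
  obtain ⟨δ, hδ, hdeep⟩ := D.exists_deep hv
  obtain ⟨y, g, T, hT0, hy, hQ⟩ := exists_succ_seq hv.1 m (0 : ℕ)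
    (fun _ T x g T' => (D.W g ∧ D.nrm x ≤ 1 ∧ l2 g ≤ 1 / 2 ^ T ∧
      (∀ γ ∈ g.support, γ ∈ hull x) ∧ δ ≤ RCLike.re (pair g x)) ∧ T' = T + g.support.card)
    (fun _ T m' => by
      obtain ⟨x, hx, g, hg⟩ := hdeep (1 / 2 ^ T) (by positivity) m'
      exact ⟨x, hx, g, _, hg, rfl⟩)
  have hT : ∀ k, T k = ∑ i ∈ Finset.range k, (g i).support.card := by
    intro k
    induction k with
    | zero => simpa using hT0
    | succ k ih => rw [Finset.sum_range_succ, ← ih, (hQ k).2.2]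
  have hh : ∀ k, ∀ γ ∈ (g k).support, γ ∈ hull (y k) := fun k => (hQ k).2.1.2.2.2.1
  have hA : Adm g := ⟨fun i j hij => (hy i j hij).mono (hh i) (hh j), fun i => by
    rw [← hT, ← le_div_iff₀ (by positivity)]
    exact (hQ i).2.1.2.2.1⟩
  obtain ⟨j, s, hs1, hs2⟩ := exists_pow_le_nn N δ⁻¹
  obtain ⟨α, hα, hαg, hαs⟩ := hA.sub (Finset.range (N ^ s))
  have hW : D.W (nodeOf j α) := W.node j α (fun i => by
    rcases hαg i with h | ⟨k, -, h⟩
    · rw [h]; exact W.zero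
    · rw [h]; exact (hQ k).2.1.1) hα
  have h1 := (hW.le_nrm' _).trans (claim s y hy fun r =>
    ⟨Blk_anti v (Nat.le_add_right _ _) (hQ r).1, (hQ r).2.1.2.1⟩)
  have hm : (0 : ℝ) < mm j := by exact_mod_cast mm_pos j
  have e : pair (nodeOf j α) ⇑(∑ r ∈ Finset.range (N ^ s), y r) =
      (mm j : 𝕜)⁻¹ * ∑ k ∈ Finset.range (N ^ s), pair (g k) (y k) := by
    rw [nodeOf, hαs _ (by simpa using hs1), pair_smul_left, pair_sum_left]
    congr 1
    refine Finset.sum_congr rfl fun k hk => ?_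
    rw [pair_sum_right', Finset.sum_eq_single_of_mem k hk fun l _ hl => hy.pair_diag hh hl.symm]
  rw [e, norm_mul, norm_inv, RCLike.norm_natCast, inv_mul_le_iff₀ hm] at h1
  have h2 : (N : ℝ) ^ s * δ ≤ ‖∑ k ∈ Finset.range (N ^ s), pair (g k) (y k)‖ := by
    refine le_trans ?_ (RCLike.re_le_norm _)
    rw [map_sum]
    refine le_trans (le_of_eq ?_) (Finset.card_nsmul_le_sum _ _ δ fun k _ => (hQ k).2.1.2.2.2.2)
    rw [Finset.card_range, nsmul_eq_mul, Nat.cast_pow]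
  have h3 := h2.trans h1
  rw [div_pow, ← mul_div_assoc, le_div_iff₀ (by positivity)] at h3
  rw [inv_mul_lt_iff₀ hδ] at hs2
  have h4 : (0 : ℝ) < (N : ℝ) ^ s := by positivity
  nlinarith

/-- Sketch: `N = nn J + 4`, `x = y' / nrm y'` for `y' = ∑_{r<N} y r` from `exists_avg`.  For a node of weight
`i < J`, `staircase` gives `‖pair f y'‖ ≤ (nn i + N) / mm i ≤ 2 N / mm i`; `‖x γ‖ ≤ 2 / N`.  Apply
`Good.exists_deep`. -/
theorem ris_step {v : ℕ → Γ →₀ 𝕜} {lam : Γ} (D : Data 𝕜 Γ) (hv : Base v lam) (m J : ℕ) :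
    ∃ x ∈ Blk v m, ∃ g, D.W g ∧ D.nrm x ≤ 1 ∧ D.Good J x ∧ l2 g ≤ 4 / mm J ∧
      (∀ γ ∈ g.support, γ ∈ hull x) ∧ 1 / 2 ≤ RCLike.re (pair g x) := by
  set N : ℕ := nn J + 4 with hN
  obtain ⟨y, hy, hb, hn⟩ := D.exists_avg hv m N (by omega)
  have hN4 : (4 : ℝ) ≤ N := by exact_mod_cast (show 4 ≤ N by omega)
  set y' := ∑ r ∈ Finset.range N, y r with hy'
  have hρ : 0 < D.nrm y' := by linarith
  have hρ' : (D.nrm y')⁻¹ ≤ 2 / N := by
    rw [inv_le_comm₀ hρ (by positivity), inv_div]; exact hn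
  let c : 𝕜 := (((D.nrm y')⁻¹ : ℝ) : 𝕜)
  have hc : ‖c‖ = (D.nrm y')⁻¹ := by rw [RCLike.norm_ofReal, abs_of_pos (inv_pos.2 hρ)]
  have h1 : D.nrm ⇑(c • y') = 1 := by
    rw [Finsupp.coe_smul, nrm_smul, hc, inv_mul_cancel₀ hρ.ne']
  have hgood : D.Good J (c • y') := by
    rintro i hi f ⟨α, hW, hA, rfl⟩
    have hm : (0 : ℝ) < mm i := by exact_mod_cast mm_pos i
    have h2 : ‖pair (∑ q ∈ Finset.range (nn i), α q) y'‖ ≤ 2 * N := by
      classical
      rw [pair_sum_left]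
      have h3 : ∀ q, ‖pair (α q) y'‖ ≤
          (((Finset.range N).filter fun k => pair (α q) (y k) ≠ 0).card : ℝ) := by
        intro q
        rw [hy', pair_sum_right', ← Finset.sum_filter_ne_zero]
        refine (norm_sum_le _ _).trans ((Finset.sum_le_card_nsmul _ _ 1 fun k _ =>
          ((hW q).le_nrm' _).trans (hb k).2).trans_eq ?_)
        rw [nsmul_eq_mul, mul_one]
      refine (norm_sum_le _ _).trans ((Finset.sum_le_sum fun q _ => h3 q).trans ?_)
      have h4 := staircase hA.1 hy (Finset.range (nn i)) (Finset.range N)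
      rw [Finset.card_range, Finset.card_range] at h4
      have h5 : nn i ≤ nn J := nn_mono hi.le
      have h6 : ∑ q ∈ Finset.range (nn i),
          ((Finset.range N).filter fun k => pair (α q) (y k) ≠ 0).card ≤ 2 * N := by
        refine le_trans (le_of_eq ?_) (h4.trans (by omega))
        refine Finset.sum_congr rfl fun q _ => ?_
        congr
      exact_mod_cast h6
    rw [Finsupp.coe_smul, pair_smul_right, nodeOf, pair_smul_left, norm_mul, norm_mul, hc,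
      norm_inv, RCLike.norm_natCast]
    calc _ ≤ 2 / (N : ℝ) * ((mm i : ℝ)⁻¹ * (2 * N)) := by gcongr
      _ = 4 / mm i := by field_simp; norm_num
  have hsup : ∀ γ, ‖(c • y') γ‖ ≤ 1 / 2 := by
    intro γ
    have h2 : ‖y' γ‖ ≤ 1 := by
      by_cases h : ∃ k, γ ∈ (y k).support
      · obtain ⟨k, hk⟩ := h
        have hk1 : ‖y k γ‖ ≤ 1 := (norm_apply_le_nrm (D.bdd_finsupp _) γ).trans (hb k).2
        have h0 : ∀ l, l ≠ k → y l γ = 0 := by
          intro l hl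
          by_contra hne
          have hl' := Finsupp.mem_support_iff.2 hne
          rcases lt_or_gt_of_ne hl with h | h
          · exact lt_irrefl _ (hy l k h γ hl' γ hk)
          · exact lt_irrefl _ (hy k l h γ hk γ hl')
        rw [hy', Finsupp.finsetSum_apply]
        by_cases hkN : k ∈ Finset.range N
        · rwa [Finset.sum_eq_single_of_mem k hkN fun l _ hl => h0 l hl]
        · rw [Finset.sum_eq_zero fun l hl => h0 l fun e => hkN (e ▸ hl)]
          simp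
      · push Not at h
        rw [hy', Finsupp.finsetSum_apply,
          Finset.sum_eq_zero fun l _ => Finsupp.notMem_support_iff.1 (h l)]
        simp
    rw [Finsupp.smul_apply, norm_smul, hc]
    calc _ ≤ 2 / (N : ℝ) * 1 := by gcongr
      _ ≤ 1 / 2 := by rw [mul_one, div_le_iff₀ (by linarith)]; linarith
  obtain ⟨g, hg1, hg2, hg3, hg4⟩ := hgood.exists_deep h1 hsup
  exact ⟨c • y', Submodule.smul_mem _ _ (Submodule.sum_mem _ fun r _ => (hb r).1), g, hg1, h1.le,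
    hgood, hg2, hg3, hg4⟩

/-- Recursion with `ris_step`: choose `J (k+1) > J k` with `4 / mm (J (k+1)) * 2^(∑_{l ≤ k} card supp (g l)) ≤ 1`,
`‖x k‖₁ * 4 / mm (J (k+1)) ≤ 2^{-k}` (then `tiny` follows from `norm_pair_le_l1`, `Node.l2_le`,
`sum_inv_mm_le`) and `supp (x k) ⊆ F (J (k+1)) lam` (`F_cov`, `F_mono`), then `x (k+1)` after `x k`. -/
theorem exists_ris {v : ℕ → Γ →₀ 𝕜} {lam : Γ} (D : Data 𝕜 Γ) (hv : Base v lam) :
    ∃ (x g : ℕ → Γ →₀ 𝕜) (J : ℕ → ℕ), D.RIS lam x J ∧ Adm g ∧ ∀ k, x k ∈ Blk v k ∧ D.W (g k) ∧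
      (∀ γ ∈ (g k).support, γ ∈ hull (x k)) ∧ 1 / 2 ≤ RCLike.re (pair (g k) (x k)) := by
  obtain ⟨x, g, t, ht0, hx, hQ⟩ := exists_succ_seq hv.1 0 ((0, 0) : ℕ × ℕ)
    (fun k t x g t' => (D.W g ∧ D.nrm x ≤ 1 ∧ D.Good t.1 x ∧ l2 g ≤ 4 / mm t.1 ∧
      (∀ γ ∈ g.support, γ ∈ hull x) ∧ 1 / 2 ≤ RCLike.re (pair g x)) ∧
      t'.2 = t.2 + g.support.card ∧ t.1 < t'.1 ∧ (4 : ℝ) * 2 ^ t'.2 ≤ mm t'.1 ∧
      4 * (∑ γ ∈ x.support, ‖x γ‖) * 2 ^ k ≤ mm t'.1 ∧ x.support ⊆ D.F t'.1 lam)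
    (fun k t m' => by
      obtain ⟨x, hx, g, hg⟩ := D.ris_step hv m' t.1
      have h1 : ∀ᶠ p in atTop, ∀ γ ∈ x.support, γ ∈ D.F p lam := by
        refine (Finset.eventually_all _).2 fun γ hγ => ?_
        obtain ⟨p, hp⟩ := D.F_cov lam γ (hv.lt_of_mem_Blk hx γ hγ).le
        exact (eventually_ge_atTop p).mono fun q hq => D.F_mono p q lam hq hp
      obtain ⟨p, ⟨⟨h2, h3⟩, h4⟩, h5⟩ := ((((eventually_gt_atTop t.1).and
        (tendsto_mm.eventually_ge_atTop (4 * 2 ^ (t.2 + g.support.card)))).and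
        (tendsto_mm.eventually_ge_atTop (4 * (∑ γ ∈ x.support, ‖x γ‖) * 2 ^ k))).and h1).exists
      exact ⟨x, hx, g, (p, t.2 + g.support.card), hg, rfl, h2, h3, h4, h5⟩)
  have hT : ∀ k, (t k).2 = ∑ i ∈ Finset.range k, (g i).support.card := by
    intro k
    induction k with
    | zero => rw [ht0]; rfl
    | succ k ih => rw [Finset.sum_range_succ, ← ih, (hQ k).2.2.1]
  have hh : ∀ k, ∀ γ ∈ (g k).support, γ ∈ hull (x k) := fun k => (hQ k).2.1.2.2.2.2.1
  have hm : ∀ j, (0 : ℝ) < mm j := fun j => by exact_mod_cast mm_pos j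
  have hJ : ∀ k, (4 : ℝ) * 2 ^ (t k).2 ≤ mm (t k).1 := by
    intro k
    cases k with
    | zero => rw [ht0]; norm_num [mm]
    | succ k => exact (hQ k).2.2.2.2.1
  refine ⟨x, g, fun k => (t k).1, ⟨hx, fun k => (hQ k).2.1.2.1,
    strictMono_nat_of_lt_succ fun k => (hQ k).2.2.2.1, fun k => (hQ k).2.1.2.2.1,
    fun k S f hf => ?_, fun k => (hQ k).2.2.2.2.2.2⟩,
    ⟨fun i j hij => (hx i j hij).mono (hh i) (hh j), fun i => ?_⟩,
    fun k => ⟨by simpa using (hQ k).1, (hQ k).2.1.1, hh k, (hQ k).2.1.2.2.2.2.2⟩⟩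
  · have h0 : 0 ≤ ∑ γ ∈ (x k).support, ‖x k γ‖ := Finset.sum_nonneg fun _ _ => norm_nonneg _
    calc _ ≤ ∑ i ∈ S, (1 : ℝ) / mm i * (2 * ∑ γ ∈ (x k).support, ‖x k γ‖) := by
          refine Finset.sum_le_sum fun i hi => (norm_pair_le_l1 _ _ (2 / mm i) fun γ =>
            (norm_apply_le_l2 _ γ).trans (hf i hi).2.l2_le).trans_eq ?_
          ring
      _ ≤ 2 / mm (t (k + 1)).1 * (2 * ∑ γ ∈ (x k).support, ‖x k γ‖) := by
          rw [← Finset.sum_mul]
          exact mul_le_mul_of_nonneg_right (sum_inv_mm_le S _ fun i hi => (hf i hi).1)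
            (by positivity)
      _ ≤ 1 / 2 ^ k := by
          have := (hQ k).2.2.2.2.2.1
          rw [div_mul_eq_mul_div, div_le_div_iff₀ (hm _) (by positivity)]
          linarith
  · rw [← hT]
    calc _ ≤ 4 / (mm (t i).1 : ℝ) * 2 ^ (t i).2 :=
          mul_le_mul_of_nonneg_right (hQ i).2.1.2.2.2.1 (by positivity)
      _ ≤ 1 := by rw [div_mul_eq_mul_div, div_le_one (hm _)]; exact hJ i

end Data

end Crest.Agent.R114
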