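import Crest.Agent.R114.PP

set_option autoImplicit false
open Filter

namespace Crest.Agent.R114

variable {𝕜 : Type} [RCLike 𝕜] {X : Type*} [NormedAddCommGroup X] [NormedSpace 𝕜 X]

/-- Functionals in the unit ball such that every finitely supported pattern of values of modulus
`≤ 1` is attained by a vector of norm `≤ C`. -/
def LP (w : ℕ → StrongDual 𝕜 X) (C : ℝ) : Prop :=
  (∀ i, ‖w i‖ ≤ 1) ∧ ∀ b : ℕ →₀ 𝕜, (∀ i, ‖b i‖ ≤ 1) → ∃ u : X, ‖u‖ ≤ C ∧ ∀ i, w i u = b i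

private theorem pattern01 (w : ℕ → StrongDual 𝕜 X) (C : ℝ)
    (h : ∀ I : Finset ℕ, ∃ u : X, ‖u‖ ≤ C ∧ ∀ i, w i u = if i ∈ I then 1 else 0)
    (b : ℕ → ℝ) (hb0 : ∀ i, 0 ≤ b i) (hb1 : ∀ i, b i ≤ 1) (s : Finset ℕ) :
    ∀ I : Finset ℕ, ∃ u : X, ‖u‖ ≤ C ∧
      ∀ i, w i u = if i ∈ s then (b i : 𝕜) else if i ∈ I then 1 else 0 := by
  classical
  induction s using Finset.induction_on with
  | empty => intro I; simpa using h I
  | insert j s hj ih =>
    intro I
    obtain ⟨u₁, h1, e1⟩ := ih (insert j I)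
    obtain ⟨u₂, h2, e2⟩ := ih (I.erase j)
    refine ⟨(b j : 𝕜) • u₁ + ((1 - b j : ℝ) : 𝕜) • u₂, ?_, fun i => ?_⟩
    · refine (norm_add_le _ _).trans ?_
      rw [norm_smul, norm_smul, RCLike.norm_ofReal, RCLike.norm_ofReal, abs_of_nonneg (hb0 j),
        abs_of_nonneg (sub_nonneg.2 (hb1 j))]
      have := hb0 j
      have := sub_nonneg.2 (hb1 j)
      nlinarith [mul_le_mul_of_nonneg_left h1 (hb0 j),
        mul_le_mul_of_nonneg_left h2 (sub_nonneg.2 (hb1 j))]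
    · rw [map_add, map_smul, map_smul, e1, e2, smul_eq_mul, smul_eq_mul]
      by_cases hij : i = j
      · subst hij
        simp [hj]
      · by_cases his : i ∈ s
        · simp only [his, if_true, Finset.mem_insert, or_true]
          push_cast
          ring
        · by_cases hiI : i ∈ I
          · simp [hij, his, hiI]
          · simp [hij, his, hiI]

private theorem pattern_all (w : ℕ → StrongDual 𝕜 X) (C : ℝ)
    (h : ∀ I : Finset ℕ, ∃ u : X, ‖u‖ ≤ C ∧ ∀ i, w i u = if i ∈ I then 1 else 0)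
    (b : ℕ →₀ 𝕜) (hb : ∀ i, ‖b i‖ ≤ 1) : ∃ u : X, ‖u‖ ≤ 4 * C ∧ ∀ i, w i u = b i := by
  classical
  have key : ∀ r : 𝕜 → ℝ, r 0 = 0 → (∀ z, |r z| ≤ ‖z‖) →
      ∃ u : X, ‖u‖ ≤ 2 * C ∧ ∀ i, w i u = (r (b i) : 𝕜) := by
    intro r hr0 hr
    obtain ⟨u₁, h1, e1⟩ := pattern01 w C h (fun i => max (r (b i)) 0) (fun i => le_max_right _ _)
      (fun i => max_le ((le_abs_self _).trans ((hr _).trans (hb i))) zero_le_one) b.support ∅
    obtain ⟨u₂, h2, e2⟩ := pattern01 w C h (fun i => max (-r (b i)) 0) (fun i => le_max_right _ _)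
      (fun i => max_le ((neg_le_abs _).trans ((hr _).trans (hb i))) zero_le_one) b.support ∅
    refine ⟨u₁ - u₂, (norm_sub_le _ _).trans (by linarith), fun i => ?_⟩
    rw [map_sub, e1, e2]
    by_cases hi : i ∈ b.support
    · simp only [hi, if_true]
      rw [← RCLike.ofReal_sub, max_zero_sub_max_neg_zero_eq_self]
    · have : b i = 0 := by simpa using hi
      simp [hi, this, hr0]
  obtain ⟨u₁, h1, e1⟩ := key (fun z => RCLike.re z) (by simp) RCLike.abs_re_le_norm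
  obtain ⟨u₂, h2, e2⟩ := key (fun z => RCLike.im z) (by simp) RCLike.abs_im_le_norm
  refine ⟨u₁ + (RCLike.I : 𝕜) • u₂, ?_, fun i => ?_⟩
  · refine (norm_add_le _ _).trans ?_
    rw [norm_smul]
    have hI : ‖(RCLike.I : 𝕜)‖ ≤ 1 := by
      rcases eq_or_ne (RCLike.I : 𝕜) 0 with h0 | h0
      · simp [h0]
      · exact (RCLike.norm_I_of_ne_zero h0).le
    have := mul_le_mul hI h2 (norm_nonneg _) zero_le_one
    linarith
  · rw [map_add, map_smul, e1, e2, smul_eq_mul, mul_comm]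
    exact RCLike.re_add_im _

/-- Sketch.  Biorthogonal vectors for `φ`: `F = {n}` and `x` with `φ n x = 1`.
Case 1: `∀ x ε, ∃ m, ∀ F ⊆ [m, ∞), ∃ v, ‖v‖ < ε ∧ φ v = φ x on F`; then `PropP` applied to `v` gives the
hypothesis of `sq_of_tail`.  Case 2: there are `x₀, ε` and successive (pairwise disjoint) finite sets
`F i` such that `exists_comb_of_dist` applies: `w i ∈ span (φ '' F i)`, `‖w i‖ ≤ 1`, `w i x₀ = ε`.
For a finite `I`, `PropP` with `F = I.biUnion F` and `x₀ / ε` gives `u I`, `‖u I‖ ≤ 2 ‖x₀‖ / ε`,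
`w i (u I) = 1` on `I`, `0` off `I`.  The set of patterns attained with norm `≤ C₀` is convex, so it
contains all patterns with values in `[0,1]` (induction on the support, or the layer-cake formula);
a pattern with `‖b i‖ ≤ 1` is `b₁ - b₂ + I (b₃ - b₄)`, so `C = 4 C₀`. -/
theorem sq_or_LP [CompleteSpace X] (φ : ℕ → StrongDual 𝕜 X) (h : PropP φ) :
    SQ 𝕜 X ∨ ∃ (w : ℕ → StrongDual 𝕜 X) (C : ℝ), LP w C := by
  classical
  have hb : ∀ n, ∃ u : X, φ n u = 1 ∧ ∀ k, k ≠ n → φ k u = 0 := by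
    intro n
    have hne : φ n ≠ 0 := by
      intro h0
      have := h.1 n
      rw [h0, norm_zero] at this
      exact zero_ne_one this
    obtain ⟨x, hx⟩ : ∃ x, φ n x ≠ 0 := by
      by_contra hc
      push Not at hc
      exact hne (ContinuousLinearMap.ext hc)
    obtain ⟨u, -, h1, h2⟩ := h.2 {n} ((φ n x)⁻¹ • x)
    refine ⟨u, ?_, fun k hk => h2 k (by simpa using hk)⟩
    rw [h1 n (Finset.mem_singleton_self n), map_smul, smul_eq_mul, inv_mul_cancel₀ hx]
  choose u hu1 hu2 using hb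
  by_cases H : ∀ x : X, ∀ ε > (0 : ℝ), ∃ m : ℕ, ∀ F : Finset ℕ, (∀ k ∈ F, m ≤ k) →
      ∃ v : X, (∀ k ∈ F, φ k v = φ k x) ∧ ‖v‖ < ε
  · left
    refine sq_of_tail φ u ⟨hu1, fun k l hkl => hu2 l k hkl⟩ fun x ε hε => ?_
    obtain ⟨m, hm⟩ := H x (ε / 2) (by positivity)
    refine ⟨m, fun F hF => ?_⟩
    obtain ⟨v, hv1, hv2⟩ := hm F hF
    obtain ⟨v', h1, h2, h3⟩ := h.2 F v
    exact ⟨v', by linarith, fun k hk => (h2 k hk).trans (hv1 k hk), h3⟩
  right
  push Not at H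
  obtain ⟨x₀, ε, hε, H⟩ := H
  choose G hG1 hG2 using H
  let m : ℕ → ℕ := fun i => Nat.rec 0 (fun _ r => max r ((G r).sup id + 1)) i
  have hms : ∀ i, m (i + 1) = max (m i) ((G (m i)).sup id + 1) := fun i => rfl
  have hmono : Monotone m := monotone_nat_of_le_succ fun i => by
    rw [hms]; exact le_max_left _ _
  have hlt : ∀ i, ∀ k ∈ G (m i), k < m (i + 1) := fun i k hk => by
    rw [hms]
    have : k ≤ (G (m i)).sup id := Finset.le_sup (f := id) hk
    exact lt_of_lt_of_le (Nat.lt_succ_of_le this) (le_max_right _ _)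
  have hdisj : ∀ i j, i ≠ j → ∀ k ∈ G (m i), k ∉ G (m j) := by
    intro i j hij k hk hk'
    rcases lt_or_gt_of_ne hij with h1 | h1
    · have := hlt i k hk
      have := hmono (Nat.succ_le_of_lt h1)
      have := hG1 _ k hk'
      simp only [Nat.succ_eq_add_one] at *
      omega
    · have := hlt j k hk'
      have := hmono (Nat.succ_le_of_lt h1)
      have := hG1 _ k hk
      simp only [Nat.succ_eq_add_one] at *
      omega
  choose a ha1 ha2 using fun i => exists_comb_of_dist φ (G (m i)) x₀ ε hε (hG2 (m i))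
  refine ⟨fun i => ∑ k ∈ G (m i), a i k • φ k, 4 * (2 * ‖((ε : 𝕜)⁻¹ • x₀ : X)‖), ha1,
    fun b hb => pattern_all _ _ (fun I => ?_) b hb⟩
  obtain ⟨v, h1, h2, h3⟩ := h.2 (I.biUnion fun i => G (m i)) ((ε : 𝕜)⁻¹ • x₀)
  refine ⟨v, h1, fun i => ?_⟩
  have hε' : (ε : 𝕜) ≠ 0 := RCLike.ofReal_ne_zero.2 hε.ne'
  split_ifs with hi
  · have e : (∑ k ∈ G (m i), a i k • φ k) v
        = (∑ k ∈ G (m i), a i k • φ k) ((ε : 𝕜)⁻¹ • x₀) := by
      simp only [ContinuousLinearMap.sum_apply, ContinuousLinearMap.smul_apply]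
      refine Finset.sum_congr rfl fun k hk => ?_
      rw [h2 k (Finset.mem_biUnion.2 ⟨i, hi, hk⟩)]
    rw [e, map_smul, ha2, smul_eq_mul, inv_mul_cancel₀ hε']
  · simp only [ContinuousLinearMap.sum_apply, ContinuousLinearMap.smul_apply]
    refine Finset.sum_eq_zero fun k hk => ?_
    rw [h3 k, smul_zero]
    intro hk'
    obtain ⟨j, hj, hkj⟩ := Finset.mem_biUnion.1 hk'
    exact hdisj i j (fun e => hi (e ▸ hj)) k hk hkj

end Crest.Agent.R114
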