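import Crest.Agent.R114.WB

/-! Special sequences: what the coding gives. -/

set_option autoImplicit false
set_option linter.unusedSectionVars false
open Filter Topology

namespace Crest.Agent.R114

variable {𝕜 : Type} [RCLike 𝕜] {Γ : Type} [LinearOrder Γ]

/-- the part of `σ` with weights below `J` -/
noncomputable def trunc (J : ℕ) (σ : ℕ → Γ →₀ 𝕜) : ℕ → Γ →₀ 𝕜 := fun j => if j < J then σ j else 0

namespace Data

variable {D : Data 𝕜 Γ} [Nonempty Γ]

/-- the coding condition at weight `j` -/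
def CodeAt (D : Data 𝕜 Γ) (σ : ℕ → Γ →₀ 𝕜) (j : ℕ) : Prop :=
  ∃ (a : Γ) (p p' : ℕ), p ≤ p' ∧ (∀ i < j, σ i ≠ 0 → i < p) ∧
    (∀ i < j, (σ i).support ⊆ D.F p a) ∧ Set.InjOn (D.c p') (D.F p a : Set Γ) ∧
    j = D.code p p' fun i => Finsupp.mapDomain (D.c p') (σ i)

theorem CodeAt.congr {σ τ : ℕ → Γ →₀ 𝕜} {j : ℕ} (h : D.CodeAt σ j) (he : ∀ i < j, τ i = σ i) :
    D.CodeAt τ j := by
  obtain ⟨a, p, p', h1, h2, h3, h4, h5⟩ := h
  have hp : p ≤ j := h5 ▸ D.code_ge _ _ _
  refine ⟨a, p, p', h1, fun i hi => he i hi ▸ h2 i hi, fun i hi => he i hi ▸ h3 i hi, h4, ?_⟩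
  exact h5.trans (D.code_congr _ _ _ _ fun i hi => by rw [he i (hi.trans_le hp)])

theorem SpN.mapDomain_mem {σ : ℕ → Γ →₀ 𝕜} (h : D.SpN σ) (c : Γ → ℕ) (i n : ℕ) :
    Finsupp.mapDomain c (σ i) n ∈ D.R := by
  classical
  rw [Finsupp.mapDomain, Finsupp.sum_apply]
  refine D.R.sum_mem fun γ _ => ?_
  simp only [Finsupp.single_apply]
  split_ifs
  · exact (h.2 i).w.apply_mem γ
  · exact D.R.zero_mem

/-- Being special is a local property: the condition at `j` only involves `σ i`, `i ≤ j`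
(`code_congr`, `p ≤ code p p' h = j`). -/
theorem SpN.of_local {σ : ℕ → Γ →₀ 𝕜} (h : ∀ J, ∃ τ, D.SpN τ ∧ ∀ j < J, σ j = τ j) : D.SpN σ := by
  refine ⟨⟨fun i j hij => ?_, fun j hj => ?_⟩, fun j => ?_⟩
  · obtain ⟨τ, hτ, he⟩ := h (j + 1)
    rw [he i (by omega), he j (by omega)]
    exact hτ.1.1 i j hij
  · obtain ⟨τ, hτ, he⟩ := h (j + 1)
    rw [he j (by omega)] at hj
    exact CodeAt.congr (hτ.1.2 j hj) fun i hi => he i (by omega)
  · obtain ⟨τ, hτ, he⟩ := h (j + 1)
    rw [he j (by omega)]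
    exact hτ.2 j

theorem SpN.trunc {σ : ℕ → Γ →₀ 𝕜} (h : D.SpN σ) (J : ℕ) : D.SpN (trunc J σ) := by
  have h1 : ∀ j, j < J → R114.trunc J σ j = σ j := fun j hj => if_pos hj
  have h2 : ∀ j, ¬ j < J → R114.trunc J σ j = 0 := fun j hj => if_neg hj
  refine ⟨⟨fun i j hij => ?_, fun j hj => ?_⟩, fun j => ?_⟩
  · by_cases hj : j < J
    · rw [h1 i (hij.trans hj), h1 j hj]; exact h.1.1 i j hij
    · rw [h2 j hj]; intro a _ b hb; simp at hb
  · have hJ : j < J := by by_contra hn; exact hj (h2 j hn)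
    rw [h1 j hJ] at hj
    exact CodeAt.congr (h.1.2 j hj) fun i hi => h1 i (hi.trans hJ)
  · by_cases hj : j < J
    · rw [h1 j hj]; exact h.2 j
    · rw [h2 j hj]; exact Node.zero j

/-- A shared weight `j` and anchor points `β, β'` determine the earlier entries.
Sketch: let `(a, p, p')`, `(a', q, q')` be the data at `j`; `code_inj` (entries are `R`-valued by
`W.apply_mem`) gives `p = q`, `p' = q'` and equal `mapDomain`s below `p`; `s ≤ i₀ < p`, so
`β, β' ∈ F p lam`.  For `i < min k k'`: `c ∈ supp (σ i)` gives `c < β`, `c ∈ F p a`, so `c ∈ F p β`,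
`c ∈ F p lam` (`F_coh`); the same for `σ'`.  If `β ≤ β'` both supports lie in `F p a'`, where
`c p'` is injective (`Finsupp.mapDomain_injOn`); otherwise in `F p a`. -/
theorem SpN.eq_of_shared {σ σ' : ℕ → Γ →₀ 𝕜} (h : D.SpN σ) (h' : D.SpN σ') {j k k' i₀ s : ℕ}
    {lam β β' : Γ} (hj : σ j ≠ 0) (hj' : σ' j ≠ 0) (hk : k < j) (hk' : k' < j)
    (hβ : β ∈ (σ k).support) (hβ' : β' ∈ (σ' k').support) (hF : β ∈ D.F s lam)
    (hF' : β' ∈ D.F s lam) (hi : i₀ < j) (hi0 : σ i₀ ≠ 0) (hs : s ≤ i₀) :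
    ∀ i, i < k → i < k' → σ i = σ' i := by
  obtain ⟨a, p, p', -, h2, h3, h4, h5⟩ := h.1.2 j hj
  obtain ⟨a', q, q', -, h2', h3', h4', h5'⟩ := h'.1.2 j hj'
  obtain ⟨rfl, rfl, he⟩ := D.code_inj _ _ _ _ _ _ (h.mapDomain_mem _) (h'.mapDomain_mem _)
    (h5.symm.trans h5')
  have hsp : s ≤ p := hs.trans (h2 i₀ hi hi0).le
  have hb := D.F_mono _ _ _ hsp hF
  have hb' := D.F_mono _ _ _ hsp hF'
  intro i hik hik'
  by_cases hip : i < p
  swap
  · have e1 : σ i = 0 := by by_contra hn; exact hip (h2 i (hik.trans hk) hn)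
    have e2 : σ' i = 0 := by by_contra hn; exact hip (h2' i (hik'.trans hk') hn)
    rw [e1, e2]
  have c1 : ∀ c ∈ (σ i).support, c < β ∧ c ∈ D.F p lam := fun c hc => by
    have hlt := h.1.1 i k hik c hc β hβ
    exact ⟨hlt, (D.F_coh p lam β c hb hlt.le).2
      ((D.F_coh p a β c (h3 k hk hβ) hlt.le).1 (h3 i (hik.trans hk) hc))⟩
  have c2 : ∀ c ∈ (σ' i).support, c < β' ∧ c ∈ D.F p lam := fun c hc => by
    have hlt := h'.1.1 i k' hik' c hc β' hβ'
    exact ⟨hlt, (D.F_coh p lam β' c hb' hlt.le).2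
      ((D.F_coh p a' β' c (h3' k' hk' hβ') hlt.le).1 (h3' i (hik'.trans hk') hc))⟩
  rcases le_total β β' with hle | hle
  · refine Finsupp.mapDomain_injOn (D.F p a' : Set Γ) h4' (fun c hc => ?_)
      (fun c hc => h3' i (hik'.trans hk') hc) (he i hip)
    have := (c1 c hc).1.le.trans hle
    exact (D.F_coh p a' β' c (h3' k' hk' hβ') this).2
      ((D.F_coh p lam β' c hb' this).1 (c1 c hc).2)
  · refine Finsupp.mapDomain_injOn (D.F p a : Set Γ) h4
      (fun c hc => h3 i (hik.trans hk) hc) (fun c hc => ?_) (he i hip)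
    have := (c2 c hc).1.le.trans hle
    exact (D.F_coh p a β c (h3 k hk hβ) this).2 ((D.F_coh p lam β c hb this).1 (c2 c hc).2)

theorem eventually_injOn (D : Data 𝕜 Γ) (S : Finset Γ) :
    ∀ᶠ n in atTop, Set.InjOn (D.c n) (S : Set Γ) := by
  have : ∀ᶠ n in atTop, ∀ a ∈ S, ∀ b ∈ S, a ≠ b → D.c n a ≠ D.c n b := by
    rw [Filter.eventually_all_finset]
    intro a _
    rw [Filter.eventually_all_finset]
    intro b _
    by_cases hab : a = b
    · exact Eventually.of_forall fun n h => absurd hab h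
    · exact (D.c_sep a b hab).mono fun n h _ => h
  refine this.mono fun n h a ha b hb hab => ?_
  by_contra hn
  exact h a ha b hb hn hab

/-- Two different special sequences share finitely many weights.  Sketch: otherwise, for `i` fixed,
take shared weights `i < j₀ < j` with `j₀` so large that `c n` is injective on
`supp (σ i) ∪ supp (σ' i)` for `n ≥ j₀` (`c_sep`); at `j`: `j₀ < p ≤ p'` and the `mapDomain`s agree. -/
theorem SpN.finite_shared {σ σ' : ℕ → Γ →₀ 𝕜} (h : D.SpN σ) (h' : D.SpN σ') (hne : σ ≠ σ') :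
    {j | σ j ≠ 0 ∧ σ' j ≠ 0}.Finite := by
  classical
  by_contra hinf
  have hinf : {j | σ j ≠ 0 ∧ σ' j ≠ 0}.Infinite := hinf
  apply hne
  funext i
  obtain ⟨N, hN⟩ := eventually_atTop.1 (D.eventually_injOn ((σ i).support ∪ (σ' i).support))
  obtain ⟨j₀, hj₀, h0⟩ := hinf.exists_gt (max i N)
  obtain ⟨j, hj, h1⟩ := hinf.exists_gt j₀
  obtain ⟨a, p, p', hp, h2, -, -, h5⟩ := h.1.2 j hj.1
  obtain ⟨a', q, q', -, -, -, -, h5'⟩ := h'.1.2 j hj.2
  obtain ⟨rfl, rfl, he⟩ := D.code_inj _ _ _ _ _ _ (h.mapDomain_mem _) (h'.mapDomain_mem _)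
    (h5.symm.trans h5')
  have h3 := h2 j₀ h1 hj₀.1
  have h4 := max_lt_iff.1 h0
  refine Finsupp.mapDomain_injOn _ (hN p' (by omega)) ?_ ?_ (he i (by omega))
  · exact fun c hc => by simp only [Finset.coe_union]; exact Or.inl hc
  · exact fun c hc => by simp only [Finset.coe_union]; exact Or.inr hc

/-- Extension by one node of arbitrarily large weight: `a = lam`, `p ≥ max J q` with all supports in
`F p lam`, `p' ≥ p` with `c p'` injective on `F p lam`, `j = code p p' …`. -/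
theorem SpN.extend {σ : ℕ → Γ →₀ 𝕜} (h : D.SpN σ) {J : ℕ} (h0 : ∀ j, J ≤ j → σ j = 0) {lam : Γ}
    (hl : ∀ j, ∀ γ ∈ (σ j).support, γ ≤ lam) (q : ℕ) :
    ∃ j, q ≤ j ∧ J ≤ j ∧ ∀ f, D.Node j f → (∀ i, Lt (σ i) f) → D.SpN (Function.update σ j f) := by
  classical
  have e1 : ∀ᶠ p in atTop, ∀ i ∈ Finset.range J, ∀ γ ∈ (σ i).support, γ ∈ D.F p lam := by
    rw [Filter.eventually_all_finset]
    intro i _
    rw [Filter.eventually_all_finset]
    intro γ hγ
    obtain ⟨p, hp⟩ := D.F_cov lam γ (hl i γ hγ)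
    exact eventually_atTop.2 ⟨p, fun n hn => D.F_mono _ _ _ hn hp⟩
  obtain ⟨p, hp, hp2⟩ := (e1.and (eventually_ge_atTop (max J q))).exists
  obtain ⟨p', hp', hp2'⟩ := ((D.eventually_injOn (D.F p lam)).and (eventually_ge_atTop p)).exists
  set j := D.code p p' fun i => Finsupp.mapDomain (D.c p') (σ i) with hjd
  have hpj : p ≤ j := D.code_ge _ _ _
  have hJ := max_le_iff.1 hp2
  have hc : D.CodeAt σ j := ⟨lam, p, p', hp2', fun i _ hi => by
    by_contra hn; exact hi (h0 i (by omega)), fun i _ γ hγ => by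
      by_cases hi : i < J
      · exact hp i (Finset.mem_range.2 hi) γ hγ
      · rw [h0 i (by omega)] at hγ; simp at hγ, hp', hjd⟩
  refine ⟨j, by omega, by omega, fun f hf hlt => ⟨⟨fun a b hab => ?_, fun i hi => ?_⟩, fun i => ?_⟩⟩
  · by_cases hb : b = j
    · subst hb
      rw [Function.update_self, Function.update_of_ne hab.ne]; exact hlt a
    · rw [Function.update_of_ne hb]
      by_cases ha : a = j
      · rw [h0 b (by omega)]; intro a _ b hb; simp at hb
      · rw [Function.update_of_ne ha]; exact h.1.1 a b hab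
  · by_cases hij : i = j
    · rw [hij]
      exact hc.congr fun i' hi' => Function.update_of_ne hi'.ne _ _
    · rw [Function.update_of_ne hij] at hi
      have hiJ : i < J := by by_contra hn; exact hi (h0 i (by omega))
      exact CodeAt.congr (h.1.2 i hi) fun i' hi' => Function.update_of_ne (by omega) _ _
  · by_cases hij : i = j
    · rw [hij, Function.update_self]; exact hf
    · rw [Function.update_of_ne hij]; exact h.2 i

end Data

end Crest.Agent.R114
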