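import Crest.Agent.R114.Nrm
import Crest.Agent.R114.Spec

/-! The key lemma: if all branches are null, no special sequence hits four generic windows. -/

set_option autoImplicit false
set_option linter.unusedSectionVars false
open Filter Topology

namespace Crest.Agent.R114

variable {𝕜 : Type} [RCLike 𝕜] {Γ : Type} [LinearOrder Γ]

theorem Hits.exists_mem {x : ℕ → Γ →₀ 𝕜} {J : ℕ → ℕ} {δ : ℝ} (hδ : 0 < δ) {σ : ℕ → Γ →₀ 𝕜}
    {k : ℕ} (h : Hits x J δ σ k) :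
    ∃ j, J k ≤ j ∧ j < J (k + 1) ∧ ∃ β, β ∈ (σ j).support ∧ β ∈ (x k).support := by
  have h1 : ∑ j ∈ Finset.Ico (J k) (J (k + 1)), pair (σ j) (x k) ≠ 0 := by
    intro h0
    unfold Hits at h
    rw [h0, norm_zero] at h
    exact lt_asymm hδ h
  obtain ⟨j, hj, h2⟩ := Finset.exists_ne_zero_of_sum_ne_zero h1
  rw [Finset.mem_Ico] at hj
  exact ⟨j, hj.1, hj.2, exists_of_pair_ne_zero h2⟩

theorem Hits.congr {x : ℕ → Γ →₀ 𝕜} {J : ℕ → ℕ} {δ : ℝ} {σ τ : ℕ → Γ →₀ 𝕜} {k : ℕ}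
    (h : Hits x J δ σ k) (e : ∀ j < J (k + 1), σ j = τ j) : Hits x J δ τ k := by
  unfold Hits at h ⊢
  have : ∑ j ∈ Finset.Ico (J k) (J (k + 1)), pair (σ j) (x k)
      = ∑ j ∈ Finset.Ico (J k) (J (k + 1)), pair (τ j) (x k) :=
    Finset.sum_congr rfl fun j hj => by rw [e j (Finset.mem_Ico.1 hj).2]
  rwa [← this]

theorem key_enum {α : Type*} (A : Set α) (M : ℕ) (a0 : α)
    (h : ∀ U : Finset α, (U : Set α) ⊆ A → U.card ≤ M) :
    ∃ P : Fin M → α, (∀ q, P q ∈ A ∨ P q = a0) ∧ ∀ a ∈ A, ∃ q, a = P q := by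
  classical
  have hA : A.Finite := by
    by_contra hA
    obtain ⟨U, hU, hc⟩ := Set.Infinite.exists_subset_card_eq hA (M + 1)
    have := h U hU
    omega
  have hc := h hA.toFinset (by simp)
  refine ⟨fun q => if hq : q.val < hA.toFinset.card then (hA.toFinset.equivFin.symm ⟨q, hq⟩ : α)
    else a0, fun q => ?_, fun a ha => ?_⟩
  · by_cases hq : q.val < hA.toFinset.card
    · left
      simp only [hq, dif_pos]
      exact hA.mem_toFinset.1 (hA.toFinset.equivFin.symm ⟨q, hq⟩).2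
    · right
      simp only [hq, dif_neg, not_false_eq_true]
  · set i := hA.toFinset.equivFin ⟨a, hA.mem_toFinset.2 ha⟩ with hi
    refine ⟨⟨i.val, i.2.trans_le hc⟩, ?_⟩
    simp only [i.2, dif_pos, Fin.eta]
    rw [hi, Equiv.symm_apply_apply]

namespace Data

variable {D : Data 𝕜 Γ} [Nonempty Γ] {lam : Γ} {x : ℕ → Γ →₀ 𝕜} {J : ℕ → ℕ} {δ : ℝ}

/-- Sketch: two sequences hitting `b < c < d` and sharing a weight `j` in the `d`-window have the same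
truncation at `J b`: `SpN.eq_of_shared` with `k, k'` in the `b`-window (`exists_of_pair_ne_zero` gives
`β, β' ∈ supp (x b) ⊆ F (J (b+1)) lam`), `i₀` in the `c`-window, `s = J (b+1)`.  So the `d`-windows of the
elements of `T` have disjoint weights, and `three_sq` (`E = univ`, `pair_seg_univ`) for `z = x d` gives the bound. -/
theorem RIS.card_le (h : D.RIS lam x J) (hδ : 0 < δ) {b c d : ℕ} (hbc : b < c) (hcd : c < d)
    (T : Finset (ℕ → Γ →₀ 𝕜))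
    (hT : ∀ σ ∈ T, D.SpN σ ∧ Hits x J δ σ b ∧ Hits x J δ σ c ∧ Hits x J δ σ d)
    (hinj : Set.InjOn (trunc (J b)) (T : Set (ℕ → Γ →₀ 𝕜))) : (T.card : ℝ) * δ ^ 2 ≤ 1 := by
  have hm := h.mono.monotone
  have h1 : J (b + 1) ≤ J c := hm hbc
  have h2 : J (c + 1) ≤ J d := hm hcd
  have hd : ∀ σ ∈ T, ∀ σ' ∈ T, σ ≠ σ' → DisW σ (J d) (J (d + 1)) σ' (J d) (J (d + 1)) := by
    intro σ hσ σ' hσ' hne j hj _
    by_contra hcon
    push Not at hcon
    obtain ⟨s1, b1, c1, -⟩ := hT σ hσ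
    obtain ⟨s2, b2, -, -⟩ := hT σ' hσ'
    obtain ⟨k, k1, k2, β, hβ, hβx⟩ := b1.exists_mem hδ
    obtain ⟨k', k1', k2', β', hβ', hβx'⟩ := b2.exists_mem hδ
    obtain ⟨i0, i1, i2, γ, hγ, -⟩ := c1.exists_mem hδ
    have hj1 := (Finset.mem_Ico.1 hj).1
    have hi0 : σ i0 ≠ 0 := fun h0 => by simp [h0] at hγ
    have := SpN.eq_of_shared s1 s2 hcon.1 hcon.2 (k := k) (k' := k') (i₀ := i0) (s := J (b + 1))
      (by omega) (by omega) hβ hβ' (h.anch b hβx) (h.anch b hβx') (by omega) hi0 (by omega)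
    refine hne (hinj hσ hσ' ?_)
    funext i
    unfold trunc
    split_ifs with hi
    · exact this i (by omega) (by omega)
    · rfl
  have h3 := three_sq (D := D) T (fun σ => σ) (fun _ => J d) (fun _ => J (d + 1)) (fun _ => Set.univ)
    (fun σ hσ => (hT σ hσ).1) (fun _ _ => Set.ordConnected_univ) hd (D.bdd_finsupp (x d))
  have h4 : D.nrm (x d) ^ 2 ≤ 1 := pow_le_one₀ (D.nrm_nonneg _) (h.norm d)
  refine le_trans ?_ (h3.trans h4)
  rw [← nsmul_eq_mul]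
  refine Finset.card_nsmul_le_sum _ _ _ fun σ hσ => ?_
  rw [pair_seg_univ]
  exact pow_le_pow_left₀ hδ.le (hT σ hσ).2.2.2.le 2

/-- Consequence: a uniformly bounded number of truncations (take `M ≥ 1 / δ²`, `M > 0`, enumerate with
repetitions, default `0`). -/
theorem RIS.exists_enum (h : D.RIS lam x J) (hδ : 0 < δ) :
    ∃ (M : ℕ) (P : ℕ → ℕ → ℕ → Fin M → ℕ → Γ →₀ 𝕜), (∀ b c d q, D.SpN (P b c d q)) ∧
      ∀ b c d, b < c → c < d → ∀ σ, D.SpN σ → Hits x J δ σ b → Hits x J δ σ c → Hits x J δ σ d →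
        ∃ q, trunc (J b) σ = P b c d q := by
  classical
  obtain ⟨M, hM⟩ := exists_nat_ge (1 / δ ^ 2)
  have key : ∀ b c d : ℕ, ∃ P : Fin M → ℕ → Γ →₀ 𝕜, (∀ q, D.SpN (P q)) ∧
      (b < c → c < d → ∀ σ, D.SpN σ → Hits x J δ σ b → Hits x J δ σ c → Hits x J δ σ d →
        ∃ q, trunc (J b) σ = P q) := by
    intro b c d
    by_cases hbcd : b < c ∧ c < d
    swap
    · exact ⟨fun _ => 0, fun _ => SpN.zero, fun h1 h2 => (hbcd ⟨h1, h2⟩).elim⟩
    obtain ⟨P, hP1, hP2⟩ := key_enum {τ | ∃ σ, (D.SpN σ ∧ Hits x J δ σ b ∧ Hits x J δ σ c ∧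
        Hits x J δ σ d) ∧ trunc (J b) σ = τ} M 0 (by
      intro U hU
      have hch : ∀ τ : ℕ → Γ →₀ 𝕜, ∃ σ : ℕ → Γ →₀ 𝕜, τ ∈ U → (D.SpN σ ∧ Hits x J δ σ b ∧
          Hits x J δ σ c ∧ Hits x J δ σ d) ∧ trunc (J b) σ = τ := by
        intro τ
        by_cases hτ : τ ∈ U
        · obtain ⟨σ, hσ⟩ := hU hτ
          exact ⟨σ, fun _ => hσ⟩
        · exact ⟨0, fun h => (hτ h).elim⟩
      choose g hg using hch
      have hinj : Set.InjOn g (U : Set (ℕ → Γ →₀ 𝕜)) := fun τ hτ τ' hτ' e => by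
        rw [← (hg τ hτ).2, ← (hg τ' hτ').2, e]
      have h1 := h.card_le hδ hbcd.1 hbcd.2 (U.image g) (by
        intro σ hσ
        obtain ⟨τ, hτ, rfl⟩ := Finset.mem_image.1 hσ
        exact (hg τ hτ).1) (by
        intro σ hσ σ' hσ' e
        obtain ⟨τ, hτ, rfl⟩ := Finset.mem_image.1 (Finset.mem_coe.1 hσ)
        obtain ⟨τ', hτ', rfl⟩ := Finset.mem_image.1 (Finset.mem_coe.1 hσ')
        rw [(hg τ hτ).2, (hg τ' hτ').2] at e
        rw [e])
      rw [Finset.card_image_of_injOn hinj, ← le_div_iff₀ (by positivity)] at h1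
      exact_mod_cast h1.trans hM)
    refine ⟨P, fun q => ?_, fun _ _ σ h1 h2 h3 h4 => hP2 _ ⟨σ, ⟨h1, h2, h3, h4⟩, rfl⟩⟩
    rcases hP1 q with ⟨σ, hσ, e⟩ | e
    · rw [← e]; exact hσ.1.trunc _
    · rw [e]; exact SpN.zero
  choose P hP1 hP2 using key
  exact ⟨M, P, hP1, hP2⟩

/-- Compactness: for each `a < a' < a''` in `S`, `trunc (J a) (Q t)` takes finitely many values for
`𝒱`-most `t`, so it is `𝒱`-almost constant (`Ultrafilter.eventually_exists_iff`-type lemma for a finite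
index); hence each `Q t j` is `𝒱`-almost constant, `= σ j`; `SpN.of_local`. -/
theorem RIS.exists_branch (h : D.RIS lam x J) (hδ : 0 < δ) {τ : Type} (𝒱 : Ultrafilter τ)
    (Q : τ → ℕ → Γ →₀ 𝕜) (hQ : ∀ t, D.SpN (Q t)) (S : Set ℕ) (hS : S.Infinite)
    (hh : ∀ a ∈ S, ∀ᶠ t in (𝒱 : Filter τ), Hits x J δ (Q t) a) :
    ∃ σ, D.SpN σ ∧ ∀ a ∈ S, Hits x J δ σ a := by
  obtain ⟨M, P, -, hP⟩ := h.exists_enum hδ
  have h1 : ∀ j, ∃ f, ∀ᶠ t in (𝒱 : Filter τ), Q t j = f := by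
    intro j
    obtain ⟨a, ha, hja⟩ := hS.exists_gt j
    obtain ⟨a', ha', h1⟩ := hS.exists_gt a
    obtain ⟨a'', ha'', h2⟩ := hS.exists_gt a'
    have h3 : ∀ᶠ t in (𝒱 : Filter τ), ∃ q, trunc (J a) (Q t) = P a a' a'' q := by
      filter_upwards [hh a ha, hh a' ha', hh a'' ha''] with t e1 e2 e3
      exact hP a a' a'' h1 h2 _ (hQ t) e1 e2 e3
    obtain ⟨q, hq⟩ := Ultrafilter.eventually_exists_iff.1 h3
    refine ⟨P a a' a'' q j, ?_⟩
    filter_upwards [hq] with t e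
    rw [← e]
    unfold trunc
    rw [if_pos (hja.trans_le (h.mono.id_le a))]
  choose σ hσ using h1
  have h2 : ∀ N : ℕ, ∀ᶠ t in (𝒱 : Filter τ), ∀ j < N, Q t j = σ j := by
    intro N
    exact ((Set.finite_Iio N).eventually_all (p := fun j t => Q t j = σ j)).2 fun j _ => hσ j
  refine ⟨σ, SpN.of_local fun N => ?_, fun a ha => ?_⟩
  · obtain ⟨t, ht⟩ := (h2 N).exists
    exact ⟨Q t, hQ t, fun j hj => (ht j hj).symm⟩
  · obtain ⟨t, ht1, ht2⟩ := ((hh a ha).and (h2 (J (a + 1)))).exists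
    exact ht1.congr ht2

/-- Sketch: supports: for `γ ∈ supp (σ j)` take `a ∈ S` with `j < J a`, a weight `j'` of the `a`-window and
`β ∈ supp (σ j') ∩ supp (x a)`; `γ < β ≤ lam` (`anch`, `F_le`).  With `ε = δ/2`, `C = 1`, `u = x a` for `a ∈ S`
large: fix `p` with `8 / mm p ≤ δ/4`; the weights `< p` vanish on `x a` (`Succ.eventually_pair_left`), those
in `[p, J a)` contribute `≤ 8 / mm p` (`good`, `sum_inv_mm_le`), those `≥ J (a+1)` at most `2^{-a}` (`tiny`). -/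
theorem RIS.notNull (h : D.RIS lam x J) (hδ : 0 < δ) {v : ℕ → Γ →₀ 𝕜} (hx : ∀ k, x k ∈ Blk v k)
    {σ : ℕ → Γ →₀ 𝕜} (hσ : D.SpN σ) (S : Set ℕ) (hS : S.Infinite)
    (hh : ∀ a ∈ S, Hits x J δ σ a) : D.NotNull v lam := by
  refine ⟨σ, hσ, fun j γ hγ => ?_, 1, δ / 2, by positivity, fun m => ?_⟩
  · obtain ⟨a, ha, hja⟩ := hS.exists_gt j
    obtain ⟨j', j1, -, β, hβ, hβx⟩ := (hh a ha).exists_mem hδ
    have h1 : j < j' := (hja.trans_le (h.mono.id_le a)).trans_le j1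
    exact (hσ.1.1 j j' h1 γ hγ β hβ).trans_le (D.F_le _ _ _ (h.anch a hβx))
  have hpow : ∀ᶠ a : ℕ in atTop, (1 : ℝ) / 2 ^ a ≤ δ / 4 := by
    have ht := tendsto_pow_atTop_nhds_zero_of_lt_one (r := (1 / 2 : ℝ)) (by norm_num) (by norm_num)
    filter_upwards [ht.eventually_le_const (u := δ / 4) (by positivity)] with a ha
    rwa [one_div_pow] at ha
  obtain ⟨p, hp⟩ := hpow.exists
  have hp' : (8 : ℝ) / mm p ≤ δ / 4 := by
    refine le_trans ?_ hp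
    unfold mm
    push_cast
    rw [div_le_div_iff₀ (by positivity) (by positivity), pow_add]
    have : (0 : ℝ) < 2 ^ p := by positivity
    nlinarith
  have hzero : ∀ᶠ a : ℕ in atTop, ∀ i < p, pair (σ i) (x a) = 0 :=
    ((Set.finite_Iio p).eventually_all (p := fun i a => pair (σ i) (x a) = 0)).2
      fun i _ => h.succ.eventually_pair_left (σ i)
  obtain ⟨a, ha, ⟨⟨e1, e2⟩, e3⟩, e4⟩ := ((Nat.frequently_atTop_iff_infinite.2 hS).and_eventually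
    (((hpow.and hzero).and (eventually_ge_atTop m)).and (eventually_ge_atTop p))).exists
  refine ⟨x a, Blk_anti v e3 (hx a), h.norm a, ?_⟩
  filter_upwards [eventually_ge_atTop (J (a + 1))] with t ht
  have l1 : p ≤ J a := e4.trans (h.mono.id_le a)
  have l2 : J a ≤ J (a + 1) := h.mono.monotone (Nat.le_succ a)
  have hsplit : ∑ j ∈ Finset.range t, pair (σ j) (x a) =
      ∑ j ∈ Finset.Ico p (J a), pair (σ j) (x a) + ∑ j ∈ Finset.Ico (J a) (J (a + 1)), pair (σ j) (x a)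
        + ∑ j ∈ Finset.Ico (J (a + 1)) t, pair (σ j) (x a) := by
    rw [Finset.sum_Ico_consecutive _ l1 l2, Finset.sum_Ico_consecutive _ (l1.trans l2) ht,
      Finset.range_eq_Ico, ← Finset.sum_Ico_consecutive _ (Nat.zero_le p) ((l1.trans l2).trans ht),
      Finset.sum_eq_zero (s := Finset.Ico 0 p) fun i hi => e2 i (Finset.mem_Ico.1 hi).2, zero_add]
  have b1 : ‖∑ j ∈ Finset.Ico p (J a), pair (σ j) (x a)‖ ≤ δ / 4 := by
    refine (norm_sum_le _ _).trans (le_trans ?_ hp')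
    calc ∑ j ∈ Finset.Ico p (J a), ‖pair (σ j) (x a)‖
        ≤ ∑ j ∈ Finset.Ico p (J a), 4 * ((1 : ℝ) / mm j) := by
          refine Finset.sum_le_sum fun j hj => ?_
          rw [mul_one_div]
          exact h.good a j (Finset.mem_Ico.1 hj).2 _ (hσ.2 j)
      _ ≤ 4 * (2 / mm p) := by
          rw [← Finset.mul_sum]
          exact mul_le_mul_of_nonneg_left
            (sum_inv_mm_le _ p fun i hi => (Finset.mem_Ico.1 hi).1) (by norm_num)
      _ = 8 / mm p := by ring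
  have b2 : ‖∑ j ∈ Finset.Ico (J (a + 1)) t, pair (σ j) (x a)‖ ≤ δ / 4 :=
    (norm_sum_le _ _).trans ((h.tiny a _ σ fun i hi => ⟨(Finset.mem_Ico.1 hi).1, hσ.2 i⟩).trans e1)
  have b3 : δ < ‖∑ j ∈ Finset.Ico (J a) (J (a + 1)), pair (σ j) (x a)‖ := hh a ha
  rw [hsplit]
  set A := ∑ j ∈ Finset.Ico p (J a), pair (σ j) (x a)
  set B := ∑ j ∈ Finset.Ico (J a) (J (a + 1)), pair (σ j) (x a)
  set C := ∑ j ∈ Finset.Ico (J (a + 1)) t, pair (σ j) (x a)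
  have b4 : ‖B‖ ≤ ‖A + B + C‖ + ‖A‖ + ‖C‖ := by
    calc ‖B‖ = ‖A + B + C - A - C‖ := by congr 1; ring
      _ ≤ ‖A + B + C - A‖ + ‖C‖ := norm_sub_le _ _
      _ ≤ _ := by gcongr; exact norm_sub_le _ _
  linarith

/-- Sketch: otherwise, for `a` in a set `A ∈ 𝒰 = hyperfilter ℕ`, for `𝒰`-most `b, c, d` some `σ` hits
`a, b, c, d`.  Let `𝒱 = 𝒰.bind fun b => 𝒰.bind fun c => 𝒰.map fun d => (b, c, d)`; for `a ∈ A` and
`𝒱`-most `(b,c,d)` (with `a < b < c < d`) some `P b c d q` hits `a` (the `a`-window lies below `J b`), so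
some `q = χ a` works for `𝒱`-most triples; an infinite fibre `S` of `χ`; `exists_branch`, `notNull`. -/
theorem RIS.key (h : D.RIS lam x J) (hδ : 0 < δ) {v : ℕ → Γ →₀ 𝕜} (hx : ∀ k, x k ∈ Blk v k)
    (hn : ¬ D.NotNull v lam) :
    ∀ᶠ a in (hyperfilter ℕ : Filter ℕ), ∀ᶠ b in (hyperfilter ℕ : Filter ℕ),
      ∀ᶠ c in (hyperfilter ℕ : Filter ℕ), ∀ᶠ d in (hyperfilter ℕ : Filter ℕ),
        ¬ ∃ σ, D.SpN σ ∧ Hits x J δ σ a ∧ Hits x J δ σ b ∧ Hits x J δ σ c ∧ Hits x J δ σ d := by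
  by_contra hcon
  simp only [← Ultrafilter.eventually_not, not_not] at hcon
  obtain ⟨M, P, hP1, hP2⟩ := h.exists_enum hδ
  set 𝒱 : Ultrafilter (ℕ × ℕ × ℕ) := (hyperfilter ℕ).bind fun b => (hyperfilter ℕ).bind fun c =>
    (hyperfilter ℕ).map fun d => (b, c, d) with h𝒱
  have hV : ∀ p : ℕ × ℕ × ℕ → Prop, (∀ᶠ b in (hyperfilter ℕ : Filter ℕ),
      ∀ᶠ c in (hyperfilter ℕ : Filter ℕ), ∀ᶠ d in (hyperfilter ℕ : Filter ℕ), p (b, c, d)) →
      ∀ᶠ t in (𝒱 : Filter (ℕ × ℕ × ℕ)), p t := fun p hp => hp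
  have hgt : ∀ a : ℕ, ∀ᶠ b in (hyperfilter ℕ : Filter ℕ), a < b :=
    fun a => Nat.hyperfilter_le_atTop (eventually_gt_atTop a)
  have h1 : ∀ᶠ a in (hyperfilter ℕ : Filter ℕ), ∃ q, ∀ᶠ t in (𝒱 : Filter (ℕ × ℕ × ℕ)),
      Hits x J δ (P t.1 t.2.1 t.2.2 q) a := by
    filter_upwards [hcon] with a ha
    refine Ultrafilter.eventually_exists_iff.1 (hV _ ?_)
    filter_upwards [ha, hgt a] with b hb hab
    filter_upwards [hb, hgt b] with c hc hbc
    filter_upwards [hc, hgt c] with d hd hcd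
    obtain ⟨σ, s, e1, e2, e3, e4⟩ := hd
    obtain ⟨q, hq⟩ := hP2 b c d hbc hcd σ s e2 e3 e4
    refine ⟨q, ?_⟩
    rw [← hq]
    refine e1.congr fun j hj => ?_
    unfold trunc
    rw [if_pos (hj.trans_le (h.mono.monotone hab))]
  obtain ⟨q, hq⟩ := Ultrafilter.eventually_exists_iff.1 h1
  have hS : {a | ∀ᶠ t in (𝒱 : Filter (ℕ × ℕ × ℕ)), Hits x J δ (P t.1 t.2.1 t.2.2 q) a}.Infinite :=
    fun hf => hf.notMem_hyperfilter hq
  obtain ⟨σ, hσ, hh⟩ := h.exists_branch hδ 𝒱 (fun t => P t.1 t.2.1 t.2.2 q) (fun t => hP1 _ _ _ _) _ hS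
    fun a ha => ha
  exact hn (h.notNull hδ hx hσ _ hS hh)

end Data

end Crest.Agent.R114
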