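import Crest.Agent.R114.Exc

/-! The upper estimate for sums of rapidly increasing sequences. -/

set_option autoImplicit false
set_option linter.unusedSectionVars false
open Filter Topology

namespace Crest.Agent.R114

variable {𝕜 : Type} [RCLike 𝕜] {Γ : Type} [LinearOrder Γ]

namespace Data

variable {D : Data 𝕜 Γ} [Nonempty Γ] {lam : Γ} {x : ℕ → Γ →₀ 𝕜} {J : ℕ → ℕ}

theorem sum_half_pow_le (I : Finset ℕ) : ∑ k ∈ I, (1 : ℝ) / 2 ^ k ≤ 2 := by
  have h := summable_geometric_two.sum_le_tsum I (fun i _ => by positivity)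
  rw [tsum_geometric_two] at h
  simpa [one_div, inv_pow] using h

theorem mm_mono {i j : ℕ} (h : i ≤ j) : (mm i : ℝ) ≤ mm j := by
  unfold mm; exact_mod_cast Nat.pow_le_pow_right (by norm_num) (by omega)

theorem mm_posR (j : ℕ) : (0 : ℝ) < mm j := by exact_mod_cast mm_pos j

theorem RIS.low_node (h : D.RIS lam x J) (K : Finset ℕ) (j : ℕ) {A B : ℝ} (hA : 0 ≤ A) (hB : 0 ≤ B)
    (ih : ∀ g, D.W g → ∀ I ⊆ K, ‖pair g ⇑(∑ k ∈ I, x k)‖ ≤ A * I.card + B)
    {i : ℕ} (hi : i ≤ j) {f : Γ →₀ 𝕜} (hf : D.Node i f) {I : Finset ℕ} (hI : I ⊆ K) :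
    ‖pair f ⇑(∑ k ∈ I, x k)‖ ≤ (A * (I.card + nn j) + nn j * B) * (1 / mm i) := by
  classical
  obtain ⟨α, hW, ha, rfl⟩ := hf
  have hn : (nn i : ℝ) ≤ nn j := by exact_mod_cast nn_mono hi
  rw [nodeOf, pair_smul_left, pair_sum_left, norm_mul, norm_inv, RCLike.norm_natCast, mul_comm,
    one_div]
  refine mul_le_mul_of_nonneg_right ?_ (by positivity)
  have h1 : ∀ q, ‖pair (α q) ⇑(∑ k ∈ I, x k)‖ ≤
      A * (I.filter fun k => pair (α q) (x k) ≠ 0).card + B := fun q => by
    have : pair (α q) ⇑(∑ k ∈ I, x k) =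
        pair (α q) ⇑(∑ k ∈ I.filter (fun k => pair (α q) (x k) ≠ 0), x k) := by
      rw [pair_sum_right', pair_sum_right', Finset.sum_filter_ne_zero]
    rw [this]
    exact ih _ (hW q) _ ((Finset.filter_subset _ _).trans hI)
  have h2 := staircase ha.1 h.succ (Finset.range (nn i)) I
  rw [Finset.card_range] at h2
  have h2' : ∑ q ∈ Finset.range (nn i),
      ((I.filter fun k => pair (α q) (x k) ≠ 0).card : ℝ) ≤ nn i + I.card := by
    rw [← Nat.cast_sum, ← Nat.cast_add]
    refine Nat.cast_le.2 ?_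
    convert h2
  refine (norm_sum_le _ _).trans ((Finset.sum_le_sum fun q _ => h1 q).trans ?_)
  rw [Finset.sum_add_distrib, ← Finset.mul_sum, Finset.sum_const, Finset.card_range, nsmul_eq_mul]
  have := mul_le_mul_of_nonneg_left (h2'.trans (add_le_add_left hn _)) hA
  have := mul_le_mul_of_nonneg_right hn hB
  linarith

theorem RIS.high_node (h : D.RIS lam x J) (j : ℕ) {i : ℕ} (hi : j ≤ i) {f : Γ →₀ 𝕜}
    (hf : D.Node i f) (I : Finset ℕ) :
    ‖pair f ⇑(∑ k ∈ I, x k)‖ ≤ 4 / mm j * I.card + 3 := by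
  classical
  have h1 : ∀ k, ‖pair f (x k)‖ ≤
      4 / mm j + 1 / 2 ^ k + (if J k ≤ i ∧ i < J (k + 1) then 1 else 0) := fun k => by
    have p1 : (0 : ℝ) ≤ 4 / mm j := by positivity
    have p2 : (0 : ℝ) ≤ 1 / 2 ^ k := by positivity
    split_ifs with hc
    · have := (hf.w.le_nrm' (x k)).trans (h.norm k)
      linarith
    · by_cases hk : i < J k
      · have := h.good k i hk f hf
        have h4 : (4 : ℝ) / mm i ≤ 4 / mm j :=
          div_le_div_of_nonneg_left (by norm_num) (mm_posR j) (mm_mono hi)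
        linarith
      · have := h.tiny k {i} (fun _ => f) (fun i' hi' => by
          rw [Finset.mem_singleton.1 hi']; exact ⟨by omega, hf⟩)
        rw [Finset.sum_singleton] at this
        linarith
  rw [pair_sum_right']
  refine (norm_sum_le _ _).trans ((Finset.sum_le_sum fun k _ => h1 k).trans ?_)
  rw [Finset.sum_add_distrib, Finset.sum_add_distrib, Finset.sum_const, nsmul_eq_mul,
    Finset.sum_boole]
  have h2 : (I.filter fun k => J k ≤ i ∧ i < J (k + 1)).card ≤ 1 := by
    refine Finset.card_le_one.2 fun a ha b hb => ?_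
    obtain ⟨_, a1, a2⟩ := Finset.mem_filter.1 ha
    obtain ⟨_, b1, b2⟩ := Finset.mem_filter.1 hb
    have := h.mono.lt_iff_lt.1 (a1.trans_lt b2)
    have := h.mono.lt_iff_lt.1 (b1.trans_lt a2)
    omega
  have h2' : ((I.filter fun k => J k ≤ i ∧ i < J (k + 1)).card : ℝ) ≤ 1 := by exact_mod_cast h2
  have := sum_half_pow_le I
  linarith [mul_comm (I.card : ℝ) (4 / mm j)]

theorem RIS.high_three (h : D.RIS lam x J) (j k : ℕ) (hj : j ≤ J k) (S : Finset ℕ) (e : ℕ → 𝕜)
    (f : ℕ → Γ →₀ 𝕜) (hf : ∀ i, ‖e i‖ ≤ 1 ∧ D.Node i (f i)) :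
    ‖∑ i ∈ S.filter (fun i => ¬ i < j), e i * pair (f i) (x k)‖ ≤ 8 / mm j + 1 / 2 ^ k +
      ‖∑ i ∈ S.filter (fun i => J k ≤ i ∧ i < J (k + 1)), e i * pair (f i) (x k)‖ := by
  classical
  have hJ := h.mono (Nat.lt_succ_self k)
  have e1 : ∑ i ∈ S.filter (fun i => ¬ i < j), e i * pair (f i) (x k) =
      ∑ i ∈ S.filter (fun i => j ≤ i ∧ i < J k), e i * pair (f i) (x k) +
      ∑ i ∈ S.filter (fun i => J (k + 1) ≤ i), e i * pair (f i) (x k) +
      ∑ i ∈ S.filter (fun i => J k ≤ i ∧ i < J (k + 1)), e i * pair (f i) (x k) := by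
    simp only [Finset.sum_filter, ← Finset.sum_add_distrib]
    refine Finset.sum_congr rfl fun i _ => ?_
    simp only [Nat.succ_eq_add_one] at hJ
    split_ifs <;> first | omega | simp
  have hb : ∀ T : Finset ℕ, ‖∑ i ∈ T, e i * pair (f i) (x k)‖ ≤ ∑ i ∈ T, ‖pair (f i) (x k)‖ :=
    fun T => (norm_sum_le _ _).trans (Finset.sum_le_sum fun i _ => by
      rw [norm_mul]; exact mul_le_of_le_one_left (norm_nonneg _) (hf i).1)
  rw [e1]
  refine norm_add₃_le.trans (add_le_add_left (add_le_add ?_ ?_) _)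
  · refine (hb _).trans ?_
    have h1 := sum_inv_mm_le (S.filter fun i => j ≤ i ∧ i < J k) j
      (fun i hi => (Finset.mem_filter.1 hi).2.1)
    calc _ ≤ ∑ i ∈ S.filter (fun i => j ≤ i ∧ i < J k), 4 * ((1 : ℝ) / mm i) :=
          Finset.sum_le_sum fun i hi => by
            rw [mul_one_div]; exact h.good k i (Finset.mem_filter.1 hi).2.2 _ (hf i).2
      _ ≤ 8 / mm j := by
          rw [← Finset.mul_sum]
          calc _ ≤ 4 * (2 / (mm j : ℝ)) := by gcongr
            _ = _ := by ring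
  · exact (hb _).trans (h.tiny k _ f fun i hi => ⟨(Finset.mem_filter.1 hi).2, (hf i).2⟩)

/-- Induction on `l`, with `a = 12 / mm (j+1)`, `L = nn j`, `B l = 2 (B₀ + 2) L^l`; `l = 0` is the triangle
inequality.  Step, by `W.cases_comb`: base `≤ 1` (disjoint supports); convex combinations are clear.
A node `f` of weight `i ≤ j` has `nn i ≤ L` children; applying the hypothesis to the child `α q` and
`I q = {k ∈ I | pair (α q) (x k) ≠ 0}`, `staircase` gives
`‖pair f x_I‖ ≤ ((a + 2^{-l}) (|I| + L) + L * B l) / mm i`.  A node of weight `i ≥ j+1` gives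
`≤ 4 |I| / mm (j+1) + 1 + 2` (`good` for `i < J k`, `tiny` for `J (k+1) ≤ i`, one remaining `k`).
Type III: `Three.regroup`; weights `≤ j` give at most `1/16` of the bracket above (`sum_inv_mm_le`); for each
`k` the weights in `[j+1, J k)` give `≤ 8 / mm (j+1)`, those `≥ J (k+1)` give `≤ 2^{-k}`, and the windows
`[J k, J (k+1))` together `≤ B₀` by `ExcBd`. -/
theorem RIS.upper_aux (h : D.RIS lam x J) (K : Finset ℕ) (j : ℕ) (hj : ∀ k ∈ K, j + 1 ≤ J k)
    {B₀ : ℝ} (hB₀ : 0 ≤ B₀) (hB : D.ExcBd x J K B₀) (l : ℕ) :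
    ∀ g, D.W g → ∀ I ⊆ K, ‖pair g ⇑(∑ k ∈ I, x k)‖ ≤
      (12 / mm (j + 1) + 1 / 2 ^ l) * I.card + 2 * (B₀ + 2) * (nn j : ℝ) ^ l := by
  classical
  have hL : (1 : ℝ) ≤ nn j := by exact_mod_cast nn_pos j
  have hm := mm_posR (j + 1)
  have hm64 : (32 : ℝ) ≤ mm (j + 1) := le_trans (by norm_num [mm]) (mm_mono (Nat.zero_le (j + 1)))
  induction l with
  | zero =>
    intro g hg I _
    have h1 : ‖pair g ⇑(∑ k ∈ I, x k)‖ ≤ I.card := by
      rw [pair_sum_right']
      refine (norm_sum_le _ _).trans ((Finset.sum_le_sum fun k _ =>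
        (hg.le_nrm' (x k)).trans (h.norm k)).trans ?_)
      simp
    have : (0 : ℝ) ≤ 12 / mm (j + 1) * I.card := by positivity
    simp only [pow_zero]
    nlinarith
  | succ l ih =>
    set a : ℝ := 12 / mm (j + 1) with ha
    set L : ℝ := (nn j : ℝ) with hLd
    have ha0 : 0 ≤ a := by positivity
    have ha1 : a ≤ 1 := by rw [ha, div_le_one hm]; linarith
    have hp : (0 : ℝ) < 1 / 2 ^ l := by positivity
    have hp1 : (1 : ℝ) / 2 ^ l ≤ 1 := by
      rw [div_le_one (by positivity)]; exact one_le_pow₀ (by norm_num)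
    have hps : (1 : ℝ) / 2 ^ (l + 1) = 1 / 2 ^ l / 2 := by rw [pow_succ]; field_simp
    have hLl : 1 ≤ L ^ l := one_le_pow₀ hL
    set B : ℝ := 2 * (B₀ + 2) * L ^ l with hBd
    have hB4 : 2 * (B₀ + 2) ≤ B := le_mul_of_one_le_right (by positivity) hLl
    have hBs : 2 * (B₀ + 2) * L ^ (l + 1) = L * B := by rw [hBd]; ring
    have hLB : B ≤ L * B := le_mul_of_one_le_left (by linarith) hL
    rw [hBs, hps]
    have hlow : ∀ I ⊆ K, ∀ i ≤ j, ∀ f, D.Node i f → ‖pair f ⇑(∑ k ∈ I, x k)‖ ≤
        ((a + 1 / 2 ^ l) * (I.card + L) + L * B) * (1 / mm i) := fun I hI i hi f hf =>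
      h.low_node K j (by positivity) (by linarith) ih hi hf hI
    -- the bracket divided by sixteen
    have hbr : ∀ n : ℝ, 0 ≤ n → ((a + 1 / 2 ^ l) * (n + L) + L * B) * (1 / 16) ≤
        (a / 16 + 1 / 2 ^ l / 2) * n + L * B / 2 := fun n hn => by
      have h1 : (a + 1 / 2 ^ l) * L ≤ 2 * L := mul_le_mul_of_nonneg_right (by linarith) (by linarith)
      have h2 : 2 * L ≤ L * B := by nlinarith
      have h3 : 0 ≤ 1 / 2 ^ l * n := by positivity
      nlinarith
    intro g hg
    refine W.cases_comb (D := D) (P := fun g => ∀ I ⊆ K, ‖pair g ⇑(∑ k ∈ I, x k)‖ ≤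
      (a + 1 / 2 ^ l / 2) * I.card + L * B) ?_ ?_ ?_ ?_ hg
    · intro γ c hc h1 I _
      have h2 : ‖pair (Finsupp.single γ c) ⇑(∑ k ∈ I, x k)‖ ≤ 1 := by
        by_cases hz : ∃ k ∈ I, γ ∈ (x k).support
        · obtain ⟨k, hk, hγ⟩ := hz
          rw [pair_sum_right', Finset.sum_eq_single k]
          · exact ((W.base γ c hc h1).le_nrm' (x k)).trans (h.norm k)
          · intro b _ hb
            rw [pair_single]
            have : γ ∉ (x b).support := fun hγ' => by
              rcases lt_or_gt_of_ne hb with hlt | hlt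
              · exact lt_irrefl _ (h.succ _ _ hlt γ hγ' γ hγ)
              · exact lt_irrefl _ (h.succ _ _ hlt γ hγ γ hγ')
            rw [Finsupp.notMem_support_iff.1 this, mul_zero]
          · exact fun hn => absurd hk hn
        · push Not at hz
          rw [pair_sum_right', Finset.sum_eq_zero, norm_zero]
          · exact zero_le_one
          · intro k hk
            rw [pair_single, Finsupp.notMem_support_iff.1 (hz k hk), mul_zero]
      have : 0 ≤ (a + 1 / 2 ^ l / 2) * I.card := by positivity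
      linarith
    · intro n c g h1 ihg I hI
      rw [pair_sum_left]
      have h0 : 0 ≤ (a + 1 / 2 ^ l / 2) * I.card + L * B := by
        have : 0 ≤ L * B := by linarith
        positivity
      calc _ ≤ ∑ q ∈ Finset.range n, ‖c q‖ * ((a + 1 / 2 ^ l / 2) * I.card + L * B) := by
            refine (norm_sum_le _ _).trans (Finset.sum_le_sum fun q _ => ?_)
            rw [pair_smul_left, norm_mul]
            exact mul_le_mul_of_nonneg_left (ihg q I hI) (norm_nonneg _)
        _ ≤ _ := by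
            rw [← Finset.sum_mul]; exact mul_le_of_le_one_left h0 h1
    · intro i f hf I hI
      have hI0 : (0 : ℝ) ≤ I.card := Nat.cast_nonneg _
      by_cases hi : i ≤ j
      · have h1 := hlow I hI i hi f hf
        have h2 : (1 : ℝ) / mm i ≤ 1 / 16 :=
          one_div_le_one_div_of_le (by norm_num)
            (le_trans (by norm_num [mm]) (mm_mono (Nat.zero_le i)))
        have h3 := hbr I.card hI0
        have h4 : 0 ≤ (a + 1 / 2 ^ l) * (I.card + L) + L * B := by
          have : 0 ≤ L * B := by linarith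
          positivity
        have h5 := mul_le_mul_of_nonneg_left h2 h4
        have h6 : 0 ≤ a * I.card := by positivity
        nlinarith
      · have h1 := h.high_node (j + 1) (by omega) hf I
        have h2 : (4 : ℝ) / mm (j + 1) = a / 3 := by rw [ha]; ring
        have h6 : 0 ≤ a * I.card := by positivity
        have h7 : 0 ≤ 1 / 2 ^ l / 2 * (I.card : ℝ) := by positivity
        rw [h2] at h1
        nlinarith
    · intro n c σ u v E hT I hI
      have hI0 : (0 : ℝ) ≤ I.card := Nat.cast_nonneg _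
      obtain ⟨S, e, f, hf, e1, e2⟩ := hT.regroup
      have hE := hB n c σ u v E hT
      simp only [e2, pair_sum_left, pair_smul_left] at hE
      rw [e1, pair_sum_left]
      simp only [pair_smul_left]
      rw [← Finset.sum_filter_add_sum_filter_not S (fun i => i < j + 1)]
      refine (norm_add_le _ _).trans ?_
      have h4 : 0 ≤ (a + 1 / 2 ^ l) * (I.card + L) + L * B := by
        have : 0 ≤ L * B := by linarith
        positivity
      have hlo : ‖∑ i ∈ S.filter (fun i => i < j + 1), e i * pair (f i) ⇑(∑ k ∈ I, x k)‖ ≤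
          ((a + 1 / 2 ^ l) * (I.card + L) + L * B) * (1 / 16) := by
        have h1 := sum_inv_mm_le (S.filter fun i => i < j + 1) 0 (fun _ _ => Nat.zero_le _)
        calc _ ≤ ∑ i ∈ S.filter (fun i => i < j + 1),
              ((a + 1 / 2 ^ l) * (I.card + L) + L * B) * (1 / mm i) := by
              refine (norm_sum_le _ _).trans (Finset.sum_le_sum fun i hi => ?_)
              rw [norm_mul]
              exact (mul_le_of_le_one_left (norm_nonneg _) (hf i).1).trans
                (hlow I hI i (Nat.lt_succ_iff.1 (Finset.mem_filter.1 hi).2) _ (hf i).2)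
          _ ≤ _ := by
              rw [← Finset.mul_sum]
              refine mul_le_mul_of_nonneg_left (h1.trans ?_) h4
              norm_num [mm]
      have hhi : ‖∑ i ∈ S.filter (fun i => ¬ i < j + 1), e i * pair (f i) ⇑(∑ k ∈ I, x k)‖ ≤
          8 / mm (j + 1) * I.card + 2 + B₀ := by
        simp only [pair_sum_right', Finset.mul_sum]
        rw [Finset.sum_comm]
        refine (norm_sum_le _ _).trans ((Finset.sum_le_sum fun k hk =>
          h.high_three (j + 1) k (hj k (hI hk)) S e f hf).trans ?_)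
        rw [Finset.sum_add_distrib, Finset.sum_add_distrib, Finset.sum_const, nsmul_eq_mul,
          mul_comm]
        refine add_le_add (add_le_add le_rfl (sum_half_pow_le I)) (le_trans ?_ hE)
        exact Finset.sum_le_sum_of_subset_of_nonneg hI fun _ _ _ => norm_nonneg _
      have h2 : (8 : ℝ) / mm (j + 1) = 2 * a / 3 := by rw [ha]; ring
      rw [h2] at hhi
      have h3 := hbr I.card hI0
      have h6 : 0 ≤ a * I.card := by positivity
      nlinarith

/-- `l = j + 6`, `nn (j+1) = t²` with `t = 16 * mm (j+1) * nn j ^ (j+6)`. -/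
theorem RIS.upper (h : D.RIS lam x J) (K : Finset ℕ) (j : ℕ) (hj : ∀ k ∈ K, j + 1 ≤ J k)
    (hK : K.card = nn (j + 1)) (hB : D.ExcBd x J K (3 * √(K.card) + 1)) :
    D.nrm ⇑(∑ k ∈ K, x k) ≤ 14 * nn (j + 1) / mm (j + 1) := by
  refine nrm_le fun g hg => ?_
  have h1 := h.upper_aux K j hj (by positivity) hB (j + 6) g hg K le_rfl
  have hm := mm_posR (j + 1)
  have hL : (1 : ℝ) ≤ (nn j : ℝ) ^ (j + 6) := one_le_pow₀ (by exact_mod_cast nn_pos j)
  have hm1 : (1 : ℝ) ≤ mm (j + 1) := by exact_mod_cast mm_pos (j + 1)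
  set P : ℝ := (nn j : ℝ) ^ (j + 6) with hP
  set m : ℝ := (mm (j + 1) : ℝ) with hmd
  have hn : (nn (j + 1) : ℝ) = (16 * m * P) ^ 2 := by
    rw [nn]; push_cast; rfl
  have h2 : (2 : ℝ) ^ (j + 6) = m := by rw [hmd, mm]; push_cast; rfl
  have ht : 1 ≤ 16 * m * P := by nlinarith
  rw [hK, h2, hn, Real.sqrt_sq (by linarith)] at h1
  rw [hn]
  refine h1.trans ?_
  set t := 16 * m * P with htd
  have e1 : 14 * t ^ 2 / m = (12 / m + 1 / m) * t ^ 2 + 16 * t * P := by
    rw [htd]; field_simp; ring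
  rw [e1]
  nlinarith

end Data

end Crest.Agent.R114
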