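import Crest.Agent.R114.Avg
import Crest.Agent.R114.Key
import Crest.Agent.R114.Upper

/-! Every block sequence carries a branch that is not null. -/

set_option autoImplicit false
set_option linter.unusedSectionVars false
open Filter Topology

namespace Crest.Agent.R114

variable {𝕜 : Type} [RCLike 𝕜] {Γ : Type} [LinearOrder Γ]

namespace Data

variable {D : Data 𝕜 Γ} [Nonempty Γ]

/-- Sketch: `exists_ris`; `N = nn (j+1)`; `exists_generic_five` with `RIS.key` for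
`δ a = 1 / (N² J (a+1))`; `K` a subset of `S ∩ [max m (j+1), ∞)` with `N` elements (`k ≤ J k`);
`RIS.excBd`, `RIS.upper`; `w = (2 mm (j+1) / N) • ∑_{k ∈ K} x k`, `f` the node with the children `g k`,
`k ∈ K` (`Adm.sub`); `pair (g k) (x l) = 0` for `k ≠ l`. -/
theorem exact_pair {v : ℕ → Γ →₀ 𝕜} {lam : Γ} (hv : Base v lam) (hn : ¬ D.NotNull v lam) (j m : ℕ) :
    ∃ w ∈ Blk v m, ∃ f, D.Node (j + 1) f ∧ (∀ γ ∈ f.support, γ ∈ hull w) ∧ D.nrm w ≤ 28 ∧
      1 ≤ RCLike.re (pair f w) := by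
  classical
  obtain ⟨x, g, J, hR, hA, hx⟩ := exists_ris D hv
  have hN : (0 : ℝ) < nn (j + 1) := by exact_mod_cast nn_pos _
  have hm : (0 : ℝ) < mm (j + 1) := by exact_mod_cast mm_pos _
  have hJ : ∀ k, k ≤ J k := fun k => hR.mono.id_le k
  have hδ : ∀ a, (0 : ℝ) < 1 / ((nn (j + 1) : ℝ) ^ 2 * J (a + 1)) := fun a => by
    have : (0 : ℝ) < J (a + 1) := by exact_mod_cast lt_of_lt_of_le (Nat.succ_pos a) (hJ _)
    positivity
  obtain ⟨S, hS, hP⟩ := exists_generic_five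
    (fun a b c d e => ¬ ∃ σ, D.SpN σ ∧ Hits x J (1 / ((nn (j + 1) : ℝ) ^ 2 * J (a + 1))) σ b ∧
      Hits x J (1 / ((nn (j + 1) : ℝ) ^ 2 * J (a + 1))) σ c ∧
      Hits x J (1 / ((nn (j + 1) : ℝ) ^ 2 * J (a + 1))) σ d ∧
      Hits x J (1 / ((nn (j + 1) : ℝ) ^ 2 * J (a + 1))) σ e)
    fun a => hR.key (hδ a) (fun k => (hx k).1) hn
  obtain ⟨K, hKS, hKc⟩ :=
    (hS.sdiff (Set.finite_lt_nat (max m (j + 1)))).exists_subset_card_eq (nn (j + 1))
  have hK : ∀ k ∈ K, max m (j + 1) ≤ k := fun k hk => not_lt.1 (hKS hk).2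
  have hB := hR.excBd K (by
    rw [hKc]
    exact fun a ha b hb c hc d hd e he =>
      hP a (hKS ha).1 b (hKS hb).1 c (hKS hc).1 d (hKS hd).1 e (hKS he).1)
  have hU := hR.upper K j (fun k hk => ((le_max_right _ _).trans (hK k hk)).trans (hJ k)) hKc hB
  obtain ⟨α, hα, hα1, hα2⟩ := hA.sub K
  have hc : (0 : ℝ) < 2 * mm (j + 1) / nn (j + 1) := by positivity
  have hf : nodeOf (j + 1) α = ((mm (j + 1) : 𝕜)⁻¹) • ∑ k ∈ K, g k := by
    rw [nodeOf, hα2 _ hKc.le]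
  have horth : ∀ k l, k ≠ l → pair (g k) (x l) = 0 := by
    intro k l hkl
    rcases lt_or_gt_of_ne hkl with h | h
    · exact ((hR.succ k l h).mono (hx k).2.2.1 fun _ => mem_hull).pair_left
    · exact ((hR.succ l k h).mono (fun _ => mem_hull) (hx k).2.2.1).pair_right
  refine ⟨((2 * mm (j + 1) / nn (j + 1) : ℝ) : 𝕜) • ∑ k ∈ K, x k, ?_, nodeOf (j + 1) α,
    ⟨α, fun i => ?_, hα, rfl⟩, fun γ hγ => ?_, ?_, ?_⟩
  · exact Submodule.smul_mem _ _ (Submodule.sum_mem _ fun k hk =>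
      Blk_anti v ((le_max_left _ _).trans (hK k hk)) (hx k).1)
  · rcases hα1 i with h | ⟨k, -, h⟩
    · rw [h]; exact W.zero
    · rw [h]; exact (hx k).2.1
  · rw [hf] at hγ
    obtain ⟨k, hk, hγk⟩ := Finsupp.mem_support_finsetSum γ (Finsupp.support_smul hγ)
    obtain ⟨a, ha, b, hb, hab⟩ := (hx k).2.2.1 γ hγk
    have hs : (x k).support ⊆
        (((2 * mm (j + 1) / nn (j + 1) : ℝ) : 𝕜) • ∑ k ∈ K, x k).support := by
      rw [Finsupp.support_smul_eq (RCLike.ofReal_ne_zero.2 hc.ne')]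
      exact hR.succ.support_subset_sum K hk
    exact ⟨a, hs ha, b, hs hb, hab⟩
  · rw [Finsupp.coe_smul, nrm_smul, RCLike.norm_ofReal, abs_of_pos hc]
    refine (mul_le_mul_of_nonneg_left hU hc.le).trans (le_of_eq ?_)
    field_simp
    norm_num
  · have h1 : pair (∑ k ∈ K, g k) ⇑(∑ l ∈ K, x l) = ∑ k ∈ K, pair (g k) (x k) := by
      rw [pair_sum_left]
      refine Finset.sum_congr rfl fun k hk => ?_
      rw [pair_sum_right', Finset.sum_eq_single_of_mem k hk fun l _ hl => horth k l hl.symm]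
    have h2 : ((mm (j + 1) : 𝕜)⁻¹) = (((mm (j + 1) : ℝ)⁻¹ : ℝ) : 𝕜) := by push_cast; rfl
    have h3 : (nn (j + 1) : ℝ) * (1 / 2) ≤ ∑ k ∈ K, RCLike.re (pair (g k) (x k)) := by
      have := Finset.card_nsmul_le_sum K (fun k => RCLike.re (pair (g k) (x k))) (1 / 2)
        fun k _ => (hx k).2.2.2
      rwa [hKc, nsmul_eq_mul] at this
    rw [hf, Finsupp.coe_smul, pair_smul_left, pair_smul_right, h1, h2, RCLike.re_ofReal_mul,
      RCLike.re_ofReal_mul, map_sum]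
    calc (1 : ℝ) = (mm (j + 1) : ℝ)⁻¹ * (2 * mm (j + 1) / nn (j + 1) * (nn (j + 1) * (1 / 2))) := by
          field_simp
      _ ≤ _ := by gcongr

/-- the invariant of the recursion in `core` -/
def CoreInv (D : Data 𝕜 Γ) (v : ℕ → Γ →₀ 𝕜) (lam : Γ) (p : (ℕ → Γ →₀ 𝕜) × ℕ × ℕ) : Prop :=
  D.SpN p.1 ∧ (∀ j, p.2.1 ≤ j → p.1 j = 0) ∧ (∀ j, ∀ γ ∈ (p.1 j).support, γ < lam) ∧
    ∀ u ∈ Blk v p.2.2, ∀ i, Lt (p.1 i) u

theorem core_step {v : ℕ → Γ →₀ 𝕜} {lam : Γ} (hv : Base v lam) (hn : ¬ D.NotNull v lam)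
    (p : (ℕ → Γ →₀ 𝕜) × ℕ × ℕ) (h : D.CoreInv v lam p) :
    ∃ (j m' : ℕ) (w f : Γ →₀ 𝕜), p.2.1 ≤ j ∧ p.2.2 < m' ∧ w ∈ Blk v p.2.2 ∧
      (∀ γ ∈ f.support, γ ∈ hull w) ∧ D.nrm w ≤ 28 ∧ 1 ≤ RCLike.re (pair f w) ∧
      (∀ u ∈ Blk v m', Lt w u) ∧ D.CoreInv v lam (Function.update p.1 j f, j + 1, m') := by
  obtain ⟨σ, J, m⟩ := p
  obtain ⟨h1, h2, h3, h4⟩ := h
  dsimp only at h1 h2 h3 h4 ⊢
  obtain ⟨j, hj1, hj2, hj⟩ := h1.extend h2 (fun j γ hγ => (h3 j γ hγ).le) 1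
  obtain ⟨j, rfl⟩ : ∃ j', j = j' + 1 := ⟨j - 1, by omega⟩
  obtain ⟨w, hw, f, hf, hfw, hw1, hw2⟩ := exact_pair hv hn j m
  obtain ⟨m', hm'⟩ := hv.1.exists_Lt_Blk hw
  have hm'' : ∀ u ∈ Blk v (max m' (m + 1)), Lt w u := fun u hu =>
    hm' u (Blk_anti v (le_max_left _ _) hu)
  refine ⟨j + 1, max m' (m + 1), w, f, hj2, by omega, hw, hfw, hw1, hw2, hm'',
    hj f hf fun i => (h4 w hw i).mono (fun _ => mem_hull) hfw, fun i hi => ?_, fun i γ hγ => ?_,
    fun u hu i => ?_⟩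
  · dsimp only at hi ⊢
    rw [Function.update_of_ne (by omega)]
    exact h2 i (by omega)
  · dsimp only at hγ
    by_cases hi : i = j + 1
    · rw [hi, Function.update_self] at hγ
      obtain ⟨_, _, b, hb, _, hγb⟩ := hfw γ hγ
      exact hγb.trans_lt (hv.lt_of_mem_Blk hw b hb)
    · rw [Function.update_of_ne hi] at hγ
      exact h3 i γ hγ
  · dsimp only at hu ⊢
    by_cases hi : i = j + 1
    · rw [hi, Function.update_self]
      exact (hm'' u hu).mono hfw fun _ => mem_hull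
    · rw [Function.update_of_ne hi]
      exact h4 u (Blk_anti v (by omega) hu) i

/-- Sketch: suppose not.  Build recursively finite special sequences `σ n`, weights `j n` (strictly
increasing, `σ n i = 0` for `i ≥ J n`) and vectors `w n ∈ Blk v n`, successive, by `SpN.extend` and
`exact_pair`: `σ (n+1) = update (σ n) (j n) (f n)`.  The limit `σ` (`σ (j n) = f n`, `0` elsewhere) is special
by `SpN.of_local`, supported below `lam`, and `∑_{i<t} pair (σ i) (w n) = pair (f n) (w n)` for `t > j n`. -/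
theorem core {v : ℕ → Γ →₀ 𝕜} {lam : Γ} (D : Data 𝕜 Γ) (hv : Base v lam) : D.NotNull v lam := by
  by_contra hn
  choose j m' w f hj hm hw hfw hw1 hw2 hlt hinv using
    fun s : {p // D.CoreInv v lam p} => core_step hv hn s.1 s.2
  let nxt : {p // D.CoreInv v lam p} → {p // D.CoreInv v lam p} := fun s => ⟨_, hinv s⟩
  let s0 : {p // D.CoreInv v lam p} := ⟨(0, 0, 0), SpN.zero, fun _ _ => rfl,
    fun _ _ h => by simp at h, fun _ _ _ _ h => by simp at h⟩
  let s : ℕ → {p // D.CoreInv v lam p} := fun n => nxt^[n] s0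
  have hs : ∀ n, (s (n + 1)).1 =
      (Function.update (s n).1.1 (j (s n)) (f (s n)), j (s n) + 1, m' (s n)) := fun n =>
    congrArg Subtype.val (Function.iterate_succ_apply' nxt n s0)
  have hσ : ∀ n, (s (n + 1)).1.1 = Function.update (s n).1.1 (j (s n)) (f (s n)) := fun n => by
    rw [hs]
  have hJ : ∀ n, (s (n + 1)).1.2.1 = j (s n) + 1 := fun n => by rw [hs]
  have hM : ∀ n, (s (n + 1)).1.2.2 = m' (s n) := fun n => by rw [hs]
  have hJm : StrictMono fun n => (s n).1.2.1 := strictMono_nat_of_lt_succ fun n => by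
    have := hj (s n)
    rw [hJ]
    omega
  have hMm : StrictMono fun n => (s n).1.2.2 := strictMono_nat_of_lt_succ fun n => by
    rw [hM]
    exact hm (s n)
  have hJ1 : ∀ n, n ≤ (s n).1.2.1 := fun n => hJm.id_le n
  have hM1 : ∀ n, n ≤ (s n).1.2.2 := fun n => hMm.id_le n
  have hstab : ∀ n n', n ≤ n' → ∀ i < (s n).1.2.1, (s n').1.1 i = (s n).1.1 i := by
    intro n n' hnn i hi
    induction n', hnn using Nat.le_induction with
    | base => rfl
    | succ n' hnn ih =>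
      have h1 : (s n).1.2.1 ≤ (s n').1.2.1 := hJm.monotone hnn
      have h2 := hj (s n')
      rw [hσ, Function.update_of_ne (by omega), ih]
  have hlim : ∀ n, ∀ i < (s n).1.2.1, (s (i + 1)).1.1 i = (s n).1.1 i := by
    intro n i hi
    rcases le_total n (i + 1) with h | h
    · exact hstab _ _ h i hi
    · exact (hstab _ _ h i (hJ1 (i + 1))).symm
  have hlate : ∀ n n', n + 1 ≤ n' → ∀ i, (s (n + 1)).1.2.1 ≤ i → Lt (w (s n)) ((s n').1.1 i) := by
    intro n n' hnn i hi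
    induction n', hnn using Nat.le_induction with
    | base =>
      rw [(s (n + 1)).2.2.1 i hi]
      intro _ _ _ h
      simp at h
    | succ n' hnn ih =>
      rw [hσ]
      by_cases hi' : i = j (s n')
      · rw [hi', Function.update_self]
        have h1 : (s (n + 1)).1.2.2 ≤ (s n').1.2.2 := hMm.monotone hnn
        rw [hM] at h1
        exact (hlt (s n) _ (Blk_anti v h1 (hw (s n')))).mono (fun _ => mem_hull) (hfw (s n'))
      · rw [Function.update_of_ne hi']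
        exact ih
  refine hn ⟨fun i => (s (i + 1)).1.1 i, SpN.of_local fun J => ⟨(s J).1.1, (s J).2.1,
    fun i hi => hlim J i (hi.trans_le (hJ1 J))⟩, fun i => (s (i + 1)).2.2.2.1 i, 28, 1, one_pos,
    fun n => ⟨w (s n), Blk_anti v (hM1 n) (hw (s n)), hw1 (s n), ?_⟩⟩
  refine eventually_atTop.2 ⟨j (s n) + 1, fun t ht => ?_⟩
  beta_reduce
  rw [Finset.sum_eq_single_of_mem (j (s n)) (Finset.mem_range.2 ht)]
  · rw [hlim (n + 1) (j (s n)) (by rw [hJ]; omega), hσ, Function.update_self]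
    exact (hw2 (s n)).trans (RCLike.re_le_norm _)
  · intro i _ hi
    by_cases h : i < (s (n + 1)).1.2.1
    · rw [hlim (n + 1) i h, hσ, Function.update_of_ne hi]
      exact ((s n).2.2.2.2 _ (hw (s n)) i).pair_left
    · have h1 := hJ1 (n + 1)
      exact (hlate n (i + 1) (by omega) i (not_lt.1 h)).pair_right

end Data

end Crest.Agent.R114
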