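import Mathlib

set_option autoImplicit false

namespace Crest.Agent.R114

open Module

theorem det_one_add_proj {𝕜 : Type} [RCLike 𝕜] {E : Type*} [NormedAddCommGroup E]
    [InnerProductSpace 𝕜 E] [FiniteDimensional 𝕜 E] (U : Submodule 𝕜 E) :
    LinearMap.det ((LinearMap.id : E →ₗ[𝕜] E) + (U.starProjection : E →ₗ[𝕜] E)) =
      2 ^ finrank 𝕜 U := by
  set e := Submodule.prodEquivOfIsCompl U Uᗮ U.isCompl_orthogonal with he
  have h : (LinearMap.id : E →ₗ[𝕜] E) + (U.starProjection : E →ₗ[𝕜] E) =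
      (e : (U × Uᗮ) →ₗ[𝕜] E) ∘ₗ
        (LinearMap.prodMap ((2 : 𝕜) • (LinearMap.id : U →ₗ[𝕜] U)) (LinearMap.id : Uᗮ →ₗ[𝕜] Uᗮ)) ∘ₗ
        (e.symm : E →ₗ[𝕜] (U × Uᗮ)) := by
    ext x
    obtain ⟨⟨u, w⟩, rfl⟩ := e.surjective x
    simp only [LinearMap.add_apply, LinearMap.id_apply, LinearMap.comp_apply,
      LinearEquiv.coe_coe, LinearEquiv.symm_apply_apply, LinearMap.prodMap_apply,
      LinearMap.smul_apply, ContinuousLinearMap.coe_coe]
    simp only [he, Submodule.coe_prodEquivOfIsCompl', map_add, Submodule.coe_smul]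
    rw [Submodule.starProjection_mem_subspace_eq_self,
      (Submodule.starProjection_apply_eq_zero_iff U).2 w.2, two_smul]
    abel
  rw [h, LinearMap.det_conj, LinearMap.det_prodMap, LinearMap.det_smul, LinearMap.det_id,
    LinearMap.det_id]
  simp

theorem dr_exists_op {𝕜 : Type} [RCLike 𝕜] {E W : Type*} [NormedAddCommGroup E]
    [InnerProductSpace 𝕜 E] [FiniteDimensional 𝕜 E] [NormedAddCommGroup W] [NormedSpace 𝕜 W]
    [FiniteDimensional 𝕜 W] (M : ℕ) (hM : 0 < M) (hE : finrank 𝕜 E = 3 * M)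
    (hW : finrank 𝕜 W = 3 * M) :
    ∃ A : E →L[𝕜] W, ‖A‖ ≤ 1 ∧ ∀ U : Submodule 𝕜 E, 2 * M ≤ finrank 𝕜 U →
      ∃ e ∈ U, ‖e‖ = 1 ∧ 1 / 2 ≤ ‖A e‖ := by
  set B : W ≃L[𝕜] E := ContinuousLinearEquiv.ofFinrankEq (hW.trans hE.symm) with hB
  set φ : (E →L[𝕜] W) → ℝ := fun A => ‖((B : W →L[𝕜] E) ∘L A).det‖ with hφ
  have hφc : Continuous φ :=
    (ContinuousLinearMap.continuous_det.comp (continuous_const.clm_comp continuous_id)).norm
  have : ProperSpace (E →L[𝕜] W) := FiniteDimensional.proper_rclike 𝕜 _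
  obtain ⟨A, hA, hmax⟩ := (isCompact_closedBall (0 : E →L[𝕜] W) 1).exists_isMaxOn
    ⟨0, by simp⟩ hφc.continuousOn
  rw [mem_closedBall_zero_iff] at hA
  have hsm : ∀ (c : 𝕜) (A' : E →L[𝕜] W), φ (c • A') = ‖c‖ ^ (3 * M) * φ A' := by
    intro c A'
    simp only [hφ, ContinuousLinearMap.det, ContinuousLinearMap.comp_smul,
      ContinuousLinearMap.toLinearMap_smul, LinearMap.det_smul, hE, norm_mul, norm_pow]
  have hpos : 0 < φ A := by
    set c : ℝ := (‖(B.symm : E →L[𝕜] W)‖ + 1)⁻¹ with hc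
    have hc0 : 0 < c := by positivity
    have h1 : φ ((c : 𝕜) • (B.symm : E →L[𝕜] W)) ≤ φ A := by
      apply hmax
      rw [mem_closedBall_zero_iff, norm_smul, RCLike.norm_ofReal, abs_of_pos hc0, hc,
        inv_mul_le_iff₀ (by positivity)]
      linarith
    refine lt_of_lt_of_le ?_ h1
    rw [hsm, RCLike.norm_ofReal, abs_of_pos hc0]
    have : φ (B.symm : E →L[𝕜] W) = 1 := by
      simp [hφ, ContinuousLinearMap.det]
    rw [this]
    positivity
  refine ⟨A, hA, fun U hU => ?_⟩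
  by_contra hcon
  push Not at hcon
  have hU2 : ∀ u ∈ U, ‖A u‖ ≤ ‖u‖ / 2 := by
    intro u hu
    by_cases h0 : u = 0
    · simp [h0]
    have hn : 0 < ‖u‖ := norm_pos_iff.2 h0
    have h1 := hcon (((‖u‖⁻¹ : ℝ) : 𝕜) • u) (U.smul_mem _ hu) (by
      rw [norm_smul, RCLike.norm_ofReal, abs_of_pos (inv_pos.2 hn), inv_mul_cancel₀ hn.ne'])
    rw [map_smul, norm_smul, RCLike.norm_ofReal, abs_of_pos (inv_pos.2 hn),
      inv_mul_lt_iff₀ hn] at h1
    linarith
  set D : E →L[𝕜] E := ContinuousLinearMap.id 𝕜 E + U.starProjection with hD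
  have h1 : φ ((((2 / 3 : ℝ) : 𝕜)) • (A ∘L D)) ≤ φ A := by
    apply hmax
    rw [mem_closedBall_zero_iff]
    refine ContinuousLinearMap.opNorm_le_bound _ zero_le_one fun x => ?_
    rw [smul_apply, norm_smul, RCLike.norm_ofReal, abs_of_pos (by norm_num),
      ContinuousLinearMap.comp_apply, hD, add_apply, ContinuousLinearMap.id_apply, map_add]
    have k1 := norm_add_le (A x) (A (U.starProjection x))
    have k2 := hU2 _ (U.starProjection_apply_mem x)
    have k3 := U.norm_starProjection_apply_le x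
    have k4 : ‖A x‖ ≤ ‖x‖ := (A.le_opNorm x).trans (by
      have := norm_nonneg x
      nlinarith)
    linarith
  have h2 : φ (A ∘L D) = φ A * 2 ^ finrank 𝕜 U := by
    have hd : LinearMap.det (D : E →ₗ[𝕜] E) = 2 ^ finrank 𝕜 U := det_one_add_proj U
    simp only [hφ, ContinuousLinearMap.det, ← ContinuousLinearMap.comp_assoc]
    rw [ContinuousLinearMap.toLinearMap_comp, LinearMap.det_comp, hd, norm_mul, norm_pow,
      RCLike.norm_two]
  rw [hsm, h2, RCLike.norm_ofReal, abs_of_pos (by norm_num)] at h1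
  have h3 : (2 : ℝ) ^ (2 * M) ≤ 2 ^ finrank 𝕜 U := pow_le_pow_right₀ (by norm_num) hU
  have h4 : (1 : ℝ) < (2 / 3) ^ (3 * M) * 2 ^ (2 * M) := by
    rw [pow_mul, pow_mul, ← mul_pow]
    exact one_lt_pow₀ (by norm_num) hM.ne'
  have h5 : (2 / 3 : ℝ) ^ (3 * M) * 2 ^ (2 * M) ≤ (2 / 3) ^ (3 * M) * 2 ^ finrank 𝕜 U := by
    gcongr
  nlinarith

/-- Dvoretzky–Rogers lemma.
Sketch: let `n = 2 M` (`M > 0`), `W` an `n`-dimensional subspace of `V`, `B : W ≃ₗ E`,
`E = EuclideanSpace 𝕜 (Fin n)`.  On the compact set `{A : E →L W | ‖A‖ ≤ 1}` maximise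
`‖det (B ∘ A)‖`; the maximum is positive.  For an orthogonal projection `P` of `E` of rank `k` and
`t > 0`, `A' = (1 + t ‖A P‖)⁻¹ • A (1 + t P)` has norm `≤ 1` and `det (1 + t P) = (1 + t)^k`, so
`(1 + t)^k ≤ (1 + t ‖A P‖)^n`; `t → 0` gives `k ≤ n ‖A P‖`.  (One can avoid projections of general
rank: extend the orthonormal vectors found so far to an orthonormal basis and use the diagonal
operator in that basis.)  Choose inductively orthonormal `e 0, …, e (M-1)` with `‖A (e i)‖ ≥ 1/2`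
(`P` = projection on the orthogonal complement of the earlier ones, rank `≥ n/2`; the norm of
`A P` is attained at a unit vector of the range of `P`).  `v i = A (e i) / ‖A (e i)‖`; the
functional `f ∘ A` on `E` has norm `≤ ‖f‖` and Bessel's inequality (`Orthonormal.sum_inner_products_le`
with the Riesz vector of `f ∘ A`) gives the bound. -/
theorem dvoretzky_rogers {𝕜 : Type} [RCLike 𝕜] {V : Type*} [NormedAddCommGroup V]
    [NormedSpace 𝕜 V] (hV : ¬ FiniteDimensional 𝕜 V) (M : ℕ) :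
    ∃ v : ℕ → V, (∀ i < M, ‖v i‖ = 1) ∧
      ∀ f : StrongDual 𝕜 V, ∑ i ∈ Finset.range M, ‖f (v i)‖ ^ 2 ≤ 4 * ‖f‖ ^ 2 := by
  rcases Nat.eq_zero_or_pos M with rfl | hM
  · exact ⟨0, by simp, fun f => by simp⟩
  have hr : ((3 * M : ℕ) : Cardinal) ≤ Module.rank 𝕜 V := by
    have h1 : ¬ Module.rank 𝕜 V < Cardinal.aleph0 := fun h => hV (Module.rank_lt_aleph0_iff.1 h)
    exact (Cardinal.natCast_lt_aleph0.le).trans (not_lt.1 h1)
  obtain ⟨b, hb⟩ := exists_linearIndependent_of_le_rank hr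
  set W : Submodule 𝕜 V := Submodule.span 𝕜 (Set.range b) with hWd
  have : FiniteDimensional 𝕜 W := FiniteDimensional.span_of_finite 𝕜 (Set.finite_range b)
  have hW : finrank 𝕜 W = 3 * M := by
    rw [hWd, finrank_span_eq_card hb, Fintype.card_fin]
  obtain ⟨A, hA, hU⟩ := dr_exists_op (𝕜 := 𝕜) (E := EuclideanSpace 𝕜 (Fin (3 * M))) (W := W) M hM
    finrank_euclideanSpace_fin hW
  have hind : ∀ i ≤ M, ∃ e : Fin i → EuclideanSpace 𝕜 (Fin (3 * M)),
      Orthonormal 𝕜 e ∧ ∀ j, 1 / 2 ≤ ‖A (e j)‖ := by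
    intro i
    induction i with
    | zero => exact fun _ => ⟨Fin.elim0, Orthonormal.of_isEmpty _, fun j => j.elim0⟩
    | succ i ih =>
      intro hi
      obtain ⟨e, he, he2⟩ := ih (by omega)
      have h1 := Submodule.finrank_add_finrank_orthogonal (Submodule.span 𝕜 (Set.range e))
      have h2 : finrank 𝕜 (Submodule.span 𝕜 (Set.range e)) = i := by
        rw [finrank_span_eq_card he.linearIndependent, Fintype.card_fin]
      rw [h2, finrank_euclideanSpace_fin] at h1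
      obtain ⟨u, hu, hu1, hu2⟩ := hU (Submodule.span 𝕜 (Set.range e))ᗮ (by omega)
      refine ⟨Matrix.vecCons u e, orthonormal_vecCons_iff.2 ⟨hu1, fun j => ?_, he⟩, fun j => ?_⟩
      · exact Submodule.inner_left_of_mem_orthogonal
          (Submodule.subset_span (Set.mem_range_self j)) hu
      · refine Fin.cases ?_ (fun j => ?_) j
        · simpa using hu2
        · simpa using he2 j
  obtain ⟨e, he, he2⟩ := hind M le_rfl
  refine ⟨fun i => if h : i < M then ((‖A (e ⟨i, h⟩)‖⁻¹ : ℝ) : 𝕜) • (A (e ⟨i, h⟩) : V) else 0,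
    fun i hi => ?_, fun f => ?_⟩
  · have hn : 0 < ‖A (e ⟨i, hi⟩)‖ := lt_of_lt_of_le (by norm_num) (he2 _)
    simp only [hi, dif_pos]
    rw [norm_smul, RCLike.norm_ofReal, abs_of_pos (inv_pos.2 hn), Submodule.coe_norm,
      ← Submodule.coe_norm, inv_mul_cancel₀ hn.ne']
  · set g : StrongDual 𝕜 (EuclideanSpace 𝕜 (Fin (3 * M))) := f ∘L W.subtypeL ∘L A with hg
    have hgn : ‖g‖ ≤ ‖f‖ := by
      refine ContinuousLinearMap.opNorm_le_bound _ (norm_nonneg _) fun x => ?_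
      refine (f.le_opNorm _).trans ?_
      have k4 : ‖A x‖ ≤ ‖x‖ := (A.le_opNorm x).trans (by
        have := norm_nonneg x
        nlinarith)
      exact mul_le_mul_of_nonneg_left k4 (norm_nonneg _)
    set r := (InnerProductSpace.toDual 𝕜 (EuclideanSpace 𝕜 (Fin (3 * M)))).symm g with hr'
    have hrn : ‖r‖ = ‖g‖ := LinearIsometryEquiv.norm_map _ _
    have hbes := he.sum_inner_products_le (s := Finset.univ) r
    rw [Finset.sum_range]
    calc _ ≤ ∑ i : Fin M, 4 * ‖inner 𝕜 (e i) r‖ ^ 2 := by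
          refine Finset.sum_le_sum fun i _ => ?_
          have hn : 0 < ‖A (e i)‖ := lt_of_lt_of_le (by norm_num) (he2 _)
          simp only [i.2, dif_pos, Fin.eta]
          rw [norm_inner_symm, hr', InnerProductSpace.toDual_symm_apply, map_smul, norm_smul,
            RCLike.norm_ofReal, abs_of_pos (inv_pos.2 hn), mul_pow]
          have k1 : ‖A (e i)‖⁻¹ ≤ 2 := by
            rw [inv_le_comm₀ hn (by norm_num)]
            simpa using he2 i
          have k2 : ‖A (e i)‖⁻¹ ^ 2 ≤ 4 := by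
            have := inv_pos.2 hn
            nlinarith
          exact mul_le_mul_of_nonneg_right k2 (sq_nonneg _)
      _ ≤ 4 * ‖r‖ ^ 2 := by rw [← Finset.mul_sum]; gcongr
      _ ≤ _ := by rw [hrn]; gcongr

end Crest.Agent.R114
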