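import Crest.Agent.R114.LB

/-! Vectors normed by functionals of small `ℓ²` norm. -/

set_option autoImplicit false
set_option linter.unusedSectionVars false
open Filter Topology

namespace Crest.Agent.R114

variable {𝕜 : Type} [RCLike 𝕜] {Γ : Type} [LinearOrder Γ]

namespace Data

variable {D : Data 𝕜 Γ} [Nonempty Γ]

/-- rotate and restrict to the hull -/
theorem W.deep_rot {g : Γ →₀ 𝕜} (hg : D.W g) (x : Γ →₀ 𝕜) {ε : ℝ} (hε : 0 < ε) :
    ∃ g', D.W g' ∧ l2 g' ≤ l2 g ∧ (∀ γ ∈ g'.support, γ ∈ hull x) ∧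
      ‖pair g x‖ - ε ≤ RCLike.re (pair g' x) := by
  obtain ⟨c, hc, hc1, hc2⟩ := D.exists_rot (pair g x) ε hε
  refine ⟨rs (hull x) (c • g), (hg.smul hc hc1).restr (hull_ordConnected x), ?_,
    fun γ hγ => (mem_support_rs.1 hγ).2, ?_⟩
  · refine (l2_rs_le _ _).trans ?_
    rw [l2_smul]
    exact mul_le_of_le_one_left (l2_nonneg g) hc1
  · rwa [pair_rs', rs_eq_self fun _ => mem_hull, pair_smul_left]

theorem deep_mm_le {i j : ℕ} (h : i ≤ j) : (mm i : ℝ) ≤ mm j := by
  have : mm i ≤ mm j := Nat.pow_le_pow_right (by norm_num) (by omega)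
  exact_mod_cast this

theorem deep_mm_zero : (mm 0 : ℝ) = 32 := by norm_num [mm]

/-- Sketch: suppose that `‖pair g x‖ ≤ 5/8` for all `g ∈ W` with `l2 g ≤ 4 / mm J`.  By `W.cases_comb` every
`f ∈ W` has `‖pair f x‖ ≤ 7/8`: base `≤ 1/2`; nodes of weight `< J` by `Good`, of weight `≥ J` by
`Node.l2_le`; type III: `Three.regroup`, the weights `< J` contribute `≤ ∑ 4 / mm i ≤ 1/4`, the rest is the
window `[J, b)` (`b` large), an element of `W` (`Three.window`) with `l2 ≤ ∑_{i ≥ J} 2 / mm i ≤ 4 / mm J`.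
This contradicts `nrm x = 1`.  Rotate (`exists_rot`, `W.smul`) and restrict to `hull x`. -/
theorem Good.exists_deep {J : ℕ} {x : Γ →₀ 𝕜} (h : D.Good J x) (h1 : D.nrm x = 1)
    (hs : ∀ γ, ‖x γ‖ ≤ 1 / 2) : ∃ g, D.W g ∧ l2 g ≤ 4 / mm J ∧ (∀ γ ∈ g.support, γ ∈ hull x) ∧
      1 / 2 ≤ RCLike.re (pair g x) := by
  classical
  by_contra hn
  have hm : ∀ i, (0 : ℝ) < mm i := fun i => by exact_mod_cast mm_pos i
  have hA : ∀ g, D.W g → l2 g ≤ 4 / mm J → ‖pair g x‖ ≤ 5 / 8 := by
    intro g hg hl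
    by_contra hlt
    obtain ⟨g', h1, h2, h3, h4⟩ := hg.deep_rot x (ε := 1 / 8) (by norm_num)
    exact hn ⟨g', h1, h2.trans hl, h3, by linarith [not_le.1 hlt]⟩
  have hB : ∀ f, D.W f → ‖pair f x‖ ≤ 7 / 8 := by
    intro f hf
    refine W.cases_comb (P := fun f => ‖pair f x‖ ≤ 7 / 8) ?_ ?_ ?_ ?_ hf
    · intro γ c _ hc
      rw [pair_single, norm_mul]
      have := mul_le_mul hc (hs γ) (norm_nonneg _) zero_le_one
      linarith
    · intro n c g hc hg
      rw [pair_sum_left]
      refine (norm_sum_le _ _).trans ?_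
      calc ∑ q ∈ Finset.range n, ‖pair (c q • g q) x‖
          ≤ ∑ q ∈ Finset.range n, ‖c q‖ * (7 / 8) := Finset.sum_le_sum fun q _ => by
            rw [pair_smul_left, norm_mul]
            exact mul_le_mul_of_nonneg_left (hg q) (norm_nonneg _)
        _ ≤ 7 / 8 := by
            rw [← Finset.sum_mul]
            linarith
    · intro j f hf
      rcases lt_or_ge j J with hj | hj
      · refine (h j hj f hf).trans ?_
        have h0 := deep_mm_le (Nat.zero_le j)
        rw [deep_mm_zero] at h0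
        rw [div_le_iff₀ (hm j)]
        linarith
      · refine (hA f hf.w (hf.l2_le.trans ?_)).trans (by norm_num)
        exact div_le_div₀ (by norm_num) (by norm_num) (hm J) (deep_mm_le hj)
    · intro n c σ u v E hT
      obtain ⟨S, e, f, hef, h1, h2⟩ := hT.regroup
      have hW := W.three' (hT.window J (S.sup id + 1))
      rw [h2] at hW
      have hfil : S.filter (fun i => J ≤ i ∧ i < S.sup id + 1) = S.filter fun i => ¬ i < J := by
        refine Finset.filter_congr fun i hi => ?_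
        have : i ≤ S.sup id := Finset.le_sup (f := id) hi
        omega
      rw [hfil] at hW
      have hl : l2 (∑ i ∈ S.filter (fun i => ¬ i < J), e i • f i) ≤ 4 / mm J := by
        refine (l2_sum_le _ _).trans ?_
        have h3 := sum_inv_mm_le (S.filter fun i => ¬ i < J) J
          fun i hi => not_lt.1 (Finset.mem_filter.1 hi).2
        calc ∑ i ∈ S.filter (fun i => ¬ i < J), l2 (e i • f i)
            ≤ ∑ i ∈ S.filter (fun i => ¬ i < J), 2 * (1 / (mm i : ℝ)) :=
              Finset.sum_le_sum fun i _ => by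
                rw [l2_smul, mul_one_div]
                exact (mul_le_of_le_one_left (l2_nonneg _) (hef i).1).trans (hef i).2.l2_le
          _ ≤ 2 * (2 / mm J) := by
              rw [← Finset.mul_sum]
              linarith
          _ = 4 / mm J := by ring
      have h4 := hA _ hW hl
      have h5 : ‖pair (∑ i ∈ S.filter (fun i => i < J), e i • f i) x‖ ≤ 1 / 4 := by
        rw [pair_sum_left]
        refine (norm_sum_le _ _).trans ?_
        have h3 := sum_inv_mm_le (S.filter fun i => i < J) 0 fun i _ => Nat.zero_le i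
        rw [deep_mm_zero] at h3
        calc ∑ i ∈ S.filter (fun i => i < J), ‖pair (e i • f i) x‖
            ≤ ∑ i ∈ S.filter (fun i => i < J), 4 * (1 / (mm i : ℝ)) :=
              Finset.sum_le_sum fun i hi => by
                rw [pair_smul_left, norm_mul, mul_one_div]
                exact (mul_le_of_le_one_left (norm_nonneg _) (hef i).1).trans
                  (h i (Finset.mem_filter.1 hi).2 _ (hef i).2)
          _ ≤ 1 / 4 := by
              rw [← Finset.mul_sum]
              linarith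
      rw [h1, ← Finset.sum_filter_add_sum_filter_not S (fun i => i < J), pair_add_left]
      refine (norm_add_le _ _).trans ?_
      linarith
  have := nrm_le hB
  linarith

/-- The constraints on the children make vectors of small sup norm good.  Let `f = nodeOf i α`, `i < J`,
`S q = ∑_{q' < q} card supp (α q')`.  Children with `S q ≥ T` have `l2 ≤ 2^{-T}` and contribute
`≤ nn i / nn J ≤ 1`; the last child `q₀` with `S q₀ < T` contributes `≤ 1`; those before it have total
support size `< T` and contribute `≤ T * (1 / (T+1)) ≤ 1` (`norm_pair_le_card`). -/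
theorem good_of_small {J T : ℕ} {x : Γ →₀ 𝕜} (h1 : D.nrm x ≤ 1)
    (hs : ∀ γ, ‖x γ‖ ≤ 1 / (T + 1))
    (hd : ∀ g, D.W g → l2 g * 2 ^ T ≤ 1 → ‖pair g x‖ ≤ 1 / nn J) : D.Good J x := by
  rintro i hi f ⟨α, hW, hA, rfl⟩
  have hm : (0 : ℝ) < mm i := by exact_mod_cast mm_pos i
  have hN : (0 : ℝ) < nn J := by exact_mod_cast nn_pos J
  have hT : (0 : ℝ) < T + 1 := by positivity
  have key : ∀ n, (∑ q ∈ Finset.range n, (α q).support.card ≤ T →
      ∑ q ∈ Finset.range n, ‖pair (α q) x‖ ≤
        ((∑ q ∈ Finset.range n, (α q).support.card : ℕ) : ℝ) * (1 / (T + 1))) ∧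
      ∑ q ∈ Finset.range n, ‖pair (α q) x‖ ≤ 2 + n * (1 / nn J) := by
    intro n
    induction n with
    | zero => simp
    | succ n ih =>
      rw [Finset.sum_range_succ, Finset.sum_range_succ]
      constructor
      · intro h
        have h2 := ih.1 (by omega)
        have h3 := norm_pair_le_card (α n) x 1 _ (hW n).norm_apply_le hs
        rw [Nat.cast_add, add_mul]
        rw [one_mul] at h3
        exact add_le_add h2 h3
      · by_cases h : ∑ q ∈ Finset.range n, (α q).support.card ≤ T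
        · have h2 := ih.1 h
          have h3 : ((∑ q ∈ Finset.range n, (α q).support.card : ℕ) : ℝ) * (1 / (T + 1)) ≤ 1 := by
            rw [mul_one_div, div_le_one hT]
            have : ((∑ q ∈ Finset.range n, (α q).support.card : ℕ) : ℝ) ≤ T := by exact_mod_cast h
            linarith
          have h4 := ((hW n).le_nrm' x).trans h1
          have h5 : (0 : ℝ) ≤ ((n + 1 : ℕ) : ℝ) * (1 / nn J) := by positivity
          linarith
        · have h3 : l2 (α n) * 2 ^ T ≤ 1 := by
            refine le_trans ?_ (hA.2 n)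
            exact mul_le_mul_of_nonneg_left (pow_le_pow_right₀ (by norm_num) (by omega))
              (l2_nonneg _)
          have h4 := hd _ (hW n) h3
          have h5 := ih.2
          push_cast
          linarith
  have h2 : (nn i : ℝ) * (1 / nn J) ≤ 1 := by
    rw [mul_one_div, div_le_one hN]
    exact_mod_cast nn_mono hi.le
  rw [nodeOf, pair_smul_left, norm_mul, norm_inv, RCLike.norm_natCast, pair_sum_left,
    ← div_eq_inv_mul]
  refine div_le_div_of_nonneg_right ((norm_sum_le _ _).trans ?_) hm.le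
  linarith [(key (nn i)).2]

/-- Sketch: otherwise for every `δ > 0` there are `η, m` with `‖pair g x‖ ≤ δ` whenever `x ∈ Blk v m`,
`nrm x ≤ 1`, `g ∈ W`, `l2 g ≤ η` (restrict to the hull and rotate).  Use it for `δ = 1/4` (`η₁, m₁`), choose
`J` with `4 / mm J ≤ η₁`, use it for `δ = 1 / nn J` (`η₂, m₂`, `2^{-T} ≤ η₂`, `T ≥ 1`), take `x` from
`exists_small_sup` in `Blk v (max m₁ m₂)`; `good_of_small` and `Good.exists_deep` contradict. -/
theorem exists_deep {v : ℕ → Γ →₀ 𝕜} {lam : Γ} (D : Data 𝕜 Γ) (hv : Base v lam) :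
    ∃ δ > (0 : ℝ), ∀ η > (0 : ℝ), ∀ m, ∃ x ∈ Blk v m, ∃ g, D.W g ∧ D.nrm x ≤ 1 ∧ l2 g ≤ η ∧
      (∀ γ ∈ g.support, γ ∈ hull x) ∧ δ ≤ RCLike.re (pair g x) := by
  by_contra hn
  push Not at hn
  have key : ∀ δ > (0 : ℝ), ∃ η > (0 : ℝ), ∃ m, ∀ x ∈ Blk v m, D.nrm x ≤ 1 → ∀ g, D.W g →
      l2 g ≤ η → ‖pair g x‖ ≤ δ := by
    intro δ hδ
    obtain ⟨η, hη, m, h⟩ := hn (δ / 2) (half_pos hδ)
    refine ⟨η, hη, m, fun x hx h1 g hg hl => ?_⟩
    obtain ⟨g', h2, h3, h4, h5⟩ := hg.deep_rot x (half_pos hδ)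
    have := h x hx g' h2 h1 (h3.trans hl) h4
    linarith
  obtain ⟨η₁, hη₁, m₁, h₁⟩ := hn (1 / 2) (by norm_num)
  obtain ⟨J, hJ⟩ : ∃ J, 4 / (mm J : ℝ) ≤ η₁ := by
    obtain ⟨J, hJ⟩ := pow_unbounded_of_one_lt (4 / η₁) (one_lt_two (α := ℝ))
    have hm : (0 : ℝ) < mm J := by exact_mod_cast mm_pos J
    have h2 : (2 : ℝ) ^ J ≤ mm J := by
      have : 2 ^ J ≤ mm J := Nat.pow_le_pow_right (by norm_num) (by omega)
      exact_mod_cast this
    refine ⟨J, ?_⟩
    rw [div_le_iff₀ hm, ← div_le_iff₀' hη₁]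
    linarith
  have hN : (0 : ℝ) < nn J := by exact_mod_cast nn_pos J
  obtain ⟨η₂, hη₂, m₂, h₂⟩ := key (1 / nn J) (by positivity)
  obtain ⟨T, hT⟩ := pow_unbounded_of_one_lt (1 / η₂) (one_lt_two (α := ℝ))
  obtain ⟨x, hx, hx1, hx2⟩ := exists_small_sup D hv (max m₁ m₂)
    (ε := 1 / (((T + 1 : ℕ) : ℝ) + 1)) (by positivity)
  have hG : D.Good J x := by
    refine good_of_small (T := T + 1) hx1.le hx2 fun g hg hl =>
      h₂ x (Blk_anti v (le_max_right _ _) hx) hx1.le g hg ?_
    rw [div_lt_iff₀ hη₂] at hT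
    have h2 : (0 : ℝ) < 2 ^ T := by positivity
    have h3 : l2 g * 2 ^ T ≤ η₂ * 2 ^ T := by
      have h4 : 0 ≤ l2 g * 2 ^ T := mul_nonneg (l2_nonneg g) h2.le
      rw [pow_succ, ← mul_assoc] at hl
      linarith
    exact le_of_mul_le_mul_right h3 h2
  obtain ⟨g, hg, hl, hh, hr⟩ := hG.exists_deep hx1 fun γ => (hx2 γ).trans (by
    refine one_div_le_one_div_of_le (by norm_num) ?_
    have : (0 : ℝ) ≤ T := Nat.cast_nonneg T
    push_cast
    linarith)
  have := h₁ x (Blk_anti v (le_max_left _ _) hx) g hg hx1.le (hl.trans hJ) hh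
  linarith

end Data

end Crest.Agent.R114
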