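import Mathlib

/-!
Row 114, part S0152: definitions.

`Γ` will be `ω₁`.  `W` is a norming set of finitely supported functionals (a Gowers-tree-type
construction), `Z` (file `Zsp`) the space of all `z : Γ → 𝕜` on which `W` is bounded, and the
example is a predual `X ⊆ Z*` of `Z` which contains a perturbation of every branch functional.
-/

set_option autoImplicit false
open Filter Topology

namespace Crest.Agent.R114

/-- the weights `m j = 2^(j+5)` -/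
def mm (j : ℕ) : ℕ := 2 ^ (j + 5)

/-- the lengths `n j` -/
def nn : ℕ → ℕ
  | 0 => 1024
  | j + 1 => (16 * mm (j + 1) * nn j ^ (j + 6)) ^ 2

variable {𝕜 : Type} [RCLike 𝕜] {Γ : Type} [LinearOrder Γ]

/-- bilinear pairing of a finitely supported functional with a function -/
noncomputable def pair (f : Γ →₀ 𝕜) (z : Γ → 𝕜) : 𝕜 := f.sum fun γ c => c * z γ

/-- the `ℓ²` norm -/
noncomputable def l2 (f : Γ →₀ 𝕜) : ℝ := √(∑ γ ∈ f.support, ‖f γ‖ ^ 2)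

/-- restriction to a set -/
noncomputable def rs (E : Set Γ) (f : Γ →₀ 𝕜) : Γ →₀ 𝕜 := by
  classical exact f.filter (· ∈ E)

/-- the support of `f` lies before the support of `g` -/
def Lt (f g : Γ →₀ 𝕜) : Prop := ∀ a ∈ f.support, ∀ b ∈ g.support, a < b

/-- successive supports -/
def Succ (α : ℕ → Γ →₀ 𝕜) : Prop := ∀ i j, i < j → Lt (α i) (α j)

/-- the order-convex hull of the support -/
def hull (f : Γ →₀ 𝕜) : Set Γ := {c | ∃ a ∈ f.support, ∃ b ∈ f.support, a ≤ c ∧ c ≤ b}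

/-- admissible children of a node -/
def Adm (α : ℕ → Γ →₀ 𝕜) : Prop :=
  Succ α ∧ ∀ i, l2 (α i) * 2 ^ (∑ i' ∈ Finset.range i, (α i').support.card) ≤ 1

/-- the node of weight `j` with children `α` -/
noncomputable def nodeOf (j : ℕ) (α : ℕ → Γ →₀ 𝕜) : Γ →₀ 𝕜 :=
  ((mm j : 𝕜)⁻¹) • ∑ i ∈ Finset.range (nn j), α i

/-- a segment: the entries with weight in `[u, v)`, restricted to `E` -/
noncomputable def seg (σ : ℕ → Γ →₀ 𝕜) (u v : ℕ) (E : Set Γ) : Γ →₀ 𝕜 :=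
  rs E (∑ j ∈ Finset.Ico u v, σ j)

/-- two segments use different weights -/
def DisW (σ : ℕ → Γ →₀ 𝕜) (u v : ℕ) (σ' : ℕ → Γ →₀ 𝕜) (u' v' : ℕ) : Prop :=
  ∀ j, j ∈ Finset.Ico u v → j ∈ Finset.Ico u' v' → σ j = 0 ∨ σ' j = 0

/-- the span of the `v k`, `k ≥ m` -/
noncomputable def Blk (v : ℕ → Γ →₀ 𝕜) (m : ℕ) : Submodule 𝕜 (Γ →₀ 𝕜) := Submodule.span 𝕜 (v '' Set.Ici m)

/-- The coding data: a coherent system of finite sets (a `ρ`-function), separating colourings, a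
countable dense subfield and an injective coding. -/
structure Data (𝕜 : Type) [RCLike 𝕜] (Γ : Type) [LinearOrder Γ] where
  F : ℕ → Γ → Finset Γ
  F_le : ∀ p a b, b ∈ F p a → b ≤ a
  F_mono : ∀ p q a, p ≤ q → F p a ⊆ F q a
  F_cov : ∀ a b, b ≤ a → ∃ p, b ∈ F p a
  F_coh : ∀ p a b c, b ∈ F p a → c ≤ b → (c ∈ F p a ↔ c ∈ F p b)
  c : ℕ → Γ → ℕ
  c_sep : ∀ a b, a ≠ b → ∀ᶠ n in atTop, c n a ≠ c n b
  R : Subfield 𝕜
  R_cnt : (R : Set 𝕜).Countable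
  R_dense : Dense (R : Set 𝕜)
  code : ℕ → ℕ → (ℕ → ℕ →₀ 𝕜) → ℕ
  code_ge : ∀ p p' h, p ≤ code p p' h
  code_congr : ∀ p p' h h', (∀ i < p, h i = h' i) → code p p' h = code p p' h'
  code_inj : ∀ p p' h q q' h', (∀ i n, h i n ∈ R) → (∀ i n, h' i n ∈ R) →
    code p p' h = code q q' h' → p = q ∧ p' = q' ∧ ∀ i < p, h i = h' i

namespace Data

variable (D : Data 𝕜 Γ)

/-- `σ j` is the entry of weight `j` (`0` if the weight is not used); every used weight codes the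
earlier entries. -/
def Special (σ : ℕ → Γ →₀ 𝕜) : Prop :=
  Succ σ ∧ ∀ j, σ j ≠ 0 → ∃ (a : Γ) (p p' : ℕ), p ≤ p' ∧ (∀ i < j, σ i ≠ 0 → i < p) ∧
    (∀ i < j, (σ i).support ⊆ D.F p a) ∧ Set.InjOn (D.c p') (D.F p a : Set Γ) ∧
    j = D.code p p' fun i => Finsupp.mapDomain (D.c p') (σ i)

/-- The norming set. -/
inductive W : (Γ →₀ 𝕜) → Prop
  | base (γ : Γ) (c : 𝕜) (hc : c ∈ D.R) (h1 : ‖c‖ ≤ 1) : W (Finsupp.single γ c)
  | comb (n : ℕ) (c : ℕ → 𝕜) (g : ℕ → Γ →₀ 𝕜) (hc : ∀ q, c q ∈ D.R)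
      (h1 : ∑ q ∈ Finset.range n, ‖c q‖ ≤ 1) (hg : ∀ q, W (g q)) :
      W (∑ q ∈ Finset.range n, c q • g q)
  | node (j : ℕ) (α : ℕ → Γ →₀ 𝕜) (hα : ∀ i, W (α i)) (ha : Adm α) : W (nodeOf j α)
  | three (n : ℕ) (c : ℕ → 𝕜) (α : ℕ → ℕ → ℕ → Γ →₀ 𝕜) (u v : ℕ → ℕ) (E : ℕ → Set Γ)
      (hc : ∀ r, c r ∈ D.R) (h1 : ∑ r ∈ Finset.range n, ‖c r‖ ^ 2 ≤ 1)
      (hα : ∀ r j i, W (α r j i)) (ha : ∀ r j, Adm (α r j))
      (hs : ∀ r, D.Special fun j => nodeOf j (α r j)) (hE : ∀ r, (E r).OrdConnected)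
      (hd : ∀ r < n, ∀ r' < n, r ≠ r' → DisW (fun j => nodeOf j (α r j)) (u r) (v r)
        (fun j => nodeOf j (α r' j)) (u r') (v r')) :
      W (∑ r ∈ Finset.range n, c r • seg (fun j => nodeOf j (α r j)) (u r) (v r) (E r))

/-- `f` is a node of weight `j` -/
def Node (j : ℕ) (f : Γ →₀ 𝕜) : Prop :=
  ∃ α : ℕ → Γ →₀ 𝕜, (∀ i, D.W (α i)) ∧ Adm α ∧ f = nodeOf j α

/-- special sequences of nodes (finite or infinite: branches) -/
def SpN (σ : ℕ → Γ →₀ 𝕜) : Prop := D.Special σ ∧ ∀ j, D.Node j (σ j)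

/-- A type III functional, in terms of `SpN`. -/
def Three (n : ℕ) (c : ℕ → 𝕜) (σ : ℕ → ℕ → Γ →₀ 𝕜) (u v : ℕ → ℕ) (E : ℕ → Set Γ) : Prop :=
  (∀ r, c r ∈ D.R) ∧ ∑ r ∈ Finset.range n, ‖c r‖ ^ 2 ≤ 1 ∧ (∀ r, D.SpN (σ r)) ∧
    (∀ r, (E r).OrdConnected) ∧
    ∀ r < n, ∀ r' < n, r ≠ r' → DisW (σ r) (u r) (v r) (σ r') (u r') (v r')

theorem W.three' {D : Data 𝕜 Γ} {n : ℕ} {c : ℕ → 𝕜} {σ : ℕ → ℕ → Γ →₀ 𝕜} {u v : ℕ → ℕ}
    {E : ℕ → Set Γ} (h : D.Three n c σ u v E) :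
    D.W (∑ r ∈ Finset.range n, c r • seg (σ r) (u r) (v r) (E r)) := by
  obtain ⟨hc, h1, hs, hE, hd⟩ := h
  choose α hW hA he using fun r j => (hs r).2 j
  have e : σ = fun r j => nodeOf j (α r j) := by funext r j; exact he r j
  have hs' : ∀ r, D.Special fun j => nodeOf j (α r j) := fun r => by
    have := (hs r).1; rw [e] at this; exact this
  rw [e] at hd ⊢
  exact W.three n c α u v E hc h1 hW hA hs' hE hd

theorem Node.w {D : Data 𝕜 Γ} {j : ℕ} {f : Γ →₀ 𝕜} (h : D.Node j f) : D.W f := by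
  obtain ⟨α, h1, h2, rfl⟩ := h
  exact W.node j α h1 h2

/-- Induction principle in which only the convex combinations use the induction hypothesis. -/
theorem W.cases_comb {D : Data 𝕜 Γ} {P : (Γ →₀ 𝕜) → Prop}
    (hb : ∀ γ c, c ∈ D.R → ‖c‖ ≤ 1 → P (Finsupp.single γ c))
    (hc : ∀ (n : ℕ) (c : ℕ → 𝕜) (g : ℕ → Γ →₀ 𝕜), ∑ q ∈ Finset.range n, ‖c q‖ ≤ 1 →
      (∀ q, P (g q)) → P (∑ q ∈ Finset.range n, c q • g q))
    (hn : ∀ j f, D.Node j f → P f)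
    (ht : ∀ n c σ u v E, D.Three n c σ u v E →
      P (∑ r ∈ Finset.range n, c r • seg (σ r) (u r) (v r) (E r)))
    {f : Γ →₀ 𝕜} (hf : D.W f) : P f := by
  induction hf with
  | base γ c h h1 => exact hb γ c h h1
  | comb n c g _ h1 _ ih => exact hc n c g h1 ih
  | node j α hα ha _ => exact hn j _ ⟨α, hα, ha, rfl⟩
  | three n c α u v E h h1 hα ha hs hE hd _ =>
    exact ht n c (fun r j => nodeOf j (α r j)) u v E
      ⟨h, h1, fun r => ⟨hs r, fun j => ⟨α r j, hα r j, ha r j, rfl⟩⟩, hE, hd⟩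

/-- the norm given by `W` (a real `iSup`; meaningful when `W` is bounded on `z`) -/
noncomputable def nrm (z : Γ → 𝕜) : ℝ := ⨆ f : {f // D.W f}, ‖pair f.1 z‖

/-- nodes of weight below `J` are small on `x` -/
def Good (J : ℕ) (x : Γ →₀ 𝕜) : Prop :=
  ∀ i < J, ∀ f, D.Node i f → ‖pair f x‖ ≤ 4 / mm i

/-- Some special sequence supported below `lam` is not null on a bounded block sequence of `v`. -/
def NotNull (v : ℕ → Γ →₀ 𝕜) (lam : Γ) : Prop :=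
  ∃ σ, D.SpN σ ∧ (∀ j, ∀ γ ∈ (σ j).support, γ < lam) ∧ ∃ C ε : ℝ, 0 < ε ∧ ∀ m, ∃ u ∈ Blk v m,
    D.nrm u ≤ C ∧ ∀ᶠ t in atTop, ε ≤ ‖∑ j ∈ Finset.range t, pair (σ j) u‖

/-- rapidly increasing sequences -/
structure RIS (lam : Γ) (x : ℕ → Γ →₀ 𝕜) (J : ℕ → ℕ) : Prop where
  succ : Succ x
  norm : ∀ k, D.nrm (x k) ≤ 1
  mono : StrictMono J
  good : ∀ k, D.Good (J k) (x k)
  tiny : ∀ k (S : Finset ℕ) (f : ℕ → Γ →₀ 𝕜), (∀ i ∈ S, J (k + 1) ≤ i ∧ D.Node i (f i)) →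
    ∑ i ∈ S, ‖pair (f i) (x k)‖ ≤ 1 / 2 ^ k
  anch : ∀ k, (x k).support ⊆ D.F (J (k + 1)) lam

end Data

/-- the `k`-th weight window of `σ` acts on `x k` by more than `δ` -/
def Hits (x : ℕ → Γ →₀ 𝕜) (J : ℕ → ℕ) (δ : ℝ) (σ : ℕ → Γ →₀ 𝕜) (k : ℕ) : Prop :=
  δ < ‖∑ j ∈ Finset.Ico (J k) (J (k + 1)), pair (σ j) (x k)‖

/-- a successive sequence of nonzero vectors supported below `lam` -/
def Base (v : ℕ → Γ →₀ 𝕜) (lam : Γ) : Prop :=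
  Succ v ∧ (∀ k, v k ≠ 0) ∧ ∀ k, ∀ γ ∈ (v k).support, γ < lam

end Crest.Agent.R114
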