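import Crest.Agent.R114.Omega
import Crest.Agent.R114.Spec

/-! Under CH the special sequences can be listed along `ω₁`. -/

set_option autoImplicit false
set_option linter.unusedSectionVars false
open Filter Topology

namespace Crest.Agent.R114

variable {𝕜 : Type} [RCLike 𝕜] {Γ : Type} [LinearOrder Γ]

/-- `b` lists all special sequences, each below its index, and different entries share finitely many weights -/
structure Data.Enum (D : Data 𝕜 Γ) (b : Γ → ℕ → Γ →₀ 𝕜) : Prop where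
  spn : ∀ γ, D.SpN (b γ)
  lt : ∀ γ j, ∀ δ ∈ (b γ j).support, δ < γ
  fin : ∀ γ γ', γ ≠ γ' → {j | b γ j ≠ 0 ∧ b γ' j ≠ 0}.Finite
  surj : ∀ σ, D.SpN σ → ∃ γ, b γ = σ

/-- Sketch: `B = {σ // SpN σ}` injects in `ℕ → (Γ →₀ D.R)` (or in `ℕ → List (Γ × D.R)`, or functions
`ℕ → Finset (Γ × D.R)`), of cardinality `≤ 𝔠 ^ ℵ₀ = 𝔠 = #Γ`; so there are injections `e : B → Γ` and
`π : Γ × Γ → Γ`.  The set `π '' ({e σ} × Γ)` is uncountable, so it is not contained in `Iic a`, where `a`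
bounds the countable support of `σ`; choose `β σ` in it above `a`; `β` is injective.  `b γ = σ` if `γ = β σ`, and
`0` otherwise (`Function.extend`); `SpN.finite_shared`, `SpN.zero`. -/
theorem Data.exists_enum [Nonempty Γ] (D : Data 𝕜 Γ) (h : OmegaOne Γ)
    (hc : Cardinal.mk Γ = Cardinal.continuum) : ∃ b, D.Enum b := by
  classical
  have hΓinf : Infinite Γ := by
    rw [Cardinal.infinite_iff, hc]; exact Cardinal.aleph0_le_continuum
  have hΓunc : ¬ (Set.univ : Set Γ).Countable := fun hcnt => by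
    obtain ⟨a, ha⟩ := h.bdd _ hcnt
    exact lt_irrefl a (ha a trivial)
  have h𝕜 : Cardinal.mk 𝕜 ≤ Cardinal.continuum := by
    have hinj : Function.Injective (fun z : 𝕜 => (RCLike.re z, RCLike.im z)) := fun z w hzw => by
      simp only [Prod.mk.injEq] at hzw
      exact RCLike.ext hzw.1 hzw.2
    refine (Cardinal.mk_le_of_injective hinj).trans ?_
    simp [Cardinal.mk_real]
  have hF : Cardinal.mk (Γ →₀ 𝕜) ≤ Cardinal.continuum := by
    rw [Cardinal.mk_finsupp_of_infinite, hc]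
    exact max_le le_rfl h𝕜
  have hB : Cardinal.mk (ℕ → Γ →₀ 𝕜) ≤ Cardinal.continuum := by
    rw [← Cardinal.power_def, Cardinal.mk_nat]
    calc Cardinal.mk (Γ →₀ 𝕜) ^ Cardinal.aleph0 ≤ Cardinal.continuum ^ Cardinal.aleph0 :=
          Cardinal.power_le_power_right hF
      _ = Cardinal.continuum := Cardinal.continuum_power_aleph0
  have hP : Cardinal.mk ((ℕ → Γ →₀ 𝕜) × Γ) ≤ Cardinal.mk Γ := by
    rw [Cardinal.mk_prod, Cardinal.lift_id, Cardinal.lift_id, hc]
    calc Cardinal.mk (ℕ → Γ →₀ 𝕜) * Cardinal.continuum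
        ≤ Cardinal.continuum * Cardinal.continuum := mul_le_mul_left hB _
      _ = Cardinal.continuum := Cardinal.continuum_mul_self
  obtain ⟨π⟩ := Cardinal.le_def _ _ |>.1 hP
  have hβ : ∀ σ : ℕ → Γ →₀ 𝕜, ∃ t : Γ, ∀ j, ∀ δ ∈ (σ j).support, δ < π (σ, t) := by
    intro σ
    have hcnt : (⋃ j, ((σ j).support : Set Γ)).Countable :=
      Set.countable_iUnion fun j => (σ j).support.countable_toSet
    obtain ⟨a, ha⟩ := h.bdd _ hcnt
    by_contra hn
    push Not at hn
    apply hΓunc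
    have hle : ∀ t, π (σ, t) ∈ Set.Iic a := fun t => by
      obtain ⟨j, δ, hδ, hle⟩ := hn t
      exact hle.trans (ha δ (Set.mem_iUnion.2 ⟨j, hδ⟩)).le
    have hinj : Function.Injective fun t : Γ => π (σ, t) := fun t t' htt => by
      simpa using π.injective htt
    exact ((h.cnt a).preimage_of_injOn (f := fun t : Γ => π (σ, t)) hinj.injOn).mono
      fun t _ => hle t
  choose t ht using hβ
  let β : {σ // D.SpN σ} → Γ := fun σ => π (σ.1, t σ.1)
  have hβinj : Function.Injective β := fun σ σ' hσ => by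
    have := π.injective hσ
    exact Subtype.ext (congrArg Prod.fst this)
  let b : Γ → ℕ → Γ →₀ 𝕜 := Function.extend β Subtype.val fun _ => 0
  have hb1 : ∀ σ, b (β σ) = σ.1 := fun σ => hβinj.extend_apply _ _ σ
  have hb0 : ∀ γ, (¬ ∃ σ, β σ = γ) → b γ = 0 := fun γ hγ => Function.extend_apply' _ _ γ hγ
  refine ⟨b, fun γ => ?_, fun γ j δ hδ => ?_, fun γ γ' hne => ?_, fun σ hσ => ⟨β ⟨σ, hσ⟩, hb1 _⟩⟩
  · by_cases hγ : ∃ σ, β σ = γ
    · obtain ⟨σ, rfl⟩ := hγ
      rw [hb1]; exact σ.2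
    · rw [hb0 γ hγ]; exact Data.SpN.zero
  · by_cases hγ : ∃ σ, β σ = γ
    · obtain ⟨σ, rfl⟩ := hγ
      rw [hb1] at hδ; exact ht σ.1 j δ hδ
    · rw [hb0 γ hγ] at hδ; simp at hδ
  · by_cases hγ : ∃ σ, β σ = γ
    · by_cases hγ' : ∃ σ, β σ = γ'
      · obtain ⟨σ, rfl⟩ := hγ
        obtain ⟨σ', rfl⟩ := hγ'
        rw [hb1, hb1]
        exact σ.2.finite_shared σ'.2 fun he => hne (congrArg β (Subtype.ext he))
      · rw [hb0 γ' hγ']; simp
    · rw [hb0 γ hγ]; simp

end Crest.Agent.R114
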