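import Crest.Agent.R114.Nrm

/-! The exceptional sum. -/

set_option autoImplicit false
set_option linter.unusedSectionVars false
open Filter Topology

namespace Crest.Agent.R114

variable {𝕜 : Type} [RCLike 𝕜] {Γ : Type} [LinearOrder Γ]

/-- Generic sequences (Ramsey by ultrafilters): choose `φ n` satisfying the finitely many conditions
`∀ᶠ c d e, P a (φ n) c d e`, `∀ᶠ d e, P a b (φ n) d e`, … for earlier chosen `a < b < …`. -/
theorem exists_generic_five (P : ℕ → ℕ → ℕ → ℕ → ℕ → Prop)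
    (h : ∀ a, ∀ᶠ b in (hyperfilter ℕ : Filter ℕ), ∀ᶠ c in (hyperfilter ℕ : Filter ℕ),
      ∀ᶠ d in (hyperfilter ℕ : Filter ℕ), ∀ᶠ e in (hyperfilter ℕ : Filter ℕ), P a b c d e) :
    ∃ S : Set ℕ, S.Infinite ∧ ∀ a ∈ S, ∀ b ∈ S, ∀ c ∈ S, ∀ d ∈ S, ∀ e ∈ S,
      a < b → b < c → c < d → d < e → P a b c d e := by
  let U : Filter ℕ := hyperfilter ℕ
  let A : ℕ → ℕ → Prop := fun m n => m < n ∧ ∀ a ∈ Set.Iic m,
    (∀ᶠ c in U, ∀ᶠ d in U, ∀ᶠ e in U, P a n c d e) ∧ ∀ b ∈ Set.Iic m,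
    ((∀ᶠ c in U, ∀ᶠ d in U, ∀ᶠ e in U, P a b c d e) → ∀ᶠ d in U, ∀ᶠ e in U, P a b n d e) ∧
    ∀ c ∈ Set.Iic m, ((∀ᶠ d in U, ∀ᶠ e in U, P a b c d e) → ∀ᶠ e in U, P a b c n e) ∧
    ∀ d ∈ Set.Iic m, (∀ᶠ e in U, P a b c d e) → P a b c d n
  have hA : ∀ m, ∃ n, A m n := fun m => by
    refine Eventually.exists (f := U) (Eventually.and ?_ ?_)
    · exact hyperfilter_le_cofinite (Nat.cofinite_eq_atTop ▸ eventually_gt_atTop m)
    simp only [eventually_all_finite (Set.finite_Iic m), eventually_and,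
      eventually_imp_distrib_left]
    exact fun a _ => ⟨h a, fun b _ => ⟨id, fun c _ => ⟨id, fun d _ => id⟩⟩⟩
  choose f hf using hA
  have hm : StrictMono fun k => f^[k] 0 := strictMono_nat_of_lt_succ fun k => by
    rw [Function.iterate_succ_apply']; exact (hf _).1
  have key : ∀ a ∈ Set.range fun k => f^[k] 0, ∀ b ∈ Set.range fun k => f^[k] 0, a < b →
      ∃ m, a ≤ m ∧ A m b := by
    rintro _ ⟨i, rfl⟩ _ ⟨j, rfl⟩ hij
    obtain ⟨j, rfl⟩ := Nat.exists_eq_add_one.2 ((Nat.zero_le _).trans_lt (hm.lt_iff_lt.1 hij))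
    refine ⟨f^[j] 0, hm.monotone (Nat.lt_succ_iff.1 (hm.lt_iff_lt.1 hij)), ?_⟩
    simp only [Function.iterate_succ_apply']
    exact hf _
  refine ⟨_, Set.infinite_range_of_injective hm.injective, fun a ha b hb c hc d hd e he h1 h2 h3 h4 => ?_⟩
  obtain ⟨m1, l1, -, k1⟩ := key a ha b hb h1
  obtain ⟨m2, l2, -, k2⟩ := key b hb c hc h2
  obtain ⟨m3, l3, -, k3⟩ := key c hc d hd h3
  obtain ⟨m4, l4, -, k4⟩ := key d hd e he h4
  simp only [Set.mem_Iic] at k1 k2 k3 k4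
  exact (((k4 a (by omega)).2 b (by omega)).2 c (by omega)).2 d l4
    ((((k3 a (by omega)).2 b (by omega)).2 c l3).1 (((k2 a (by omega)).2 b l2).1 (k1 a l1).1))

theorem exists_of_pair_seg_ne_zero {σ : ℕ → Γ →₀ 𝕜} {u v : ℕ} {E : Set Γ} {x : Γ →₀ 𝕜}
    (h : pair (seg σ u v E) x ≠ 0) :
    ∃ j, u ≤ j ∧ j < v ∧ σ j ≠ 0 ∧ ∃ γ ∈ x.support, γ ∈ E := by
  rw [pair_seg] at h
  obtain ⟨j, hj, h⟩ := Finset.exists_ne_zero_of_sum_ne_zero h
  obtain ⟨γ, h1, h2⟩ := exists_of_pair_ne_zero h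
  rw [mem_support_rs] at h1
  exact ⟨j, (Finset.mem_Ico.1 hj).1, (Finset.mem_Ico.1 hj).2,
    Finsupp.support_nonempty_iff.1 ⟨γ, h1.1⟩, γ, h2, h1.2⟩

namespace Data

variable {D : Data 𝕜 Γ} [Nonempty Γ] {lam : Γ} {x : ℕ → Γ →₀ 𝕜} {J : ℕ → ℕ}

/-- the bound on the window parts of type III functionals on `K` -/
def ExcBd (D : Data 𝕜 Γ) (x : ℕ → Γ →₀ 𝕜) (J : ℕ → ℕ) (K : Finset ℕ) (B : ℝ) : Prop :=
  ∀ n c σ u v E, D.Three n c σ u v E →
    ∑ k ∈ K, ‖pair (∑ r ∈ Finset.range n,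
      c r • seg (σ r) (max (u r) (J k)) (min (v r) (J (k + 1))) (E r)) (x k)‖ ≤ B

/-- Sketch.  `s r k = ‖pair (seg (σ r) (max (u r) (J k)) (min (v r) (J (k+1))) (E r)) (x k)‖`, `N = card K`,
`δ a = 1 / (N² J (a+1))`.  For `r` with some `s r k ≠ 0` let `a r` be the least such `k ∈ K`.  At most `4`
later `k ∈ K` have `s r k > δ (a r)`: if `k₁ < ⋯ < k₅` did, then for `k ∈ {k₁,…,k₄}` neither the weight interval
nor `E r` cuts the window (`u r < J (a r + 1)`, `J k₅ < v r`; `E r` is order-convex and meets `supp (x (a r))`,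
`supp (x k₅)`), so `σ r` hits `k₁, …, k₄`, against `hK`.  Hence
`∑_k s r k ≤ ∑_{k ∈ Exc r} s r k + N δ (a r)` with `card (Exc r) ≤ 5`.  By `three_sq`, `∑_r (s r k)² ≤ 1` for each
`k`, so `∑_r ‖c r‖ ∑_{Exc r} s r k ≤ √(5 N)` (Cauchy–Schwarz twice).  At most `J (a+1)` indices `r` have
`a r = a` (each uses a weight `< J (a+1)`, weights are disjoint), so the small parts add up to `≤ 1`. -/
theorem RIS.excBd (h : D.RIS lam x J) (K : Finset ℕ)
    (hK : ∀ a ∈ K, ∀ b ∈ K, ∀ c ∈ K, ∀ d ∈ K, ∀ e ∈ K, a < b → b < c → c < d → d < e →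
      ¬ ∃ σ, D.SpN σ ∧ Hits x J (1 / ((K.card : ℝ) ^ 2 * J (a + 1))) σ b ∧
        Hits x J (1 / ((K.card : ℝ) ^ 2 * J (a + 1))) σ c ∧
        Hits x J (1 / ((K.card : ℝ) ^ 2 * J (a + 1))) σ d ∧
        Hits x J (1 / ((K.card : ℝ) ^ 2 * J (a + 1))) σ e) :
    D.ExcBd x J K (3 * √(K.card) + 1) := by
  classical
  intro n c σ u v E hT
  rcases K.eq_empty_or_nonempty with rfl | hne
  · simp
  have hN : (0 : ℝ) < K.card := Nat.cast_pos.2 hne.card_pos
  let s : ℕ → ℕ → ℝ := fun r k =>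
    ‖pair (seg (σ r) (max (u r) (J k)) (min (v r) (J (k + 1))) (E r)) (x k)‖
  let δ : ℕ → ℝ := fun a => 1 / ((K.card : ℝ) ^ 2 * J (a + 1))
  let θ : ℕ → ℝ := fun r => ∑ a ∈ K with s r a ≠ 0, δ a
  have hδ : ∀ a, 0 ≤ δ a := fun a => by positivity
  have hθ : ∀ r, 0 ≤ θ r := fun r => Finset.sum_nonneg fun a _ => hδ a
  have h5 : ∀ r, (K.filter fun k => θ r < s r k).card ≤ 5 := fun r => by
    by_contra hc
    let φ := (K.filter fun k => θ r < s r k).orderEmbOfCardLe (k := 6) (by omega)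
    have hφ : ∀ i, φ i ∈ K ∧ θ r < s r (φ i) := fun i =>
      Finset.mem_filter.1 (Finset.orderEmbOfCardLe_mem _ _ i)
    have hne : ∀ i, s r (φ i) ≠ 0 := fun i => ((hθ r).trans_lt (hφ i).2).ne'
    obtain ⟨j, j1, j2, -, γ, γ1, γ2⟩ := exists_of_pair_seg_ne_zero (norm_ne_zero_iff.1 (hne 0))
    obtain ⟨j', j1', j2', -, γ', γ1', γ2'⟩ := exists_of_pair_seg_ne_zero (norm_ne_zero_iff.1 (hne 5))
    have hit : ∀ i, 0 < i → i < 5 → Hits x J (δ (φ 0)) (σ r) (φ i) := fun i h0 h1 => by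
      have e0 := φ.strictMono h0
      have e1 := φ.strictMono h1
      have e2 : J (φ 0 + 1) ≤ J (φ i) := h.mono.monotone (Nat.succ_le_of_lt e0)
      have e3 : J (φ i + 1) ≤ J (φ 5) := h.mono.monotone (Nat.succ_le_of_lt e1)
      have e4 := (Finset.single_le_sum (fun a _ => hδ a)
        (Finset.mem_filter.2 ⟨(hφ 0).1, hne 0⟩ : φ 0 ∈ K.filter fun a => s r a ≠ 0)).trans_lt (hφ i).2
      simp only [s] at e4
      rw [max_eq_right (show u r ≤ J (φ i) by omega), min_eq_right (show J (φ i + 1) ≤ v r by omega),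
        pair_seg] at e4
      simp only [pair_rs', rs_eq_self fun β hβ => (hT.2.2.2.1 r).out γ2 γ2'
        ⟨(h.succ _ _ e0 γ γ1 β hβ).le, (h.succ _ _ e1 β hβ γ' γ1').le⟩] at e4
      exact e4
    exact hK _ (hφ 0).1 _ (hφ 1).1 _ (hφ 2).1 _ (hφ 3).1 _ (hφ 4).1 (φ.strictMono (by decide))
      (φ.strictMono (by decide)) (φ.strictMono (by decide)) (φ.strictMono (by decide))
      ⟨σ r, hT.2.2.1 r, hit 1 (by decide) (by decide), hit 2 (by decide) (by decide),
        hit 3 (by decide) (by decide), hit 4 (by decide) (by decide)⟩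
  have hsq : ∀ k, ∑ r ∈ Finset.range n, s r k ^ 2 ≤ 1 := fun k => by
    have hw := hT.window (J k) (J (k + 1))
    refine (three_sq _ σ _ _ E (fun r _ => hw.2.2.1 r) (fun r _ => hw.2.2.2.1 r) (fun r hr r' hr' =>
      hw.2.2.2.2 r (Finset.mem_range.1 hr) r' (Finset.mem_range.1 hr')) (D.bdd_finsupp _)).trans ?_
    exact pow_le_one₀ (D.nrm_nonneg _) (h.norm k)
  have hc : ∀ r ∈ Finset.range n, ‖c r‖ ≤ 1 := fun r hr =>
    (pow_le_one_iff_of_nonneg (norm_nonneg _) two_ne_zero).1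
      ((Finset.single_le_sum (f := fun r => ‖c r‖ ^ 2) (fun _ _ => by positivity) hr).trans hT.2.1)
  have hcnt : ∀ a, ((Finset.range n).filter fun r => s r a ≠ 0).card ≤ J (a + 1) := fun a => by
    choose! j hj using fun r (hr : s r a ≠ 0) => exists_of_pair_seg_ne_zero (norm_ne_zero_iff.1 hr)
    rw [← Finset.card_range (J (a + 1))]
    refine Finset.card_le_card_of_injOn j (fun r hr => ?_) fun r hr r' hr' e => ?_
    · have := (hj r (Finset.mem_filter.1 hr).2).2.1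
      simp only [Finset.coe_range, Set.mem_Iio]
      omega
    simp only [Finset.coe_filter, Finset.mem_range, Set.mem_ofPred_eq] at hr hr'
    by_contra hn
    obtain ⟨a1, a2, a3, -⟩ := hj r hr.2
    obtain ⟨b1, b2, b3, -⟩ := hj r' hr'.2
    rcases hT.2.2.2.2 r hr.1 r' hr'.1 hn (j r) (Finset.mem_Ico.2 (by omega))
      (Finset.mem_Ico.2 (by omega)) with h' | h'
    exacts [a3 h', b3 (e ▸ h')]
  have hθs : ∑ r ∈ Finset.range n, θ r ≤ 1 / K.card := by
    simp only [θ, Finset.sum_filter]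
    rw [Finset.sum_comm]
    refine (Finset.sum_le_card_nsmul _ _ (1 / (K.card : ℝ) ^ 2) fun a _ => ?_).trans_eq ?_
    · have hJ : (0 : ℝ) < J (a + 1) := Nat.cast_pos.2 ((Nat.zero_le _).trans_lt (h.mono a.lt_succ_self))
      rw [← Finset.sum_filter, Finset.sum_const, nsmul_eq_mul]
      refine (mul_le_mul_of_nonneg_right (Nat.cast_le.2 (hcnt a)) (hδ a)).trans_eq ?_
      simp only [δ]
      field_simp
    · rw [nsmul_eq_mul]
      field_simp
  have ht : 0 < √(K.card : ℝ) := Real.sqrt_pos.2 hN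
  calc _ ≤ ∑ k ∈ K, ∑ r ∈ Finset.range n, ((if θ r < s r k then √(K.card : ℝ) / 2 * ‖c r‖ ^ 2 else 0) +
        s r k ^ 2 / (2 * √(K.card : ℝ)) + θ r) := by
        refine Finset.sum_le_sum fun k _ => ?_
        rw [pair_sum_left]
        refine (norm_sum_le _ _).trans (Finset.sum_le_sum fun r hr => ?_)
        rw [pair_smul_left, norm_mul]
        change ‖c r‖ * s r k ≤ _
        have h1 : 0 ≤ s r k ^ 2 / (2 * √(K.card : ℝ)) := by positivity
        split_ifs with h2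
        · have : ‖c r‖ * s r k ≤ √(K.card : ℝ) / 2 * ‖c r‖ ^ 2 + s r k ^ 2 / (2 * √(K.card : ℝ)) := by
            rw [← sub_le_iff_le_add', le_div_iff₀ (by positivity)]
            nlinarith [sq_nonneg (√(K.card : ℝ) * ‖c r‖ - s r k)]
          linarith [hθ r]
        · nlinarith [hc r hr, norm_nonneg (c r), hθ r, not_lt.1 h2]
    _ ≤ √(K.card : ℝ) / 2 * 5 + K.card / (2 * √(K.card : ℝ)) + 1 := by
        simp only [Finset.sum_add_distrib, ← Finset.sum_div]
        gcongr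
        · rw [Finset.sum_comm]
          calc _ ≤ ∑ r ∈ Finset.range n, √(K.card : ℝ) / 2 * 5 * ‖c r‖ ^ 2 := by
                refine Finset.sum_le_sum fun r _ => ?_
                rw [← Finset.sum_filter, Finset.sum_const, nsmul_eq_mul]
                have : ((K.filter fun k => θ r < s r k).card : ℝ) ≤ 5 := by exact_mod_cast h5 r
                nlinarith [mul_nonneg ht.le (sq_nonneg ‖c r‖)]
            _ ≤ _ := by
                rw [← Finset.mul_sum]
                exact mul_le_of_le_one_right (by positivity) hT.2.1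
        · simpa using Finset.sum_le_card_nsmul K _ 1 fun k _ => hsq k
        · rw [Finset.sum_const, nsmul_eq_mul, ← le_div_iff₀' hN]
          exact hθs
    _ = _ := by
        have := Real.mul_self_sqrt hN.le
        field_simp
        nlinarith

end Data

end Crest.Agent.R114
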