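import Crest.Agent.R114.DR

set_option autoImplicit false

namespace Crest.Agent.R114

variable {𝕜 : Type} [RCLike 𝕜] {X : Type*} [NormedAddCommGroup X] [NormedSpace 𝕜 X]

theorem fd_quot_ker {A B : Type*} [AddCommGroup A] [Module 𝕜 A] [AddCommGroup B] [Module 𝕜 B]
    [FiniteDimensional 𝕜 B] (f : A →ₗ[𝕜] B) : FiniteDimensional 𝕜 (A ⧸ LinearMap.ker f) :=
  f.quotKerEquivRange.symm.finiteDimensional

theorem not_fd_ker {A B : Type*} [AddCommGroup A] [Module 𝕜 A] [AddCommGroup B] [Module 𝕜 B]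
    [FiniteDimensional 𝕜 B] (f : A →ₗ[𝕜] B) (hA : ¬ FiniteDimensional 𝕜 A) :
    ¬ FiniteDimensional 𝕜 (LinearMap.ker f) := fun _ =>
  have := fd_quot_ker f
  hA (Module.Finite.of_submodule_quotient (LinearMap.ker f))

theorem not_fd_dual (hX : ¬ FiniteDimensional 𝕜 X) : ¬ FiniteDimensional 𝕜 (StrongDual 𝕜 X) :=
  fun _ => hX (FiniteDimensional.of_injective
    (NormedSpace.inclusionInDoubleDualLi 𝕜 (E := X)).toLinearMap
    (NormedSpace.inclusionInDoubleDualLi 𝕜 (E := X)).injective)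

/-- One step.  Sketch: `H = ⋂_{φ ∈ Y} ker φ` is closed of finite codimension, so there is a continuous
projection `π : X →L H` (`Submodule.ClosedComplemented.of_finiteDimensional_quotient`), `K = ‖π‖`.
`V = {φ : StrongDual 𝕜 H | ∀ e ∈ U, φ (π e) = 0}` is an infinite-dimensional subspace of the dual
of `H` (`H` is infinite-dimensional, the dual of an infinite-dimensional normed space is
infinite-dimensional by Hahn–Banach, finitely many conditions).  Apply `dvoretzky_rogers` to `V`: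
`y i = v i ∘ π`, `u i ∈ H` with `v i (u i) = 1`, `‖u i‖ ≤ 2`; evaluation at `π x` is a functional
on `V` of norm `≤ K ‖x‖`. -/
theorem fam_step [CompleteSpace X] (hX : ¬ FiniteDimensional 𝕜 X)
    (Y : Finset (StrongDual 𝕜 X)) (U : Finset X) :
    ∃ K : ℝ, ∀ M : ℕ, ∃ (y : ℕ → StrongDual 𝕜 X) (u : ℕ → X),
      (∀ i < M, ‖u i‖ ≤ 2 ∧ y i (u i) = 1 ∧ (∀ φ ∈ Y, φ (u i) = 0) ∧ ∀ e ∈ U, y i e = 0) ∧
      ∀ x : X, ∑ i ∈ Finset.range M, ‖y i x‖ ^ 2 ≤ K * ‖x‖ ^ 2 := by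
  set F : X →L[𝕜] (Y → 𝕜) := ContinuousLinearMap.pi fun φ : Y => φ.1 with hF
  have h1 := fd_quot_ker F.toLinearMap
  obtain ⟨π, hπ⟩ := Submodule.ClosedComplemented.of_finiteDimensional_quotient F.isClosed_ker
  set G : StrongDual 𝕜 F.ker →ₗ[𝕜] (U → 𝕜) :=
    LinearMap.pi fun e : U => (ContinuousLinearMap.apply 𝕜 𝕜 (π e)).toLinearMap with hG
  have hV := not_fd_ker G (not_fd_dual (not_fd_ker F.toLinearMap hX))
  refine ⟨4 * ‖π‖ ^ 2, fun M => ?_⟩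
  obtain ⟨v, hv, hv'⟩ := dvoretzky_rogers (𝕜 := 𝕜) (V := G.ker) hV M
  have h2 : ∀ i, ∃ u : F.ker, i < M → ‖u‖ ≤ 2 ∧ (v i).1 u = 1 := fun i => by
    by_cases hi : i < M
    · obtain ⟨x, hx, hx'⟩ := (v i).1.exists_lt_apply_of_lt_opNorm (r := 1 / 2)
        ((by norm_num : (1 / 2 : ℝ) < 1).trans_eq (hv i hi).symm)
      have h0 : (v i).1 x ≠ 0 := norm_pos_iff.1 (by linarith)
      refine ⟨((v i).1 x)⁻¹ • x, fun _ => ⟨?_, by simp [h0]⟩⟩
      rw [norm_smul, norm_inv, inv_mul_le_iff₀ (by linarith)]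
      linarith
    · exact ⟨0, fun h => absurd h hi⟩
  choose u hu using h2
  refine ⟨fun i => (v i).1.comp π, fun i => u i, fun i hi => ⟨(hu i hi).1, ?_, fun φ hφ => ?_,
    fun e he => ?_⟩, fun x => ?_⟩
  · simpa [hπ] using (hu i hi).2
  · exact congrFun (u i).2 ⟨φ, hφ⟩
  · exact congrFun (v i).2 ⟨e, he⟩
  · have h3 : ∀ w : G.ker, ‖((LinearMap.applyₗ (π x)).comp ((ContinuousLinearMap.coeLM 𝕜).comp
        G.ker.subtype)) w‖ ≤ ‖π‖ * ‖x‖ * ‖w‖ := fun w => by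
      refine (w.1.le_opNorm (π x)).trans ?_
      rw [mul_comm]
      exact mul_le_mul_of_nonneg_right (π.le_opNorm x) (norm_nonneg _)
    refine (hv' (LinearMap.mkContinuous _ _ h3)).trans ?_
    rw [mul_assoc, ← mul_pow]
    gcongr
    exact LinearMap.mkContinuous_norm_le _ (by positivity) h3

/-- Recursion on `k` with `fam_step` (`Y`, `U` = all earlier `y`, `u`; choose `M k ≥ 4^k K`, `M k > 0`). -/
theorem exists_fam [CompleteSpace X] (hX : ¬ FiniteDimensional 𝕜 X) :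
    ∃ (M : ℕ → ℕ) (y : ℕ → ℕ → StrongDual 𝕜 X) (u : ℕ → ℕ → X), (∀ k, 0 < M k) ∧
      (∀ k, ∀ i < M k, ‖u k i‖ ≤ 2 ∧ y k i (u k i) = 1) ∧
      (∀ k l, k ≠ l → ∀ i < M k, ∀ j < M l, y k i (u l j) = 0) ∧
      ∀ k (x : X), ∑ i ∈ Finset.range (M k), ‖y k i x‖ ^ 2 ≤ M k / 4 ^ k * ‖x‖ ^ 2 := by
  classical
  have h : ∀ (k : ℕ) (s : Finset (StrongDual 𝕜 X) × Finset X), ∃ (M : ℕ) (y : ℕ → StrongDual 𝕜 X)
      (u : ℕ → X), 0 < M ∧
      (∀ i < M, ‖u i‖ ≤ 2 ∧ y i (u i) = 1 ∧ (∀ φ ∈ s.1, φ (u i) = 0) ∧ ∀ e ∈ s.2, y i e = 0) ∧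
      ∀ x : X, ∑ i ∈ Finset.range M, ‖y i x‖ ^ 2 ≤ M / 4 ^ k * ‖x‖ ^ 2 := fun k s => by
    obtain ⟨K, hK⟩ := fam_step hX s.1 s.2
    obtain ⟨y, u, h1, h2⟩ := hK (⌈K * 4 ^ k⌉₊ + 1)
    refine ⟨_, y, u, Nat.succ_pos _, h1, fun x => (h2 x).trans ?_⟩
    gcongr
    rw [le_div_iff₀ (by positivity)]
    push_cast
    linarith [Nat.le_ceil (K * 4 ^ k)]
  choose M y u hM h1 h2 using h
  let s : ℕ → Finset (StrongDual 𝕜 X) × Finset X := fun k => Nat.rec (∅, ∅) (fun k s =>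
    (s.1 ∪ (Finset.range (M k s)).image (y k s), s.2 ∪ (Finset.range (M k s)).image (u k s))) k
  have hs : Monotone s := monotone_nat_of_le_succ fun k =>
    ⟨Finset.subset_union_left, Finset.subset_union_left⟩
  refine ⟨fun k => M k (s k), fun k => y k (s k), fun k => u k (s k), fun k => hM _ _,
    fun k i hi => ⟨(h1 _ _ i hi).1, (h1 _ _ i hi).2.1⟩, fun k l hkl i hi j hj => ?_,
    fun k => h2 _ _⟩
  rcases lt_or_gt_of_ne hkl with h | h
  · exact (h1 _ _ j hj).2.2.1 _ ((hs (Nat.succ_le_of_lt h)).1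
      (Finset.mem_union_right _ (Finset.mem_image_of_mem _ (Finset.mem_range.2 hi))))
  · exact (h1 _ _ i hi).2.2.2 _ ((hs (Nat.succ_le_of_lt h)).2
      (Finset.mem_union_right _ (Finset.mem_image_of_mem _ (Finset.mem_range.2 hj))))

end Crest.Agent.R114
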