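import Crest.Agent.R114.Defs

/-! The order `ω₁` and the coding data. -/

set_option autoImplicit false
set_option linter.unusedSectionVars false
open Filter Topology

namespace Crest.Agent.R114

variable {𝕜 : Type} [RCLike 𝕜] {Γ : Type} [LinearOrder Γ]

/-- `Γ` looks like `ω₁` -/
structure OmegaOne (Γ : Type) [LinearOrder Γ] : Prop where
  cnt : ∀ a : Γ, (Set.Iic a).Countable
  bdd : ∀ s : Set Γ, s.Countable → ∃ a, ∀ b ∈ s, b < a

/-- `Γ = (Cardinal.aleph 1).ord.ToType`.  Initial segments: `Ordinal.countable_Iio`-type facts /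
`Cardinal.card_typein_lt` / `Cardinal.countable_iff_lt_aleph_one`.  If a countable `s` had no strict upper bound,
`Γ = ⋃_{b ∈ s} Iic b` would be countable. -/
theorem exists_omegaOne : ∃ (Γ : Type) (_ : LinearOrder Γ) (_ : WellFoundedLT Γ),
    OmegaOne Γ ∧ Cardinal.mk Γ = Cardinal.aleph 1 := by
  have hc : ∀ a : (Cardinal.aleph 1).ord.ToType, (Set.Iic a).Countable := by
    intro a
    rw [← Set.Iio_insert]
    exact ((Cardinal.countable_iff_lt_aleph_one _).2 (Cardinal.mk_Iio_toType_ord_lt a)).insert a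
  refine ⟨(Cardinal.aleph 1).ord.ToType, inferInstance, inferInstance, ⟨hc, fun s hs => ?_⟩,
    Cardinal.mk_ord_toType _⟩
  by_contra hcon
  push Not at hcon
  have h1 : (Set.univ : Set (Cardinal.aleph 1).ord.ToType) ⊆ ⋃ b ∈ s, Set.Iic b := by
    intro a _
    obtain ⟨b, hb, hab⟩ := hcon a
    exact Set.mem_biUnion hb hab
  have h2 := (Cardinal.countable_iff_lt_aleph_one _).1 ((hs.biUnion fun b _ => hc b).mono h1)
  rw [Cardinal.mk_univ, Cardinal.mk_ord_toType] at h2
  exact lt_irrefl _ h2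

/-- Dependent well-founded recursion with choice. -/
theorem exists_rec [WellFoundedLT Γ] {A : Type*} [Nonempty A] (P : Γ → (Γ → A) → Prop)
    (hloc : ∀ γ x x', (∀ δ ≤ γ, x δ = x' δ) → P γ x → P γ x')
    (hstep : ∀ γ x, (∀ δ < γ, P δ x) → ∃ a, P γ (Function.update x γ a)) :
    ∃ x, ∀ γ, P γ x := by
  classical
  let a0 : A := Classical.arbitrary A
  let st : Γ → (Γ → A) → A := fun γ y =>
    if h : ∃ a, P γ (Function.update y γ a) then h.choose else a0
  let x : Γ → A := (wellFounded_lt (α := Γ)).fix fun γ prev =>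
    st γ fun δ => if h : δ < γ then prev δ h else a0
  have hx : ∀ γ, x γ = st γ fun δ => if δ < γ then x δ else a0 := by
    intro γ
    simp only [x]
    rw [WellFounded.fix_eq]
    rfl
  refine ⟨x, fun γ => ?_⟩
  induction γ using (wellFounded_lt (α := Γ)).induction with
  | _ γ ih =>
    set y : Γ → A := fun δ => if δ < γ then x δ else a0 with hy
    have h1 : ∀ δ < γ, P δ y := fun δ hδ =>
      hloc δ x y (fun δ' h => by simp only [hy, if_pos (h.trans_lt hδ)]) (ih δ hδ)
    have h2 := hstep γ y h1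
    have h3 : x γ = h2.choose := by rw [hx γ]; exact dif_pos h2
    refine hloc γ _ x (fun δ hδ => ?_) h2.choose_spec
    rcases hδ.eq_or_lt with rfl | hlt
    · rw [Function.update_self, h3]
    · rw [Function.update_of_ne hlt.ne]
      simp only [hy, if_pos hlt]

/-- A coherent system of finite sets.  Use `exists_rec` with `A = ℕ → Finset Γ`.  Step at `γ`: if
`Iio γ = ∅` take `F p γ = {γ}`.  Otherwise take a monotone sequence `γ n` in `Iio γ` with every `b < γ` below
some `γ n` (running maximum of an enumeration), `0 = p 0 < p 1 < ⋯` with `γ n ∈ F (p (n+1)) (γ (n+1))`, and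
`F q γ = insert γ (F q (γ n))` for `p n ≤ q < p (n+1)` (`n = Nat.findGreatest (p · ≤ q) q`).  Coherence
gives `F q (γ n) ⊆ F q (γ (n+1))` for `q ≥ p (n+1)`, hence monotonicity and covering. -/
theorem exists_F [WellFoundedLT Γ] (h : ∀ a : Γ, (Set.Iic a).Countable) :
    ∃ F : ℕ → Γ → Finset Γ, (∀ p a b, b ∈ F p a → b ≤ a) ∧ (∀ p q a, p ≤ q → F p a ⊆ F q a) ∧
      (∀ a b, b ≤ a → ∃ p, b ∈ F p a) ∧
      ∀ p a b c, b ∈ F p a → c ≤ b → (c ∈ F p a ↔ c ∈ F p b) := by
  classical
  refine (exists_rec (A := ℕ → Finset Γ) (fun γ x => (∀ p b, b ∈ x γ p → b ≤ γ) ∧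
      (∀ p q, p ≤ q → x γ p ⊆ x γ q) ∧ (∀ b, b ≤ γ → ∃ p, b ∈ x γ p) ∧
      ∀ p b c, b ∈ x γ p → c ≤ b → (c ∈ x γ p ↔ c ∈ x b p)) ?_ ?_).elim fun x hx =>
    ⟨fun p a => x a p, fun p a => (hx a).1 p, fun p q a => (hx a).2.1 p q,
      fun a => (hx a).2.2.1, fun p a => (hx a).2.2.2 p⟩
  · rintro γ x x' e ⟨h1, h2, h3, h4⟩
    rw [← e γ le_rfl]
    refine ⟨h1, h2, h3, fun p b c hb hc => ?_⟩
    rw [← e b (h1 p b hb)]
    exact h4 p b c hb hc
  intro γ x ih
  rcases (Set.Iio γ).eq_empty_or_nonempty with he | hne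
  · have hmin : ∀ b, b ≤ γ → b = γ := fun b hb => by
      by_contra hn
      have : b ∈ Set.Iio γ := lt_of_le_of_ne hb hn
      rw [he] at this
      exact this
    refine ⟨fun _ => {γ}, ?_⟩
    simp only [Function.update_self, Finset.mem_singleton]
    refine ⟨fun _ b hb => hb.le, fun _ _ _ => le_rfl, fun b hb => ⟨0, hmin b hb⟩, ?_⟩
    rintro p b c rfl _
    simp
  obtain ⟨f, hf⟩ := ((h γ).mono Set.Iio_subset_Iic_self).exists_eq_range hne
  have hflt : ∀ n, f n < γ := fun n => by
    have : f n ∈ Set.Iio γ := hf ▸ Set.mem_range_self n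
    exact this
  let g : ℕ → Γ := fun n => Nat.rec (f 0) (fun n a => max a (f (n + 1))) n
  have g0 : g 0 = f 0 := rfl
  have gs : ∀ n, g (n + 1) = max (g n) (f (n + 1)) := fun n => rfl
  have hglt : ∀ n, g n < γ := by
    intro n
    induction n with
    | zero => exact hflt 0
    | succ n ih => rw [gs]; exact max_lt ih (hflt _)
  have hfg : ∀ n, f n ≤ g n := by
    intro n
    cases n with
    | zero => exact le_rfl
    | succ n => rw [gs]; exact le_max_right _ _
  have hr : ∀ n, ∃ r, g n ∈ x (g (n + 1)) r := fun n =>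
    (ih _ (hglt (n + 1))).2.2.1 _ (by rw [gs]; exact le_max_left _ _)
  choose r hr using hr
  let p : ℕ → ℕ := fun n => ∑ i ∈ Finset.range n, r i
  have hps : ∀ n, p (n + 1) = p n + r n := fun n => Finset.sum_range_succ _ _
  have hchain : ∀ n n' q, n ≤ n' → p n' ≤ q → x (g n) q ⊆ x (g n') q := by
    intro n n' q hn
    induction n', hn using Nat.le_induction with
    | base => exact fun _ => le_rfl
    | succ n' hn ih' =>
      intro hq
      rw [hps] at hq
      refine (ih' (by omega)).trans fun c hc => ?_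
      have h1 := ih _ (hglt (n' + 1))
      exact (h1.2.2.2 q _ c (h1.2.1 _ q (by omega) (hr n')) ((ih _ (hglt n')).1 q c hc)).2 hc
  let N : ℕ → ℕ := fun q => Nat.findGreatest (fun n => p n ≤ q) q
  have hN1 : ∀ q, p (N q) ≤ q := fun q =>
    Nat.findGreatest_spec (P := fun n => p n ≤ q) (Nat.zero_le q) (by simp [p])
  have hN2 : ∀ n q, n ≤ q → p n ≤ q → n ≤ N q := fun n q h1 h2 => Nat.le_findGreatest h1 h2
  have hN3 : ∀ q, N q ≤ q := fun q => Nat.findGreatest_le q
  refine ⟨fun q => insert γ (x (g (N q)) q), ?_⟩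
  simp only [Function.update_self]
  refine ⟨fun q b hb => ?_, fun q q' hq => ?_, fun b hb => ?_, fun q b c hb hc => ?_⟩
  · rcases Finset.mem_insert.1 hb with rfl | hb
    · exact le_rfl
    · exact ((ih _ (hglt _)).1 q b hb).trans (hglt _).le
  · refine Finset.insert_subset_insert _ (((ih _ (hglt _)).2.1 q q' hq).trans ?_)
    exact hchain _ _ _ (hN2 _ _ ((hN3 q).trans hq) ((hN1 q).trans hq)) (hN1 q')
  · rcases hb.eq_or_lt with rfl | hb
    · exact ⟨0, Finset.mem_insert_self _ _⟩
    obtain ⟨n, rfl⟩ : b ∈ Set.range f := hf ▸ hb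
    obtain ⟨q0, hq0⟩ := (ih _ (hglt n)).2.2.1 _ (hfg n)
    refine ⟨q0 + n + p n, Finset.mem_insert_of_mem ?_⟩
    exact hchain _ _ _ (hN2 _ _ (by omega) (by omega)) (hN1 _)
      ((ih _ (hglt n)).2.1 _ _ (by omega) hq0)
  · rcases Finset.mem_insert.1 hb with rfl | hb
    · rw [Function.update_self]
    · have h1 : b < γ := ((ih _ (hglt _)).1 q b hb).trans_lt (hglt _)
      rw [Function.update_of_ne h1.ne, Finset.mem_insert, ← (ih _ (hglt _)).2.2.2 q b c hb hc]
      exact or_iff_right (hc.trans_lt h1).ne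

/-- `c n γ` codes the first `n` bits of an injection `Γ → (ℕ → Bool)` (e.g. `Encodable.encode` of the
list of bits); `R = Subfield.closure {RCLike.I}` (countable by `Subfield.cardinalMk_closure_le_max`, dense since it contains
`a + b I`, `a, b ∈ ℚ`); `code p p' h = Nat.pair p (enc (p', (List.range p).map h))` with `enc` injective on the
countable set of `R`-valued data (`Set.Countable.exists_injOn`). -/
theorem exists_data (𝕜 : Type) [RCLike 𝕜] [WellFoundedLT Γ] (h : ∀ a : Γ, (Set.Iic a).Countable)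
    (hc : Cardinal.mk Γ ≤ Cardinal.continuum) : Nonempty (Data 𝕜 Γ) := by
  classical
  obtain ⟨F, F1, F2, F3, F4⟩ := exists_F h
  obtain ⟨e⟩ : Nonempty (Γ ↪ (ℕ → Bool)) := by
    rw [← Cardinal.le_def]
    simpa using hc
  set R : Subfield 𝕜 := Subfield.closure {RCLike.I} with hR
  have hRc : (R : Set 𝕜).Countable := by
    rw [← Cardinal.le_aleph0_iff_set_countable]
    refine (Subfield.cardinalMk_closure_le_max _).trans ?_
    simp
  have hRd : Dense (R : Set 𝕜) := by
    have h1 : DenseRange (Prod.map ((↑) : ℚ → ℝ) ((↑) : ℚ → ℝ)) :=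
      Rat.denseRange_cast.prodMap Rat.denseRange_cast
    have h2 : Function.Surjective fun t : ℝ × ℝ => (t.1 : 𝕜) + (t.2 : 𝕜) * RCLike.I :=
      fun z => ⟨(RCLike.re z, RCLike.im z), RCLike.re_add_im z⟩
    have h3 := h2.denseRange.comp h1 (by fun_prop)
    refine Dense.mono ?_ h3
    rintro _ ⟨⟨a, b⟩, rfl⟩
    simp only [Function.comp, Prod.map, RCLike.ofReal_ratCast]
    exact R.add_mem (SubfieldClass.ratCast_mem R a)
      (R.mul_mem (SubfieldClass.ratCast_mem R b) (Subfield.subset_closure rfl))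
  have hS : {f : ℕ →₀ 𝕜 | ∀ n, f n ∈ R}.Countable := by
    have : Countable R := hRc.to_subtype
    refine (Set.countable_range fun g : ℕ →₀ R => g.mapRange ((↑) : R → 𝕜) rfl).mono fun f hf => ?_
    refine ⟨Finsupp.onFinset f.support (fun n => ⟨f n, hf n⟩) fun n hn => ?_, ?_⟩
    · exact Finsupp.mem_support_iff.2 fun h0 => hn (Subtype.ext h0)
    · ext n
      simp
  obtain ⟨enc, henc⟩ := Set.countable_iff_exists_injOn.1 hS
  refine ⟨{ F := F, F_le := F1, F_mono := F2, F_cov := F3, F_coh := F4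
            c := fun n γ => Encodable.encode ((List.range n).map (e γ))
            c_sep := fun a b hab => ?_
            R := R, R_cnt := hRc, R_dense := hRd
            code := fun p p' h => Nat.pair p (Nat.pair p'
              (Encodable.encode ((List.range p).map fun i => enc (h i))))
            code_ge := fun p p' h => Nat.left_le_pair _ _
            code_congr := fun p p' h h' hh => ?_
            code_inj := fun p p' h q q' h' h1 h2 h3 => ?_ }⟩
  · obtain ⟨k, hk⟩ := Function.ne_iff.1 (e.injective.ne hab)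
    filter_upwards [eventually_gt_atTop k] with n hn h0
    exact hk (List.map_inj_left.1 (Encodable.encode_injective h0) k (List.mem_range.2 hn))
  · rw [List.map_congr_left fun i hi => by rw [hh i (List.mem_range.1 hi)]]
  · rw [Nat.pair_eq_pair, Nat.pair_eq_pair] at h3
    obtain ⟨rfl, rfl, h3⟩ := h3
    exact ⟨rfl, rfl, fun i hi => henc (h1 i) (h2 i)
      (List.map_inj_left.1 (Encodable.encode_injective h3) i (List.mem_range.2 hi))⟩

end Crest.Agent.R114
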