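import Crest.Agent.R114.Zsp
import Crest.Agent.R114.Omega

/-! Almost block sequences in infinite-dimensional subspaces of `Z`. -/

set_option autoImplicit false
set_option linter.unusedSectionVars false
open Filter Topology

namespace Crest.Agent.R114

variable {𝕜 : Type} [RCLike 𝕜] {Γ : Type} [LinearOrder Γ]

theorem fin1_inf_ker {V P : Type*} [AddCommGroup V] [Module 𝕜 V] [AddCommGroup P] [Module 𝕜 P]
    [FiniteDimensional 𝕜 P] {Y : Submodule 𝕜 V} (hY : ¬ FiniteDimensional 𝕜 Y) (L : V →ₗ[𝕜] P) :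
    ¬ FiniteDimensional 𝕜 ↥(Y ⊓ LinearMap.ker L) := by
  intro h
  refine hY (Module.Finite.iff_fg.2 (Submodule.fg_of_fg_map_of_fg_inf_ker L ?_ ?_))
  · exact Module.Finite.iff_fg.1 inferInstance
  · exact Module.Finite.iff_fg.1 h

theorem fin1_seq {V : Type*} [AddCommGroup V] [Module 𝕜 V] {Y : Submodule 𝕜 V}
    (hY : ¬ FiniteDimensional 𝕜 Y) : ∃ e : ℕ → V, (∀ n, e n ∈ Y) ∧
      ¬ FiniteDimensional 𝕜 (Submodule.span 𝕜 (Set.range e)) := by
  let b := Module.Basis.ofVectorSpace 𝕜 Y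
  have hinf : Infinite (Module.Basis.ofVectorSpaceIndex 𝕜 Y) := by
    by_contra hn
    rw [not_infinite_iff_finite] at hn
    exact hY (Module.Finite.of_basis b)
  let f := Infinite.natEmbedding (Module.Basis.ofVectorSpaceIndex 𝕜 Y)
  have h1 : LinearIndependent 𝕜 (Y.subtype ∘ (b ∘ f)) :=
    (b.linearIndependent.comp f f.injective).map' Y.subtype Y.ker_subtype
  refine ⟨Y.subtype ∘ (b ∘ f), fun n => (b (f n)).2, fun h => ?_⟩
  have : Finite ℕ := (linearIndependent_span h1).finite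
  exact not_finite ℕ

theorem fin1_normalize {V : Type*} [NormedAddCommGroup V] [NormedSpace 𝕜 V] {y : V} (hy : y ≠ 0) :
    ‖((‖y‖⁻¹ : ℝ) : 𝕜) • y‖ = 1 := by
  rw [norm_smul, RCLike.norm_ofReal, abs_inv, abs_norm, inv_mul_cancel₀ (norm_ne_zero_iff.2 hy)]

namespace Data

variable {D : Data 𝕜 Γ} [Nonempty Γ] [WellFoundedLT Γ]

/-- Take the least `lam` such that `proj (Iio lam)` is bounded below on an infinite-dimensional subspace of
`Y`.  Such `lam` exist: the span of a linearly independent sequence in `Y` has countable total support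
(`Bdd.countable_support`), bounded by some `lam` (`OmegaOne.bdd`), on which the projection is the identity. -/
theorem exists_min_lam (h : OmegaOne Γ) (Y : Submodule 𝕜 D.Z) (hY : ¬ FiniteDimensional 𝕜 Y) :
    ∃ (lam : Γ) (c : ℝ) (Y' : Submodule 𝕜 D.Z), 0 < c ∧ Y' ≤ Y ∧ ¬ FiniteDimensional 𝕜 Y' ∧
      (∀ y ∈ Y', c * ‖y‖ ≤ ‖D.proj (Set.Iio lam) Set.ordConnected_Iio y‖) ∧
      ∀ μ < lam, ∀ Y'' ≤ Y', ¬ FiniteDimensional 𝕜 Y'' → ∀ ε > (0 : ℝ), ∃ y ∈ Y'', ‖y‖ = 1 ∧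
        ‖D.proj (Set.Iio μ) Set.ordConnected_Iio y‖ ≤ ε := by
  let S : Set Γ := {lam | ∃ (c : ℝ) (Y' : Submodule 𝕜 D.Z), 0 < c ∧ Y' ≤ Y ∧
    ¬ FiniteDimensional 𝕜 Y' ∧ ∀ y ∈ Y', c * ‖y‖ ≤ ‖D.proj (Set.Iio lam) Set.ordConnected_Iio y‖}
  have hS : S.Nonempty := by
    obtain ⟨e, he, hi⟩ := fin1_seq hY
    obtain ⟨lam, hl⟩ := h.bdd (⋃ n, Function.support (D.val (e n)))
      (Set.countable_iUnion fun n => (D.bdd_val (e n)).countable_support)
    refine ⟨lam, 1, Submodule.span 𝕜 (Set.range e), one_pos, ?_, hi, fun y hy => ?_⟩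
    · rw [Submodule.span_le]
      rintro _ ⟨n, rfl⟩
      exact he n
    · have : D.proj (Set.Iio lam) Set.ordConnected_Iio y = y := by
        induction hy using Submodule.span_induction with
        | mem x hx =>
          obtain ⟨n, rfl⟩ := hx
          apply D.val_injective
          rw [val_proj, Set.indicator_eq_self]
          exact fun γ hγ => hl γ (Set.mem_iUnion.2 ⟨n, hγ⟩)
        | zero => exact map_zero _
        | add x y _ _ hx hy => rw [map_add, hx, hy]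
        | smul a x _ hx => rw [map_smul, hx]
      rw [this, one_mul]
  obtain ⟨lam, ⟨c, Y', hc, hle, hi, hb⟩, hmin⟩ := wellFounded_lt.has_min S hS
  refine ⟨lam, c, Y', hc, hle, hi, hb, fun μ hμ Y'' hY'' hi'' ε hε => ?_⟩
  by_contra hn
  refine hmin μ ⟨ε, Y'', hε, hY''.trans hle, hi'', fun y hy => ?_⟩ hμ
  by_contra hlt
  rw [not_le] at hlt
  have hy0 : y ≠ 0 := by
    rintro rfl
    simp at hlt
  have hp : 0 < ‖y‖ := norm_pos_iff.2 hy0
  refine hn ⟨((‖y‖⁻¹ : ℝ) : 𝕜) • y, Y''.smul_mem _ hy, fin1_normalize hy0, ?_⟩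
  rw [map_smul, norm_smul, RCLike.norm_ofReal, abs_inv, abs_norm, inv_mul_le_iff₀ hp]
  linarith

theorem fin1_step {lam : Γ} {c : ℝ} {Y' : Submodule 𝕜 D.Z} (hc : 0 < c)
    (hi : ¬ FiniteDimensional 𝕜 Y')
    (hb : ∀ y ∈ Y', c * ‖y‖ ≤ ‖D.proj (Set.Iio lam) Set.ordConnected_Iio y‖)
    (hmin : ∀ μ < lam, ∀ Y'' ≤ Y', ¬ FiniteDimensional 𝕜 Y'' → ∀ ε > (0 : ℝ), ∃ y ∈ Y'', ‖y‖ = 1 ∧
        ‖D.proj (Set.Iio μ) Set.ordConnected_Iio y‖ ≤ ε)
    (ψ : ℕ → StrongDual 𝕜 D.Z) (k : ℕ) (T : Finset Γ) :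
    ∃ (w : D.Z) (v : Γ →₀ 𝕜), (w ∈ Y' ∧ c / 2 ≤ D.nrm v ∧
      ‖D.proj (Set.Iio lam) Set.ordConnected_Iio w - D.iota v‖ ≤ 1 / 2 ^ k) ∧
      (∀ n < k, ψ n w = 0) ∧ (∀ γ ∈ T, D.val w γ = 0) ∧
      ∀ γ ∈ v.support, γ < lam ∧ ∀ t ∈ T, t < lam → t < γ := by
  classical
  let L : D.Z →ₗ[𝕜] (Fin k → 𝕜) × (T → 𝕜) :=
    (LinearMap.pi fun n : Fin k => (ψ n : D.Z →ₗ[𝕜] 𝕜)).prod
      (LinearMap.pi fun t : T => (LinearMap.proj (t : Γ) : (Γ → 𝕜) →ₗ[𝕜] 𝕜).comp D.val)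
  have hL : ∀ w ∈ Y' ⊓ LinearMap.ker L, w ∈ Y' ∧ (∀ n < k, ψ n w = 0) ∧ ∀ γ ∈ T, D.val w γ = 0 := by
    rintro w ⟨h1, h2⟩
    have h2 : L w = 0 := h2
    exact ⟨h1, fun n hn => congrFun (congrArg Prod.fst h2) ⟨n, hn⟩,
      fun γ hγ => congrFun (congrArg Prod.snd h2) ⟨γ, hγ⟩⟩
  have hi' := fin1_inf_ker hi L
  set δ : ℝ := min (c / 4) (1 / 2 ^ k / 2) with hδ
  have hδ0 : 0 < δ := lt_min (by positivity) (by positivity)
  have key : ∃ w ∈ Y' ⊓ LinearMap.ker L, ‖w‖ = 1 ∧ ∃ (E : Set Γ) (hE : E.OrdConnected),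
      (∀ γ ∈ E, γ < lam ∧ ∀ t ∈ T, t < lam → t < γ) ∧
      ‖D.proj (Set.Iio lam) Set.ordConnected_Iio w - D.proj E hE w‖ ≤ δ := by
    rcases (T.filter (· < lam)).eq_empty_or_nonempty with hT | hT
    · have hne : Y' ⊓ LinearMap.ker L ≠ ⊥ := fun e => hi' (by rw [e]; infer_instance)
      obtain ⟨y, hy, hy0⟩ := Submodule.exists_mem_ne_zero_of_ne_bot hne
      refine ⟨_, Submodule.smul_mem _ _ hy, fin1_normalize hy0, Set.Iio lam, Set.ordConnected_Iio,
        fun γ hγ => ⟨hγ, fun t ht hl => ?_⟩, by simpa using hδ0.le⟩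
      exact absurd (Finset.mem_filter.2 ⟨ht, hl⟩) (by rw [hT]; simp)
    · set μ := (T.filter (· < lam)).max' hT with hμ
      have hm := Finset.mem_filter.1 (Finset.max'_mem _ hT)
      obtain ⟨w, hw, hn, hs⟩ := hmin μ hm.2 _ inf_le_left hi' δ hδ0
      refine ⟨w, hw, hn, Set.Ioo μ lam, Set.ordConnected_Ioo, fun γ hγ => ⟨hγ.2, fun t ht hl =>
        (Finset.le_max' _ t (Finset.mem_filter.2 ⟨ht, hl⟩)).trans_lt hγ.1⟩, ?_⟩
      have e : D.proj (Set.Iio lam) Set.ordConnected_Iio w -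
          D.proj (Set.Ioo μ lam) Set.ordConnected_Ioo w =
          D.proj (Set.Iio μ) Set.ordConnected_Iio w := by
        apply D.val_injective
        funext γ
        have h0 : D.val w μ = 0 := (hL w hw).2.2 μ hm.1
        have hml : μ < lam := hm.2
        simp only [map_sub, val_proj, Pi.sub_apply, Set.indicator_apply, Set.mem_Iio, Set.mem_Ioo]
        rcases lt_trichotomy γ μ with h | h | h
        · simp [h, h.trans hml, h.not_gt]
        · simp [h, h0]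
        · simp [h, h.not_gt]
      rw [e]
      exact hs
  obtain ⟨w, hw, hn, E, hE, hET, hd⟩ := key
  obtain ⟨x, hx⟩ := (D.bdd_val (D.proj E hE w)).exists_approx hδ0
  have e : D.proj E hE w - D.iota (rs E x) = D.proj E hE (D.proj E hE w - D.iota x) := by
    apply D.val_injective
    funext γ
    simp only [map_sub, val_proj, val_iota, coe_rs, Set.indicator_indicator, Set.inter_self]
  have h1 : ‖D.proj E hE w - D.iota (rs E x)‖ ≤ δ := by
    rw [e]
    refine (D.norm_proj_le E hE _).trans ?_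
    rw [norm_def, map_sub, val_iota]
    exact hx
  have h2 : ‖D.proj (Set.Iio lam) Set.ordConnected_Iio w - D.iota (rs E x)‖ ≤ 2 * δ := by
    linarith [norm_sub_le_norm_sub_add_norm_sub (D.proj (Set.Iio lam) Set.ordConnected_Iio w)
      (D.proj E hE w) (D.iota (rs E x))]
  have h3 : δ ≤ c / 4 := min_le_left _ _
  have h4 : δ ≤ 1 / 2 ^ k / 2 := min_le_right _ _
  obtain ⟨a1, a2, a3⟩ := hL w hw
  refine ⟨w, rs E x, ⟨a1, ?_, by linarith⟩, a2, a3, fun γ hγ => hET γ (mem_support_rs.1 hγ).2⟩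
  have h5 := hb w a1
  rw [hn, mul_one] at h5
  have h6 : ‖D.iota (rs E x)‖ = D.nrm (rs E x) := rfl
  linarith [norm_sub_norm_le (D.proj (Set.Iio lam) Set.ordConnected_Iio w) (D.iota (rs E x))]

/-- Recursion.  Enumerate the countable support of each `w l` as `s l i` (`i : ℕ`).  At step `k` let
`Y''` be the finite-codimensional subspace of `Y'` killed by `ψ n` (`n < k`), by the coordinates `s l i`
(`l, i < k`) and by the coordinate `μ = max supp (v (k-1))`; take `w k ∈ Y''` of norm one with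
`‖proj (Iio μ) (w k)‖` small, approximate `proj (Ioo μ lam) (w k)` by a finitely supported vector
(`Bdd.exists_approx`) and restrict it to `Ioo μ lam` (`nrm_indicator_le`); it is nonzero since
`c / 2 ≤ nrm (v k)`.  For `k = 0` approximate `proj (Iio lam) (w 0)`. -/
theorem exists_almost_block (h : OmegaOne Γ) (Y : Submodule 𝕜 D.Z) (hY : ¬ FiniteDimensional 𝕜 Y)
    (ψ : ℕ → StrongDual 𝕜 D.Z) :
    ∃ (lam : Γ) (c : ℝ) (Y' : Submodule 𝕜 D.Z) (w : ℕ → D.Z) (v : ℕ → Γ →₀ 𝕜), 0 < c ∧ Y' ≤ Y ∧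
      (∀ y ∈ Y', c * ‖y‖ ≤ ‖D.proj (Set.Iio lam) Set.ordConnected_Iio y‖) ∧ Base v lam ∧
      (∀ k, w k ∈ Y' ∧ c / 2 ≤ D.nrm (v k) ∧
        ‖D.proj (Set.Iio lam) Set.ordConnected_Iio (w k) - D.iota (v k)‖ ≤ 1 / 2 ^ k) ∧
      (∀ n k, n < k → ψ n (w k) = 0) ∧ ∀ γ, ∀ᶠ k in atTop, D.val (w k) γ = 0 := by
  classical
  obtain ⟨lam, c, Y', hc, hle, hi, hb, hmin⟩ := exists_min_lam h Y hY
  choose wS vS h1 h2 h3 h4 using fin1_step hc hi hb hmin ψ
  choose en hen using fun z : D.Z =>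
    Set.countable_iff_exists_subset_range.1 (D.bdd_val z).countable_support
  let st : ℕ → Finset Γ × Finset D.Z := fun k => Nat.rec (∅, ∅) (fun k p =>
    (p.1 ∪ (vS k p.1).support ∪
      (insert (wS k p.1) p.2).biUnion fun z => (Finset.range (k + 1)).image (en z),
      insert (wS k p.1) p.2)) k
  have s1 : ∀ k, (st (k + 1)).2 = insert (wS k (st k).1) (st k).2 := fun k => rfl
  have s2 : ∀ k, (st (k + 1)).1 = (st k).1 ∪ (vS k (st k).1).support ∪
      ((st (k + 1)).2).biUnion fun z => (Finset.range (k + 1)).image (en z) := fun k => rfl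
  have m1 : Monotone fun k => (st k).1 := monotone_nat_of_le_succ fun k => by
    rw [s2, Finset.union_assoc]; exact Finset.subset_union_left
  have m2 : Monotone fun k => (st k).2 := monotone_nat_of_le_succ fun k => by
    rw [s1]; exact Finset.subset_insert _ _
  refine ⟨lam, c, Y', fun k => wS k (st k).1, fun k => vS k (st k).1, hc, hle, hb,
    ⟨fun i j hij a ha b hb' => ?_, fun k h0 => ?_, fun k γ hγ => (h4 _ _ γ hγ).1⟩,
    fun k => h1 _ _, fun n k hn => h2 _ _ n hn, fun γ => ?_⟩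
  · refine (h4 _ _ b hb').2 a (m1 (Nat.succ_le_of_lt hij) ?_) (h4 _ _ a ha).1
    show a ∈ (st (i + 1)).1
    rw [s2]
    exact Finset.mem_union_left _ (Finset.mem_union_right _ ha)
  · have := (h1 k (st k).1).2.1
    have h0 : vS k (st k).1 = 0 := h0
    rw [h0, Finsupp.coe_zero, nrm_zero] at this
    linarith
  · by_cases hγ : ∀ l, D.val (wS l (st l).1) γ = 0
    · exact Eventually.of_forall hγ
    · push Not at hγ
      obtain ⟨l, hl⟩ := hγ
      obtain ⟨i, hi⟩ := hen _ (Function.mem_support.2 hl)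
      filter_upwards [eventually_gt_atTop l, eventually_gt_atTop i] with k k1 k2
      obtain ⟨k, rfl⟩ := Nat.exists_eq_succ_of_ne_zero (k2.trans_le' (Nat.zero_le _)).ne'
      refine h3 _ _ γ ?_
      rw [s2]
      refine Finset.mem_union_right _ (Finset.mem_biUnion.2 ⟨wS l (st l).1,
        m2 (Nat.succ_le_of_lt k1) ?_, Finset.mem_image.2 ⟨i, Finset.mem_range.2 k2, hi⟩⟩)
      show _ ∈ (st (l + 1)).2
      rw [s1]
      exact Finset.mem_insert_self _ _

end Data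

end Crest.Agent.R114
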