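import Crest.Agent.R114.Zsp
import Crest.Agent.R114.Enum

/-! The generating vectors `x γ ∈ Z*` of the example and the duality `X* ≅ Z`. -/

set_option autoImplicit false
set_option linter.unusedSectionVars false
open Filter Topology

namespace Crest.Agent.R114

variable {𝕜 : Type} [RCLike 𝕜] {Γ : Type} [LinearOrder Γ]

namespace Data

variable {D : Data 𝕜 Γ} [Nonempty Γ] {b : Γ → ℕ → Γ →₀ 𝕜}

/-- modulo the earlier vectors, `x γ` is `e_γ^*` plus far tails of the branch `b γ` -/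
def Inv (D : Data 𝕜 Γ) (b : Γ → ℕ → Γ →₀ 𝕜) (γ : Γ) (x : Γ → StrongDual 𝕜 D.Z) : Prop :=
  ∃ g : ℕ → StrongDual 𝕜 D.Z, (∀ n, g n ∈ Submodule.span 𝕜 (x '' Set.Iio γ)) ∧
    Tendsto (fun n => ‖x γ - g n - D.ev (Finsupp.single γ 1) - D.tl (b γ) n‖) atTop (𝓝 0)

theorem ev_eq_sum (f : Γ →₀ 𝕜) : D.ev f = ∑ δ ∈ f.support, f δ • D.ev (Finsupp.single δ 1) := by
  ext z
  simp [pair_eq_sum f _ _ le_rfl]

theorem Enum.key (hb : D.Enum b) {x : Γ → StrongDual 𝕜 D.Z} (g : Γ → ℕ → StrongDual 𝕜 D.Z)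
    (f : Γ →₀ 𝕜) (hg : ∀ δ ∈ f.support, Tendsto
      (fun n => ‖x δ - g δ n - D.ev (Finsupp.single δ 1) - D.tl (b δ) n‖) atTop (𝓝 0))
    {ε : ℝ} (hε : 0 < ε) :
    ∀ᶠ n in atTop, ‖∑ δ ∈ f.support, f δ • (x δ - g δ n) - D.ev f‖ ≤ l2 f + ε := by
  have h1 := (tendsto_finsetSum f.support fun δ hδ =>
    (tendsto_zero_iff_norm_tendsto_zero.2 (hg δ hδ)).const_smul (f δ)).norm
  rw [show ∑ δ ∈ f.support, f δ • (0 : StrongDual 𝕜 D.Z) = 0 by ext z; simp, norm_zero] at h1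
  filter_upwards [eventually_norm_sum_tl hb.spn hb.fin f, h1.eventually_le_const hε] with n a1 a2
  refine le_trans (le_of_eq ?_) ((norm_add_le _ _).trans (add_le_add a1 a2))
  rw [ev_eq_sum f, ← Finset.sum_sub_distrib, ← Finset.sum_add_distrib]
  refine congrArg _ (Finset.sum_congr rfl fun δ _ => ?_)
  ext z
  simp only [sub_apply, add_apply, smul_apply, smul_eq_mul]
  ring

/-- Lifting: `f' = ∑_{δ ∈ supp f} f δ • (x δ - g δ n)` for large `n`; `eventually_norm_sum_tl`. -/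
theorem Enum.lift (hb : D.Enum b) {γ : Γ} {x : Γ → StrongDual 𝕜 D.Z} (hx : ∀ δ < γ, D.Inv b δ x)
    (f : Γ →₀ 𝕜) (hf : ∀ δ ∈ f.support, δ < γ) {ε : ℝ} (hε : 0 < ε) :
    ∃ f' ∈ Submodule.span 𝕜 (x '' Set.Iio γ), ‖f' - D.ev f‖ ≤ l2 f + ε := by
  choose! g hg hg' using hx
  obtain ⟨n, hn⟩ := (hb.key g f (fun δ hδ => hg' δ (hf δ hδ)) hε).exists
  refine ⟨_, Submodule.sum_mem _ fun δ hδ => Submodule.smul_mem _ _ (sub_mem
    (Submodule.subset_span ⟨δ, hf δ hδ, rfl⟩) ?_), hn⟩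
  exact Submodule.span_mono (Set.image_mono (Set.Iio_subset_Iio (hf δ hδ).le)) (hg δ (hf δ hδ) n)

/-- `exists_rec` with `P = Inv`.  Step: lift `f j = b γ j` to `f' j` with `ε = 2^{-j}`
(`l2 (f j) ≤ 2 / mm j` by `Node.l2_le`, so `∑ ‖f' j - ev (f j)‖ < ∞`), and put
`x γ = ev (single γ 1) + tl (b γ) 0 + ∑' j, (f' j - ev (f j))`, `g n = ∑_{j<n} f' j` (`tl_split`). -/
theorem Enum.exists_x [WellFoundedLT Γ] (hb : D.Enum b) :
    ∃ x : Γ → StrongDual 𝕜 D.Z, ∀ γ, D.Inv b γ x := by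
  refine exists_rec _ (fun γ x x' h ⟨g, hg, hg'⟩ => ⟨g, ?_, h γ le_rfl ▸ hg'⟩) fun γ x hx => ?_
  · rwa [← Set.image_congr fun δ (hδ : δ ∈ Set.Iio γ) => h δ hδ.le]
  choose f hf hf' using fun j =>
    hb.lift hx (b γ j) (hb.lt γ j) (ε := (1 / 2) ^ j) (by positivity)
  have hs : Summable fun j => f j - D.ev (b γ j) := by
    refine .of_norm_bounded (summable_geometric_two.add summable_geometric_two) fun j =>
      (hf' j).trans (add_le_add_left (((hb.spn γ).2 j).l2_le.trans ?_) _)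
    rw [mm, one_div_pow, div_le_div_iff₀ (by positivity) (by positivity)]
    push_cast
    rw [pow_add]
    nlinarith [pow_pos (two_pos (α := ℝ)) j]
  refine ⟨D.ev (Finsupp.single γ 1) + D.tl (b γ) 0 + ∑' j, (f j - D.ev (b γ j)),
    fun n => ∑ j ∈ Finset.range n, f j, fun n => ?_, ?_⟩
  · rw [Set.image_congr fun δ (hδ : δ ∈ Set.Iio γ) => Function.update_of_ne hδ.ne _ x]
    exact Submodule.sum_mem _ fun j _ => hf j
  refine (tendsto_iff_norm_sub_tendsto_zero.1 hs.hasSum.tendsto_sum_nat).congr fun n => ?_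
  rw [Function.update_self, (hb.spn γ).tl_split n.zero_le, norm_sub_rev, Finset.sum_sub_distrib,
    map_sum, Nat.Ico_zero_eq_range]
  congr 1
  abel

/-- The example: the closed span of the `x γ`. -/
noncomputable def Xs (D : Data 𝕜 Γ) (x : Γ → StrongDual 𝕜 D.Z) : Submodule 𝕜 (StrongDual 𝕜 D.Z) :=
  (Submodule.span 𝕜 (Set.range x)).topologicalClosure

/-- the example as a type -/
def XT (D : Data 𝕜 Γ) (x : Γ → StrongDual 𝕜 D.Z) : Type := D.Xs x

noncomputable instance (x : Γ → StrongDual 𝕜 D.Z) : NormedAddCommGroup (D.XT x) :=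
  inferInstanceAs (NormedAddCommGroup (D.Xs x))

noncomputable instance (x : Γ → StrongDual 𝕜 D.Z) : NormedSpace 𝕜 (D.XT x) :=
  inferInstanceAs (NormedSpace 𝕜 (D.Xs x))

instance (x : Γ → StrongDual 𝕜 D.Z) : CompleteSpace (D.XT x) :=
  (Submodule.isClosed_topologicalClosure _).completeSpace_coe

/-- the isometric inclusion in `Z*` -/
noncomputable def inc (D : Data 𝕜 Γ) (x : Γ → StrongDual 𝕜 D.Z) :
    D.XT x →ₗᵢ[𝕜] StrongDual 𝕜 D.Z := (D.Xs x).subtypeₗᵢ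

theorem inc_mem {x : Γ → StrongDual 𝕜 D.Z} (ξ : D.XT x) : D.inc x ξ ∈ D.Xs x := ξ.2

/-- constructor -/
def mkX {x : Γ → StrongDual 𝕜 D.Z} (ξ : StrongDual 𝕜 D.Z) (h : ξ ∈ D.Xs x) : D.XT x := ⟨ξ, h⟩

@[simp] theorem inc_mkX {x : Γ → StrongDual 𝕜 D.Z} (ξ : StrongDual 𝕜 D.Z) (h : ξ ∈ D.Xs x) :
    D.inc x (mkX ξ h) = ξ := rfl

/-- `X* ≅ Z`.  Sketch: choose the `g γ n` of `Inv`.  For `y ∈ X*` let `j y γ = lim_𝒰 y (x γ - g γ n)` along
`hyperfilter ℕ` (bounded sequences in the proper space `𝕜`, `norm_tl_le`).  For `f ∈ W`,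
`‖∑ f γ • (x γ - g γ n)‖ ≤ ‖ev f‖ + l2 f + o(1) ≤ 2 + o(1)`, so `j y ∈ Z`, `‖j y‖ ≤ 2 ‖y‖`.  If `y` is evaluation at
`z`, then `j y = z` (`tl_tendsto_zero`).  `j` is additive, and `j y = 0` implies `y (x γ) = 0` by well-founded
induction, so `y = 0`; apply this to `y - eval (j y)`. -/
theorem Enum.dual [WellFoundedLT Γ] (hb : D.Enum b) {x : Γ → StrongDual 𝕜 D.Z}
    (hx : ∀ γ, D.Inv b γ x) :
    (∀ y : StrongDual 𝕜 (D.XT x), ∃ z : D.Z, ∀ ξ : D.XT x, y ξ = D.inc x ξ z) ∧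
      ∀ (z : D.Z) (C : ℝ), 0 ≤ C → (∀ ξ : D.XT x, ‖D.inc x ξ z‖ ≤ C * ‖ξ‖) → ‖z‖ ≤ 2 * C := by
  choose g hg hg' using hx
  have hbd : ∀ f, D.W f → ∀ ε > 0, ∀ᶠ n in atTop,
      ‖∑ δ ∈ f.support, f δ • (x δ - g δ n)‖ ≤ 2 + ε := fun f hf ε hε => by
    filter_upwards [hb.key g f (fun δ _ => hg' δ) hε] with n hn
    have h1 : ‖D.ev f‖ ≤ 1 := ContinuousLinearMap.opNorm_le_bound _ zero_le_one fun z => by
      rw [one_mul]; exact hf.le_nrm (D.bdd_val z)
    linarith [norm_le_norm_sub_add (∑ δ ∈ f.support, f δ • (x δ - g δ n)) (D.ev f), hf.l2_le]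
  have hev : ∀ z γ, Tendsto (fun n => (x γ - g γ n) z) atTop (𝓝 (D.val z γ)) := fun z γ => by
    have h1 := ((ContinuousLinearMap.apply 𝕜 𝕜 z).continuous.tendsto 0).comp
      (tendsto_zero_iff_norm_tendsto_zero.2 (hg' γ))
    simpa [Function.comp_def] using (h1.add ((hb.spn γ).tl_tendsto_zero z)).add_const (D.val z γ)
  have hlim : ∀ (Y : StrongDual 𝕜 D.Z →L[𝕜] 𝕜) (l : Filter ℕ) (j : Γ → 𝕜) (f : Γ →₀ 𝕜),
      (∀ γ, Tendsto (fun n => Y (x γ - g γ n)) l (𝓝 (j γ))) →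
      Tendsto (fun n => ‖Y (∑ δ ∈ f.support, f δ • (x δ - g δ n))‖) l (𝓝 ‖pair f j‖) :=
    fun Y l j f h => by
      simp only [map_sum, map_smul, smul_eq_mul, pair_eq_sum f j _ le_rfl]
      exact (tendsto_finsetSum _ fun δ _ => (h δ).const_mul _).norm
  refine ⟨fun y => ?_, fun z C hC h => nrm_le fun f hf => le_of_forall_pos_le_add fun ε hε => ?_⟩
  · obtain ⟨Y, hY, -⟩ := exists_extension_norm_eq (D.Xs x) y
    have hU : (hyperfilter ℕ : Filter ℕ) ≤ atTop := Nat.hyperfilter_le_atTop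
    have : ∀ γ, ∃ a, Tendsto (fun n => Y (x γ - g γ n)) (hyperfilter ℕ) (𝓝 a) := fun γ => by
      obtain ⟨a, -, ha⟩ := (isCompact_closedBall (0 : 𝕜) (‖Y‖ * (2 + 1))).ultrafilter_le_nhds
        ((hyperfilter ℕ).map fun n => Y (x γ - g γ n)) (by
          rw [Ultrafilter.coe_map, le_principal_iff, mem_map]
          filter_upwards [hU (hbd _ (W.base γ 1 D.R.one_mem norm_one.le) 1 one_pos)] with n hn
          simp only [Finsupp.support_single _ one_ne_zero, Finset.sum_singleton,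
            Finsupp.single_eq_same, one_smul] at hn
          exact mem_closedBall_zero_iff.2 (Y.le_of_opNorm_le_of_le le_rfl hn))
      exact ⟨a, ha⟩
    choose j hj using this
    have hB : D.Bdd j := ⟨‖Y‖ * (2 + 1), fun f hf => le_of_tendsto (hlim Y _ j f hj)
      (((hbd f hf 1 one_pos).filter_mono hU).mono fun n hn => Y.le_of_opNorm_le_of_le le_rfl hn)⟩
    let K := (Y - ContinuousLinearMap.apply 𝕜 𝕜 (D.mkZ j hB)).ker
    have hK : ∀ γ, x γ ∈ K := fun γ => by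
      induction γ using WellFoundedLT.induction with
      | ind γ ih =>
      have h1 : ∀ n, Y (g γ n) - g γ n (D.mkZ j hB) = 0 := fun n =>
        (Submodule.span_le (p := K)).2 (by rintro _ ⟨δ, hδ, rfl⟩; exact ih δ hδ) (hg γ n)
      have h2 := (hj γ).sub ((hev (D.mkZ j hB) γ).mono_left hU)
      rw [val_mkZ, sub_self] at h2
      refine tendsto_nhds_unique (tendsto_const_nhds (x := Y (x γ) - x γ (D.mkZ j hB))) (h2.congr fun n => ?_)
      rw [map_sub, sub_apply]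
      linear_combination -h1 n
    refine ⟨D.mkZ j hB, fun ξ => (hY ξ).symm.trans (sub_eq_zero.1 ?_)⟩
    exact Submodule.topologicalClosure_minimal (t := K) _
      (Submodule.span_le.2 (by rintro _ ⟨δ, rfl⟩; exact hK δ)) (ContinuousLinearMap.isClosed_ker _) ξ.2
  refine le_of_tendsto (hlim (ContinuousLinearMap.apply 𝕜 𝕜 z) _ _ f (hev z)) ?_
  filter_upwards [hbd f hf (ε / (C + 1)) (by positivity)] with n hn
  have hm : ∑ δ ∈ f.support, f δ • (x δ - g δ n) ∈ D.Xs x :=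
    Submodule.le_topologicalClosure _ (Submodule.sum_mem _ fun δ _ => Submodule.smul_mem _ _ (sub_mem
      (Submodule.subset_span ⟨δ, rfl⟩) (Submodule.span_mono (Set.image_subset_range _ _) (hg δ n))))
  refine (h (mkX _ hm)).trans ((mul_le_mul_of_nonneg_left hn hC).trans ?_)
  have : C * (ε / (C + 1)) ≤ ε := by
    rw [← mul_div_assoc, div_le_iff₀ (by positivity)]
    nlinarith
  linarith

/-- From the second part of `Enum.dual`: `Z` injects linearly into the dual of `X`, and `Z` contains the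
linearly independent vectors `iota (single γ 1)`. -/
theorem Enum.not_finiteDimensional [WellFoundedLT Γ] [Infinite Γ] (hb : D.Enum b)
    {x : Γ → StrongDual 𝕜 D.Z} (hx : ∀ γ, D.Inv b γ x) : ¬ FiniteDimensional 𝕜 (D.XT x) := by
  intro hfin
  let L : (Γ →₀ 𝕜) →ₗ[𝕜] Module.Dual 𝕜 (D.XT x) :=
    (((ContinuousLinearMap.coeLM 𝕜).comp (D.inc x).toLinearMap).flip).comp D.iota
  have hL : Function.Injective L := (injective_iff_map_eq_zero L).2 fun f hf => by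
    have h1 := (hb.dual hx).2 (D.iota f) 0 le_rfl fun ξ => by
      rw [zero_mul]; exact (norm_eq_zero.2 (LinearMap.congr_fun hf ξ)).le
    rw [mul_zero, norm_le_zero_iff] at h1
    exact DFunLike.coe_injective (by simpa using congrArg D.val h1)
  have := Module.Finite.of_injective L hL
  exact not_finite_iff_infinite.2 ‹_›
    (Finsupp.basisSingleOne (R := 𝕜) (ι := Γ)).linearIndependent.finite

/-- `σ = b γ`; `(x γ - g n) (w i) → 0`, `ev f (w i) → 0`, `tl σ 0 = ev (∑_{j<n} σ j) + tl σ n`. -/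
theorem Enum.tl_null (hb : D.Enum b) {x : Γ → StrongDual 𝕜 D.Z} (hx : ∀ γ, D.Inv b γ x)
    (w : ℕ → D.Z) (C : ℝ) (hw : ∀ i, ‖w i‖ ≤ C) (h1 : ∀ γ, Tendsto (fun i => x γ (w i)) atTop (𝓝 0))
    (h2 : ∀ γ, ∀ᶠ i in atTop, D.val (w i) γ = 0) {σ : ℕ → Γ →₀ 𝕜} (hσ : D.SpN σ) :
    Tendsto (fun i => D.tl σ 0 (w i)) atTop (𝓝 0) := by
  obtain ⟨γ, rfl⟩ := hb.surj σ hσ
  obtain ⟨g, hg, hg'⟩ := hx γ
  have hC : 0 ≤ C := (norm_nonneg _).trans (hw 0)
  have h3 : ∀ φ ∈ Submodule.span 𝕜 (x '' Set.Iio γ), Tendsto (fun i => φ (w i)) atTop (𝓝 0) :=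
    fun φ hφ => by
      induction hφ using Submodule.span_induction with
      | mem _ h => obtain ⟨δ, -, rfl⟩ := h; exact h1 δ
      | zero => exact tendsto_const_nhds
      | add _ _ _ _ h h' => simpa using h.add h'
      | smul c _ _ h => simpa using h.const_mul c
  have h4 : ∀ f : Γ →₀ 𝕜, Tendsto (fun i => D.ev f (w i)) atTop (𝓝 0) := fun f =>
    tendsto_const_nhds.congr' (((Finset.eventually_all f.support).2 fun δ _ => h2 δ).mono
      fun i hi => (pair_eq_zero f hi).symm)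
  refine NormedAddGroup.tendsto_nhds_zero.2 fun ε hε => ?_
  obtain ⟨n, hn⟩ := ((hg'.mul_const C).eventually_lt_const (show 0 * C < ε / 2 by linarith)).exists
  have h5 := (((h1 γ).sub (h3 _ (hg n))).sub (h4 (Finsupp.single γ 1))).add
    (h4 (∑ j ∈ Finset.Ico 0 n, b γ j))
  simp only [sub_zero, add_zero] at h5
  filter_upwards [NormedAddGroup.tendsto_nhds_zero.1 h5 (ε / 2) (by linarith)] with i hi
  have h6 := ((x γ - g n - D.ev (Finsupp.single γ 1) - D.tl (b γ) n).le_of_opNorm_le_of_le le_rfl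
    (hw i)).trans_lt hn
  refine lt_of_le_of_lt (le_of_eq ?_) ((norm_sub_le _ _).trans_lt ((add_lt_add hi h6).trans_eq
    (add_halves ε)))
  rw [hσ.tl_split n.zero_le]
  simp only [sub_apply, add_apply]
  congr 1
  ring

end Data

end Crest.Agent.R114
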