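import Crest.Agent.R114.Fin1
import Crest.Agent.R114.XSp
import Crest.Agent.R114.Core

/-! The example has no separable infinite-dimensional quotient. -/

set_option autoImplicit false
set_option linter.unusedSectionVars false
open Filter Topology

namespace Crest.Agent.R114

variable {𝕜 : Type} [RCLike 𝕜] {Γ : Type} [LinearOrder Γ]

theorem sum_half_pow_tail_le (K : Finset ℕ) (m : ℕ) (h : ∀ k ∈ K, m ≤ k) :
    ∑ k ∈ K, (1 : ℝ) / 2 ^ k ≤ 2 / 2 ^ m := by
  obtain ⟨N, hN⟩ : ∃ N, K ⊆ Finset.Ico m (m + N) := ⟨K.sup id + 1, fun k hk => by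
    have := Finset.le_sup (f := id) hk
    simp only [id] at this
    rw [Finset.mem_Ico]; exact ⟨h k hk, by omega⟩⟩
  have key : ∀ N, ∑ k ∈ Finset.Ico m (m + N), (1 : ℝ) / 2 ^ k = 2 / 2 ^ m - 2 / 2 ^ (m + N) := by
    intro N
    induction N with
    | zero => simp
    | succ N ih =>
      rw [← add_assoc, Finset.sum_Ico_succ_top (Nat.le_add_right _ _), ih, pow_succ]
      field_simp
      ring
  calc ∑ k ∈ K, (1 : ℝ) / 2 ^ k ≤ ∑ k ∈ Finset.Ico m (m + N), (1 : ℝ) / 2 ^ k :=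
        Finset.sum_le_sum_of_subset_of_nonneg hN fun _ _ _ => by positivity
    _ ≤ 2 / 2 ^ m := by
        rw [key]
        have : (0 : ℝ) ≤ 2 / 2 ^ (m + N) := by positivity
        linarith

namespace Data

variable {D : Data 𝕜 Γ} [Nonempty Γ] [WellFoundedLT Γ]

/-- Sketch: `exists_almost_block` and `core`.  For `u = ∑_{k ∈ K} a k • v k ∈ Blk v m` (`mem_Blk_iff`) with
`nrm u ≤ C`: `‖a k‖ * c/2 ≤ C` (`Succ.rs_hull_sum`, `nrm_indicator_le`); `y = ∑ a k • w k ∈ Y'`,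
`‖proj y - iota u‖ ≤ (2C/c) * 2 / 2^m`, so `‖y‖ ≤ (C + 4C/c) / c`, and
`tl σ 0 y = tl σ 0 (proj y)` (`tl_proj`) is within `(4C/c) / 2^m` of `tl σ 0 (iota u)`, whose norm is `≥ ε`. -/
theorem exists_notNull (h : OmegaOne Γ) (Y : Submodule 𝕜 D.Z) (hY : ¬ FiniteDimensional 𝕜 Y)
    (ψ : ℕ → StrongDual 𝕜 D.Z) :
    ∃ (σ : ℕ → Γ →₀ 𝕜) (y : ℕ → D.Z) (C ε : ℝ), D.SpN σ ∧ 0 < ε ∧ (∀ m, y m ∈ Y ∧ ‖y m‖ ≤ C) ∧
      (∀ n m, n < m → ψ n (y m) = 0) ∧ (∀ γ, ∀ᶠ m in atTop, D.val (y m) γ = 0) ∧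
      ∀ᶠ m in atTop, ε ≤ ‖D.tl σ 0 (y m)‖ := by
  obtain ⟨lam, c, Y', w, v, hc, hY', hlow, hv, hw, hψ, hγ⟩ := exists_almost_block h Y hY ψ
  obtain ⟨σ, hσ, hlt, C, ε, hε, H⟩ := D.core hv
  choose u hu huC huε using H
  choose K a hK hua using fun m => mem_Blk_iff.1 (hu m)
  have hC : 0 ≤ C := (D.nrm_nonneg _).trans (huC 0)
  set P := D.proj (Set.Iio lam) Set.ordConnected_Iio with hP
  have ha : ∀ m, ∀ k ∈ K m, ‖a m k‖ ≤ 2 * C / c := by
    intro m k hk
    have h1 : D.nrm ⇑(rs (hull (v k)) (u m)) ≤ C := by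
      rw [coe_rs]
      exact (nrm_indicator_le (D.bdd_finsupp _) (hull_ordConnected _)).trans (huC m)
    rw [hua m, hv.1.rs_hull_sum _ _ hk, Finsupp.coe_smul, nrm_smul] at h1
    have h2 := mul_le_mul_of_nonneg_left (hw k).2.1 (norm_nonneg (a m k))
    rw [le_div_iff₀ hc]
    linarith
  set y : ℕ → D.Z := fun m => ∑ k ∈ K m, a m k • w k with hy
  have hyY : ∀ m, y m ∈ Y' := fun m =>
    Submodule.sum_mem _ fun k _ => Submodule.smul_mem _ _ (hw k).1
  have hd : ∀ m, ‖P (y m) - D.iota (u m)‖ ≤ 2 * C / c * (2 / 2 ^ m) := by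
    intro m
    have e : P (y m) - D.iota (u m) = ∑ k ∈ K m, a m k • (P (w k) - D.iota (v k)) := by
      rw [hua m]
      simp only [hy, map_sum, map_smul, smul_sub, Finset.sum_sub_distrib]
    rw [e]
    refine (norm_sum_le _ _).trans ?_
    have hpos : 0 ≤ 2 * C / c := by positivity
    calc ∑ k ∈ K m, ‖a m k • (P (w k) - D.iota (v k))‖
        ≤ ∑ k ∈ K m, 2 * C / c * (1 / 2 ^ k) := Finset.sum_le_sum fun k hk => by
          rw [norm_smul]
          exact mul_le_mul (ha m k hk) (hw k).2.2 (norm_nonneg _) hpos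
      _ = 2 * C / c * ∑ k ∈ K m, (1 : ℝ) / 2 ^ k := by rw [Finset.mul_sum]
      _ ≤ _ := mul_le_mul_of_nonneg_left (sum_half_pow_tail_le _ _ (hK m)) hpos
  have hiu : ∀ m, ‖D.iota (u m)‖ ≤ C := fun m => huC m
  refine ⟨σ, y, (C + 2 * C / c * 2) / c, ε / 2, hσ, half_pos hε, fun m => ⟨hY' (hyY m), ?_⟩,
    fun n m hnm => ?_, fun γ => ?_, ?_⟩
  · rw [le_div_iff₀ hc, mul_comm]
    refine (hlow _ (hyY m)).trans ?_
    have h1 : ‖P (y m)‖ ≤ ‖D.iota (u m)‖ + ‖P (y m) - D.iota (u m)‖ := norm_le_insert' _ _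
    have h2 : (2 : ℝ) / 2 ^ m ≤ 2 := div_le_self (by norm_num) (one_le_pow₀ (by norm_num))
    have h3 := mul_le_mul_of_nonneg_left h2 (show 0 ≤ 2 * C / c by positivity)
    linarith [hd m, hiu m]
  · simp only [hy, map_sum, map_smul]
    exact Finset.sum_eq_zero fun k hk => by rw [hψ n k (hnm.trans_le (hK m k hk)), smul_zero]
  · obtain ⟨m0, hm0⟩ := eventually_atTop.1 (hγ γ)
    refine eventually_atTop.2 ⟨m0, fun m hm => ?_⟩
    simp only [hy, map_sum, map_smul, Finset.sum_apply, Pi.smul_apply]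
    exact Finset.sum_eq_zero fun k hk => by rw [hm0 k (hm.trans (hK m k hk)), smul_zero]
  · have ht : Tendsto (fun m : ℕ => 2 * C / c * (2 / 2 ^ m)) atTop (𝓝 (2 * C / c * 0)) :=
      Tendsto.const_mul _ (tendsto_const_nhds.div_atTop
        (tendsto_pow_atTop_atTop_of_one_lt (by norm_num)))
    rw [mul_zero] at ht
    filter_upwards [ht.eventually (ge_mem_nhds (half_pos hε))] with m hm
    have h1 : ε ≤ ‖D.tl σ 0 (D.iota (u m))‖ := by
      refine ge_of_tendsto (hσ.tendsto_tl 0 (D.iota (u m))).norm ?_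
      filter_upwards [huε m] with t ht
      rwa [← Finset.range_eq_Ico, val_iota]
    have h2 : D.tl σ 0 (P (y m)) = D.tl σ 0 (y m) :=
      hσ.tl_proj 0 Set.ordConnected_Iio (fun j γ hγ => hlt j γ hγ) _
    have h3 : ‖D.tl σ 0 (P (y m)) - D.tl σ 0 (D.iota (u m))‖ ≤ ε / 2 := by
      rw [← map_sub]
      refine ((D.tl σ 0).le_opNorm _).trans ?_
      have := mul_le_mul_of_nonneg_right (hσ.norm_tl_le 0) (norm_nonneg (P (y m) - D.iota (u m)))
      linarith [hd m]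
    rw [h2] at h3
    have h4 := norm_sub_norm_le (D.tl σ 0 (D.iota (u m))) (D.tl σ 0 (y m))
    rw [norm_sub_rev] at h4
    linarith

/-- Sketch: let `Y = {z | ∀ ξ ∈ M, ξ z = 0}`.  If `X ⧸ M` is infinite-dimensional so is its dual, which injects
linearly in `Y` (by `Enum.dual`: a functional `φ` on `X ⧸ M` gives `φ ∘ mkQ`, which is evaluation at a unique `z`; or:
`z ∈ Y ↦ ` the induced functional on `X ⧸ M` is a linear surjection).  Take `ψ n ∈ X` whose classes are dense in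
`X ⧸ M`.  For `y m` from `exists_notNull` and `ξ ∈ X`: `‖ξ (y m)‖ = ‖(ξ - ψ n - μ) (y m)‖` for `μ ∈ M`, `n < m`,
so `ξ (y m) → 0`; `Enum.tl_null` contradicts the last property. -/
theorem Enum.quotient_finite (h : OmegaOne Γ) {b : Γ → ℕ → Γ →₀ 𝕜} (hb : D.Enum b)
    {x : Γ → StrongDual 𝕜 D.Z} (hx : ∀ γ, D.Inv b γ x) (M : Submodule 𝕜 (D.XT x))
    (hM : IsClosed (M : Set (D.XT x))) (hs : TopologicalSpace.SeparableSpace (D.XT x ⧸ M)) :
    FiniteDimensional 𝕜 (D.XT x ⧸ M) := by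
  by_contra hinf
  -- the annihilator of `M` in `Z`
  let Y : Submodule 𝕜 D.Z :=
    { carrier := {z | ∀ ξ ∈ M, D.inc x ξ z = 0}
      add_mem' := fun hz hw ξ hξ => by rw [map_add, hz ξ hξ, hw ξ hξ, add_zero]
      zero_mem' := fun ξ _ => map_zero _
      smul_mem' := fun c z hz ξ hξ => by rw [map_smul, hz ξ hξ, smul_zero] }
  have hY : ¬ FiniteDimensional 𝕜 Y := by
    intro hfin
    let T : D.XT x →ₗ[𝕜] Module.Dual 𝕜 Y :=
      { toFun := fun ξ => (D.inc x ξ).toLinearMap.comp Y.subtype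
        map_add' := fun ξ η => by ext z; simp
        map_smul' := fun c ξ => by ext z; simp }
    have hT : M ≤ LinearMap.ker T := fun ξ hξ => by
      rw [LinearMap.mem_ker]
      ext z
      exact z.2 ξ hξ
    have hT' : LinearMap.ker T ≤ M := fun ξ hξ => by
      by_contra hn
      have : IsClosed (M : Set (D.XT x)) := hM
      have hne : M.mkQ ξ ≠ 0 := by
        rwa [Ne, Submodule.mkQ_apply, Submodule.Quotient.mk_eq_zero]
      obtain ⟨φ, hφ⟩ := SeparatingDual.exists_ne_zero (R := 𝕜) hne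
      obtain ⟨z, hz⟩ := (hb.dual hx).1 (φ.comp M.mkQL)
      have hzY : z ∈ Y := fun η hη => by
        rw [← hz η]
        have : M.mkQ η = 0 := by rwa [Submodule.mkQ_apply, Submodule.Quotient.mk_eq_zero]
        simp only [ContinuousLinearMap.comp_apply, Submodule.mkQL_apply, this, map_zero]
      have h1 : T ξ ⟨z, hzY⟩ = 0 := by rw [LinearMap.mem_ker.1 hξ]; rfl
      apply hφ
      have h2 := hz ξ
      simp only [ContinuousLinearMap.comp_apply, Submodule.mkQL_apply] at h2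
      rw [h2]
      exact h1
    exact hinf (FiniteDimensional.of_injective (M.liftQ T hT)
      (LinearMap.ker_eq_bot.1 (Submodule.ker_liftQ_eq_bot _ _ _ hT')))
  obtain ⟨q, hq⟩ := TopologicalSpace.exists_dense_seq (D.XT x ⧸ M)
  choose ψ hψ using fun n => M.mkQ_surjective (q n)
  obtain ⟨σ, y, C, ε, hσ, hε, hy, h0, hγ, hev⟩ :=
    exists_notNull h Y hY fun n => D.inc x (ψ n)
  have hC : 0 ≤ C := (norm_nonneg _).trans (hy 0).2
  have hall : ∀ ξ : D.XT x, Tendsto (fun m => D.inc x ξ (y m)) atTop (𝓝 0) := by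
    intro ξ
    rw [NormedAddGroup.tendsto_nhds_zero]
    intro δ hδ
    have hδ' : 0 < δ / (2 * (C + 1)) := by positivity
    obtain ⟨n, hn⟩ := Metric.denseRange_iff.1 hq (M.mkQ ξ) _ hδ'
    rw [dist_eq_norm, ← hψ n, ← map_sub] at hn
    obtain ⟨η, hη, hη'⟩ := Submodule.Quotient.norm_mk_lt (M.mkQ (ξ - ψ n)) hδ'
    have hmem : η - (ξ - ψ n) ∈ M := by
      rw [← Submodule.Quotient.eq, hη]; rfl
    filter_upwards [eventually_gt_atTop n] with m hm
    have e : D.inc x ξ (y m) = D.inc x η (y m) := by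
      have h1 := (hy m).1 _ hmem
      have h2 := h0 n m hm
      simp only [map_sub, sub_apply] at h1 h2
      linear_combination h2 - h1
    rw [e]
    refine ((D.inc x η).le_opNorm _).trans_lt ?_
    rw [LinearIsometry.norm_map]
    have h3 : ‖η‖ < δ / (C + 1) := by
      have : δ / (C + 1) = δ / (2 * (C + 1)) + δ / (2 * (C + 1)) := by field_simp; ring
      linarith
    rw [lt_div_iff₀ (by positivity)] at h3
    have := mul_le_mul_of_nonneg_left (hy m).2 (norm_nonneg η)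
    nlinarith [norm_nonneg η]
  have hx0 : ∀ γ, Tendsto (fun m => x γ (y m)) atTop (𝓝 0) := fun γ =>
    hall (mkX (x γ) (Submodule.le_topologicalClosure _ (Submodule.subset_span ⟨γ, rfl⟩)))
  have hlim := (hb.tl_null hx y C (fun i => (hy i).2) hx0 hγ hσ).norm
  rw [norm_zero] at hlim
  exact absurd (ge_of_tendsto hlim hev) (not_le.2 hε)

end Data

theorem exists_example (𝕜 : Type) [RCLike 𝕜] (hCH : Cardinal.mk ℝ = Cardinal.aleph 1) :
    ∃ (X : Type) (_ : NormedAddCommGroup X) (_ : NormedSpace 𝕜 X),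
      CompleteSpace X ∧ ¬ FiniteDimensional 𝕜 X ∧
      ∀ M : Submodule 𝕜 X, IsClosed (M : Set X) →
        TopologicalSpace.SeparableSpace (X ⧸ M) → FiniteDimensional 𝕜 (X ⧸ M) := by
  obtain ⟨Γ, _, _, h, hc⟩ := exists_omegaOne
  have hc' : Cardinal.mk Γ = Cardinal.continuum := by rw [hc, ← hCH, Cardinal.mk_real]
  have : Infinite Γ := Cardinal.infinite_iff.2 (by rw [hc']; exact Cardinal.aleph0_le_continuum)
  obtain ⟨D⟩ := exists_data 𝕜 h.cnt hc'.le
  obtain ⟨b, hb⟩ := D.exists_enum h hc'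
  obtain ⟨x, hx⟩ := hb.exists_x
  exact ⟨D.XT x, inferInstance, inferInstance, inferInstance, hb.not_finiteDimensional hx,
    fun M hM hs => hb.quotient_finite h hx M hM hs⟩

end Crest.Agent.R114
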