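import Mathlib

set_option autoImplicit false
open MeasureTheory

namespace Crest.Agent.R114

section Aux

variable {Ω : Type} [MeasurableSpace Ω] [DecidableEq Ω]

private def Good (ν : Measure Ω) (S : Ω → Finset Ω → Prop) : ℕ → Ω → Finset Ω → Prop
  | 0, ξ, A => S ξ A
  | r + 1, ξ, A => ∀ᵐ η ∂ν, Good ν S r ξ (insert η A)

private noncomputable def piM (ν : Measure Ω) : ℕ → Finset Ω → @Measure (Finset Ω) ⊤
  | 0, A => @Measure.dirac (Finset Ω) ⊤ A
  | r + 1, A => @Measure.bind Ω (Finset Ω) _ ⊤ ν fun η => piM ν r (insert η A)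

private theorem piM_prob [DiscreteMeasurableSpace Ω] (ν : Measure Ω) [IsProbabilityMeasure ν]
    (r : ℕ) (A : Finset Ω) : @IsProbabilityMeasure (Finset Ω) ⊤ (piM ν r A) := by
  let _ : MeasurableSpace (Finset Ω) := ⊤
  induction r generalizing A with
  | zero => unfold piM; infer_instance
  | succ r ih =>
    unfold piM
    exact isProbabilityMeasure_bind (Measurable.of_discrete.aemeasurable)
      (Filter.Eventually.of_forall fun η => ih _)

private theorem good_iff [DiscreteMeasurableSpace Ω] (ν : Measure Ω) (S : Ω → Finset Ω → Prop)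
    (r : ℕ) (ξ : Ω) (A : Finset Ω) :
    Good ν S r ξ A ↔ ∀ᵐ B ∂(piM ν r A), S ξ B := by
  let _ : MeasurableSpace (Finset Ω) := ⊤
  induction r generalizing A with
  | zero =>
    unfold Good piM
    exact (ae_dirac_iff (MeasurableSpace.measurableSet_top)).symm
  | succ r ih =>
    unfold Good piM
    rw [ae_iff (μ := Measure.bind _ _), Measure.bind_apply MeasurableSpace.measurableSet_top
      Measurable.of_discrete.aemeasurable, lintegral_eq_zero_iff Measurable.of_discrete]
    refine Filter.eventually_congr (Filter.Eventually.of_forall fun η => ?_)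
    exact (ih _).trans ae_iff

private def Inv (ν : Measure Ω) (S : Ω → Finset Ω → Prop) (n : ℕ) (ξ : ℕ → Ω) : Prop :=
  ∀ m < n, ∀ F : Finset ℕ, F ⊆ Finset.range n → m ∉ F → ∀ r, Good ν S r (ξ m) (F.image ξ)

private theorem inv_step (ν : Measure Ω) [IsProbabilityMeasure ν] (S : Ω → Finset Ω → Prop)
    (hG : ∀ r A, ∀ᵐ ξ ∂ν, Good ν S r ξ A) (n : ℕ) (ξ : ℕ → Ω) (hI : Inv ν S n ξ) :
    ∃ η, Inv ν S (n + 1) (Function.update ξ n η) := by
  have h1 : ∀ᵐ η ∂ν, ∀ (F : Finset ℕ) (r : ℕ), Good ν S r η (F.image ξ) := by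
    rw [ae_all_iff]
    intro F
    rw [ae_all_iff]
    intro r
    exact hG r _
  have h2 : ∀ᵐ η ∂ν, ∀ (m : ℕ) (F : Finset ℕ) (r : ℕ), m < n → F ⊆ Finset.range n → m ∉ F →
      Good ν S r (ξ m) (insert η (F.image ξ)) := by
    rw [ae_all_iff]
    intro m
    rw [ae_all_iff]
    intro F
    rw [ae_all_iff]
    intro r
    by_cases hc : m < n ∧ F ⊆ Finset.range n ∧ m ∉ F
    · have := hI m hc.1 F hc.2.1 hc.2.2 (r + 1)
      exact Filter.Eventually.mono this fun η hη _ _ _ => hη
    · exact Filter.Eventually.of_forall fun η a b c => absurd ⟨a, b, c⟩ hc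
  obtain ⟨η, hη1, hη2⟩ := (h1.and h2).exists
  refine ⟨η, fun m hm F hF hmF r => ?_⟩
  have himg : ∀ G : Finset ℕ, n ∉ G → G.image (Function.update ξ n η) = G.image ξ := by
    intro G hG
    refine Finset.image_congr fun i hi => ?_
    exact Function.update_of_ne (fun h : i = n => hG (h ▸ (Finset.mem_coe.1 hi))) _ _
  rcases eq_or_ne m n with rfl | hmn
  · rw [himg F hmF, Function.update_self]
    exact hη1 F r
  · have hm' : m < n := by omega
    rw [Function.update_of_ne hmn]
    have hsub : F.erase n ⊆ Finset.range n := by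
      intro i hi
      have h3 := Finset.mem_range.1 (hF (Finset.mem_of_mem_erase hi))
      have h4 := Finset.ne_of_mem_erase hi
      exact Finset.mem_range.2 (by omega)
    by_cases hn : n ∈ F
    · rw [← Finset.insert_erase hn, Finset.image_insert, Function.update_self,
        himg _ (Finset.notMem_erase n F)]
      exact hη2 m _ r hm' hsub fun h => hmF (Finset.mem_of_mem_erase h)
    · rw [himg F hn]
      rw [Finset.erase_eq_of_notMem hn] at hsub
      exact hI m hm' F hsub hmF r

end Aux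

/-- Generic sequences for a total measure.
Sketch: `Good 0 ξ A := S ξ A`, `Good (r+1) ξ A := ∀ᵐ η ∂ν, Good r ξ (insert η A)`.
Give `Finset Ω` the `σ`-algebra `⊤`; `π 0 A = dirac A`, `π (r+1) A = ν.bind fun η => π r (insert η A)`
are probability measures (every function on `Ω` is measurable) and
`Good r ξ A ↔ ∀ᵐ B ∂(π r A), S ξ B` (`Measure.bind_apply`, `lintegral_eq_zero_iff`).  By
`Measure.ae_ae_comm` (measurability `hS`) and `h`: `∀ r A, ∀ᵐ ξ, Good r ξ A`.
Choose `ξ 0, ξ 1, …` recursively with the invariant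
`∀ m < n, ∀ F ⊆ range n, m ∉ F → ∀ r, Good r (ξ m) (F.image ξ)`: the new point `η` has to satisfy
the countably many almost sure conditions `Good r (ξ m) (insert η (F.image ξ))` and
`Good r η (F.image ξ)`. -/
theorem exists_generic {Ω : Type} [MeasurableSpace Ω] [DiscreteMeasurableSpace Ω] [DecidableEq Ω]
    (ν : Measure Ω) [IsProbabilityMeasure ν] (S : Ω → Finset Ω → Prop)
    (hS : @MeasurableSet (Ω × Finset Ω) (@Prod.instMeasurableSpace Ω (Finset Ω) _ ⊤)
      {p | S p.1 p.2})
    (h : ∀ A, ∀ᵐ ξ ∂ν, S ξ A) :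
    ∃ ξ : ℕ → Ω, ∀ (F : Finset ℕ) (n : ℕ), n ∉ F → S (ξ n) (F.image ξ) := by
  have hG : ∀ r A, ∀ᵐ ξ ∂ν, Good ν S r ξ A := by
    intro r A
    let _ : MeasurableSpace (Finset Ω) := ⊤
    have := piM_prob ν r A
    simp only [good_iff]
    exact (Measure.ae_ae_comm (μ := ν) (ν := piM ν r A) (p := S) hS).2
      (Filter.Eventually.of_forall h)
  have hne : Nonempty Ω := by
    obtain ⟨x, -⟩ := (h ∅).exists
    exact ⟨x⟩
  obtain ⟨x₀⟩ := hne
  choose e he using inv_step ν S hG
  let f : (n : ℕ) → {ξ : ℕ → Ω // Inv ν S n ξ} := fun n =>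
    Nat.rec (motive := fun n => {ξ : ℕ → Ω // Inv ν S n ξ})
      ⟨fun _ => x₀, fun m hm => absurd hm (Nat.not_lt_zero m)⟩
      (fun n p => ⟨Function.update p.1 n (e n p.1 p.2), he n p.1 p.2⟩) n
  have hf : ∀ n m, m ≠ n → (f (n + 1)).1 m = (f n).1 m := fun n m hm =>
    Function.update_of_ne hm _ _
  have hst : ∀ N m, m < N → (f N).1 m = (f (m + 1)).1 m := by
    intro N m hm
    induction N with
    | zero => omega
    | succ N ih =>
      rcases eq_or_ne m N with rfl | hne
      · rfl
      · rw [hf N m hne, ih (by omega)]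
  refine ⟨fun m => (f (m + 1)).1 m, fun F n hn => ?_⟩
  obtain ⟨N, hN⟩ := (insert n F).exists_nat_subset_range
  have hnN : n < N := Finset.mem_range.1 (hN (Finset.mem_insert_self _ _))
  have hFN : F ⊆ Finset.range N := (Finset.subset_insert _ _).trans hN
  have key : S ((f N).1 n) (F.image (f N).1) := (f N).2 n hnN F hFN hn 0
  rw [hst N n hnN] at key
  have himg : F.image (f N).1 = F.image fun m => (f (m + 1)).1 m :=
    Finset.image_congr fun i hi => hst N i (Finset.mem_range.1 (hFN hi))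
  rwa [himg] at key

end Crest.Agent.R114
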