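import Crest.Agent.R114.Onto

set_option autoImplicit false
open Filter Topology

namespace Crest.Agent.R114

variable {𝕜 : Type} [RCLike 𝕜] {X : Type*} [NormedAddCommGroup X] [NormedSpace 𝕜 X]

/-- the sign attached to a Boolean -/
def sg (b : Bool) : ℝ := if b then 1 else -1

theorem sg_sq (b : Bool) : sg b ^ 2 = 1 := by cases b <;> simp [sg]

theorem abs_sg (b : Bool) : |sg b| = 1 := by cases b <;> simp [sg]

theorem sum_cube_succ {M : Type*} [AddCommMonoid M] (m : ℕ) (f : (Fin (m + 1) → Bool) → M) :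
    ∑ ω, f ω = ∑ ω : Fin m → Bool, (f (Fin.cons true ω) + f (Fin.cons false ω)) := by
  rw [← (Fin.consEquiv (fun _ : Fin (m + 1) => Bool)).sum_comp, Fintype.sum_prod_type,
    Fintype.sum_bool, ← Finset.sum_add_distrib]
  rfl

theorem rad_mom2 (m : ℕ) (a : Fin m → ℝ) :
    ∑ ω : Fin m → Bool, (∑ i, a i * sg (ω i)) ^ 2 = 2 ^ m * ∑ i, a i ^ 2 := by
  induction m with
  | zero => simp
  | succ m ih =>
    rw [sum_cube_succ]
    simp only [Fin.sum_univ_succ, Fin.cons_zero, Fin.cons_succ]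
    have h := ih (fun i => a i.succ)
    have e : ∀ ω : Fin m → Bool,
        (a 0 * sg true + ∑ i : Fin m, a i.succ * sg (ω i)) ^ 2 +
          (a 0 * sg false + ∑ i : Fin m, a i.succ * sg (ω i)) ^ 2 =
        2 * (∑ i : Fin m, a i.succ * sg (ω i)) ^ 2 + 2 * a 0 ^ 2 := by
      intro ω
      simp only [sg, if_true, Bool.false_eq_true, if_false]
      ring
    simp only [e, Finset.sum_add_distrib, ← Finset.mul_sum, h, Finset.sum_const, Finset.card_univ,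
      Fintype.card_fun, Fintype.card_bool, Fintype.card_fin, nsmul_eq_mul]
    push_cast
    ring

theorem rad_mom4 (m : ℕ) (a : Fin m → ℝ) :
    ∑ ω : Fin m → Bool, (∑ i, a i * sg (ω i)) ^ 4 ≤ 3 * 2 ^ m * (∑ i, a i ^ 2) ^ 2 := by
  induction m with
  | zero => simp
  | succ m ih =>
    rw [sum_cube_succ]
    simp only [Fin.sum_univ_succ, Fin.cons_zero, Fin.cons_succ]
    have h := ih (fun i => a i.succ)
    have h2 := rad_mom2 m (fun i => a i.succ)
    have e : ∀ ω : Fin m → Bool,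
        (a 0 * sg true + ∑ i : Fin m, a i.succ * sg (ω i)) ^ 4 +
          (a 0 * sg false + ∑ i : Fin m, a i.succ * sg (ω i)) ^ 4 =
        2 * (∑ i : Fin m, a i.succ * sg (ω i)) ^ 4 +
          12 * a 0 ^ 2 * (∑ i : Fin m, a i.succ * sg (ω i)) ^ 2 + 2 * a 0 ^ 4 := by
      intro ω
      simp only [sg, if_true, Bool.false_eq_true, if_false]
      ring
    simp only [e, Finset.sum_add_distrib, ← Finset.mul_sum, h2, Finset.sum_const, Finset.card_univ,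
      Fintype.card_fun, Fintype.card_bool, Fintype.card_fin, nsmul_eq_mul]
    push_cast
    have hp : (0 : ℝ) < 2 ^ m := by positivity
    have h4 : 0 ≤ 2 ^ m * a 0 ^ 4 := by positivity
    rw [pow_succ 2 m]
    nlinarith

/-- Khintchine's `L¹` lower bound with a non-optimal constant.
Sketch: `S ω = ∑ a i * sg (ω i)`; `E S² = ∑ a²`, `E S⁴ ≤ 3 (∑ a²)²` (induction on `m` with
`Fin.consEquiv`/`Fin.insertNthEquiv`), and Hölder `E S² ≤ (E|S|)^{2/3} (E S⁴)^{1/3}`, e.g. from the pointwise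
inequality `|s| ≥ (3/2) s²/t - s⁴/(2 t³)` with `t² = 3 ∑ a²` (true since
`r³ - 3 r + 2 ≥ 0` for `r = |s|/t ≥ 0`), giving `E|S| ≥ t/3`, `(E|S|)² ≥ ∑ a² / 3`. -/
theorem khintchine (m : ℕ) (a : Fin m → ℝ) :
    (∑ i, a i ^ 2) / 3 ≤ ((∑ ω : Fin m → Bool, |∑ i, a i * sg (ω i)|) / 2 ^ m) ^ 2 := by
  set A := ∑ i, a i ^ 2 with hA
  have hA0 : 0 ≤ A := Finset.sum_nonneg fun i _ => sq_nonneg _
  rcases hA0.eq_or_lt with h0 | hpos
  · rw [← h0]; simpa using sq_nonneg _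
  have hp : (0 : ℝ) < 2 ^ m := by positivity
  set t := √(3 * A) with ht
  have ht0 : 0 < t := Real.sqrt_pos.2 (by linarith)
  have ht2 : t ^ 2 = 3 * A := Real.sq_sqrt (by linarith)
  have hpt : ∀ s : ℝ, 3 * t ^ 2 * s ^ 2 - s ^ 4 ≤ 2 * t ^ 3 * |s| := by
    intro s
    have h1 : s ^ 2 = |s| ^ 2 := (sq_abs s).symm
    have h2 : s ^ 4 = |s| ^ 4 := by
      rw [show s ^ 4 = (s ^ 2) ^ 2 by ring, h1]; ring
    rw [h1, h2]
    have hr := abs_nonneg s
    generalize |s| = r at hr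
    have : 0 ≤ r * (r - t) ^ 2 * (r + 2 * t) := by positivity
    nlinarith
  have hsum := Finset.sum_le_sum (s := Finset.univ)
    (fun (ω : Fin m → Bool) _ => hpt (∑ i, a i * sg (ω i)))
  rw [Finset.sum_sub_distrib, ← Finset.mul_sum, ← Finset.mul_sum, rad_mom2] at hsum
  have h4 := rad_mom4 m a
  rw [← hA] at hsum h4
  set E := ∑ ω : Fin m → Bool, |∑ i, a i * sg (ω i)| with hE
  have hle : t / 3 ≤ E / 2 ^ m := by
    rw [div_le_div_iff₀ (by norm_num) hp]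
    have hA' : A = t ^ 2 / 3 := by linarith
    rw [hA'] at hsum h4
    have h5 : t ^ 3 * (t * 2 ^ m) ≤ t ^ 3 * (E * 3) := by nlinarith
    exact le_of_mul_le_mul_left h5 (by positivity)
  calc A / 3 = (t / 3) ^ 2 := by rw [div_pow, ht2]; ring
    _ ≤ _ := by gcongr

theorem rad_mom2K (m : ℕ) (a : Fin m → 𝕜) :
    ∑ ω : Fin m → Bool, ‖∑ i, a i * (sg (ω i) : 𝕜)‖ ^ 2 = 2 ^ m * ∑ i, ‖a i‖ ^ 2 := by
  have e : ∀ z : 𝕜, ‖z‖ ^ 2 = RCLike.re z ^ 2 + RCLike.im z ^ 2 := by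
    intro z; rw [RCLike.norm_sq_eq_def]; ring
  simp only [e, map_sum, RCLike.mul_re, RCLike.mul_im, RCLike.ofReal_re, RCLike.ofReal_im,
    mul_zero, sub_zero, zero_add, Finset.sum_add_distrib, rad_mom2]
  ring

/-- Bessel's inequality for the Rademacher functions on the cube. -/
theorem rad_bessel (m : ℕ) (z : (Fin m → Bool) → 𝕜) :
    ∑ i, ‖(∑ ω : Fin m → Bool, (sg (ω i) : 𝕜) * z ω) / 2 ^ m‖ ^ 2 ≤
      (∑ ω : Fin m → Bool, ‖z ω‖ ^ 2) / 2 ^ m := by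
  have hp : (0 : ℝ) < 2 ^ m := by positivity
  set c : Fin m → 𝕜 := fun i => ∑ ω : Fin m → Bool, (sg (ω i) : 𝕜) * z ω with hc
  set B := ∑ i, ‖c i‖ ^ 2 with hB
  set Z := ∑ ω : Fin m → Bool, ‖z ω‖ ^ 2 with hZ
  have hB0 : 0 ≤ B := Finset.sum_nonneg fun i _ => sq_nonneg _
  have hZ0 : 0 ≤ Z := Finset.sum_nonneg fun i _ => sq_nonneg _
  set T : (Fin m → Bool) → 𝕜 := fun ω => ∑ i, (starRingEnd 𝕜) (c i) * (sg (ω i) : 𝕜) with hT
  have h1 : (B : 𝕜) = ∑ ω, T ω * z ω := by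
    simp only [hT, Finset.sum_mul]
    rw [Finset.sum_comm, hB]
    push_cast
    refine Finset.sum_congr rfl fun i _ => ?_
    rw [← RCLike.conj_mul (c i)]
    simp only [mul_assoc, ← Finset.mul_sum]
    rfl
  have h2 : B ≤ ∑ ω, ‖T ω‖ * ‖z ω‖ := by
    calc B = ‖(B : 𝕜)‖ := by rw [RCLike.norm_ofReal, abs_of_nonneg hB0]
      _ ≤ _ := by
        rw [h1]
        refine (norm_sum_le _ _).trans (le_of_eq ?_)
        simp only [norm_mul]
  have h3 : ∑ ω, ‖T ω‖ ^ 2 = 2 ^ m * B := by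
    simp only [hT]
    rw [rad_mom2K]
    simp only [RCLike.norm_conj, hB]
  have h4 := Finset.sum_mul_sq_le_sq_mul_sq Finset.univ (fun ω => ‖T ω‖) (fun ω => ‖z ω‖)
  rw [h3, ← hZ] at h4
  have h5 : B ≤ 2 ^ m * Z := by
    rcases hB0.eq_or_lt with h0 | hpos
    · rw [← h0]; positivity
    · have : B ^ 2 ≤ 2 ^ m * B * Z := (pow_le_pow_left₀ hB0 h2 2).trans h4
      have h6 : B * B ≤ B * (2 ^ m * Z) := by nlinarith
      exact le_of_mul_le_mul_left h6 hpos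
  have h6 : ∑ i, ‖c i / 2 ^ m‖ ^ 2 = B / (2 ^ m) ^ 2 := by
    rw [hB, Finset.sum_div]
    refine Finset.sum_congr rfl fun i _ => ?_
    rw [norm_div, norm_pow, RCLike.norm_two, div_pow]
  change ∑ i, ‖c i / 2 ^ m‖ ^ 2 ≤ _
  rw [h6, div_le_div_iff₀ (by positivity) hp]
  nlinarith

/-- extension of a finite sign vector by `false` -/
def cubeExt {N : ℕ} (ω : Fin N → Bool) (i : ℕ) : Bool := if h : i < N then ω ⟨i, h⟩ else false

theorem cubeExt_coe {N : ℕ} (ω : Fin N → Bool) (i : Fin N) : cubeExt ω i = ω i := by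
  simp [cubeExt]

theorem sum_fin_ite {M : Type*} [AddCommMonoid M] {n N : ℕ} (h : n ≤ N) (F : ℕ → M) :
    ∑ i : Fin N, (if (i : ℕ) < n then F i else 0) = ∑ i ∈ Finset.range n, F i := by
  rw [Fin.sum_univ_eq_sum_range (fun i => if i < n then F i else 0) N, ← Finset.sum_filter]
  congr 1
  ext i
  simp only [Finset.mem_filter, Finset.mem_range]
  omega

theorem lvl_upper {n N : ℕ} (h : n ≤ N) (z : (Fin N → Bool) → 𝕜) (C : ℝ) (hz : ∀ ω, ‖z ω‖ ≤ C) :
    ∑ i ∈ Finset.range n, ‖(∑ ω : Fin N → Bool, (sg (cubeExt ω i) : 𝕜) * z ω) / 2 ^ N‖ ^ 2 ≤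
      C ^ 2 := by
  have hp : (0 : ℝ) < 2 ^ N := by positivity
  calc _ ≤ ∑ i ∈ Finset.range N,
        ‖(∑ ω : Fin N → Bool, (sg (cubeExt ω i) : 𝕜) * z ω) / 2 ^ N‖ ^ 2 :=
        Finset.sum_le_sum_of_subset_of_nonneg (Finset.range_mono h) fun _ _ _ => sq_nonneg _
    _ = ∑ i : Fin N, ‖(∑ ω : Fin N → Bool, (sg (ω i) : 𝕜) * z ω) / 2 ^ N‖ ^ 2 := by
        rw [← Fin.sum_univ_eq_sum_range
          (fun i => ‖(∑ ω : Fin N → Bool, (sg (cubeExt ω i) : 𝕜) * z ω) / 2 ^ N‖ ^ 2) N]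
        simp only [cubeExt_coe]
    _ ≤ _ := rad_bessel N z
    _ ≤ (∑ _ω : Fin N → Bool, C ^ 2) / 2 ^ N := by
        gcongr with ω
        exact hz ω
    _ = C ^ 2 := by
        simp only [Finset.sum_const, Finset.card_univ, Fintype.card_fun, Fintype.card_bool,
          Fintype.card_fin, nsmul_eq_mul]
        push_cast
        field_simp

theorem lvl_lower {n N : ℕ} (h : n ≤ N) (a : ℕ → 𝕜) (ρ : 𝕜 →+ ℝ) (hρ1 : ∀ z, |ρ z| ≤ ‖z‖)
    (hρ2 : ∀ (z : 𝕜) (t : ℝ), ρ (z * t) = ρ z * t)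
    (ha : ∑ i ∈ Finset.range n, ‖a i‖ ^ 2 ≤ 2 * ∑ i ∈ Finset.range n, ρ (a i) ^ 2)
    (δ : ℝ) (hδ : 0 < δ) (z : (Fin N → Bool) → 𝕜)
    (hz : ∀ ω, ‖z ω - ((δ * sg (decide (0 ≤ ∑ i ∈ Finset.range n,
      ρ (a i) * sg (cubeExt ω i))) : ℝ) : 𝕜)‖ ≤ δ / 4) :
    δ / 8 * √(∑ i ∈ Finset.range n, ‖a i‖ ^ 2) ≤
      ‖∑ i ∈ Finset.range n,
        a i * ((∑ ω : Fin N → Bool, (sg (cubeExt ω i) : 𝕜) * z ω) / 2 ^ N)‖ := by
  have hp : (0 : ℝ) < 2 ^ N := by positivity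
  set A := ∑ i ∈ Finset.range n, ‖a i‖ ^ 2 with hA
  have hA0 : 0 ≤ A := Finset.sum_nonneg fun i _ => sq_nonneg _
  set S : (Fin N → Bool) → 𝕜 := fun ω => ∑ i ∈ Finset.range n, a i * (sg (cubeExt ω i) : 𝕜)
    with hS
  set R : (Fin N → Bool) → ℝ := fun ω => ∑ i ∈ Finset.range n, ρ (a i) * sg (cubeExt ω i)
    with hR
  have hRS : ∀ ω, ρ (S ω) = R ω := by
    intro ω
    simp only [hS, hR, map_sum, hρ2]
  have e1 : ∑ i ∈ Finset.range n,
      a i * ((∑ ω : Fin N → Bool, (sg (cubeExt ω i) : 𝕜) * z ω) / 2 ^ N) =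
      (∑ ω, S ω * z ω) * (((2 ^ N : ℝ)⁻¹ : ℝ) : 𝕜) := by
    simp only [hS, Finset.sum_mul]
    rw [Finset.sum_comm]
    refine Finset.sum_congr rfl fun i _ => ?_
    rw [Finset.sum_div, Finset.mul_sum]
    refine Finset.sum_congr rfl fun ω _ => ?_
    push_cast
    ring
  -- pointwise lower bound
  have e2 : ∀ ω, δ * |R ω| - δ / 4 * ‖S ω‖ ≤ ρ (S ω * z ω) := by
    intro ω
    set w : ℝ := δ * sg (decide (0 ≤ R ω)) with hw
    have hz' : ‖z ω - (w : 𝕜)‖ ≤ δ / 4 := hz ω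
    have h1 : S ω * z ω = S ω * (w : 𝕜) + S ω * (z ω - (w : 𝕜)) := by ring
    have h2 : ρ (S ω * (w : 𝕜)) = δ * |R ω| := by
      rw [hρ2, hRS, hw]
      by_cases h0 : 0 ≤ R ω
      · simp [h0, sg, abs_of_nonneg h0, mul_comm]
      · have h0' : R ω < 0 := not_le.1 h0
        simp [h0, sg, abs_of_neg h0', mul_comm]
    have h3 : |ρ (S ω * (z ω - (w : 𝕜)))| ≤ δ / 4 * ‖S ω‖ := by
      refine (hρ1 _).trans ?_
      rw [norm_mul, mul_comm]
      gcongr
    rw [h1, map_add, h2]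
    have := neg_abs_le (ρ (S ω * (z ω - (w : 𝕜))))
    linarith
  -- Khintchine
  have e3 : 3 / 8 * √A ≤ (∑ ω, |R ω|) / 2 ^ N := by
    have hk := khintchine N (fun i : Fin N => if (i : ℕ) < n then ρ (a i) else 0)
    have k1 : ∑ i : Fin N, (if (i : ℕ) < n then ρ (a i) else 0) ^ 2 =
        ∑ i ∈ Finset.range n, ρ (a i) ^ 2 := by
      rw [← sum_fin_ite h (fun i => ρ (a i) ^ 2)]
      refine Finset.sum_congr rfl fun i _ => ?_
      split_ifs <;> simp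
    have k2 : ∀ ω : Fin N → Bool,
        ∑ i : Fin N, (if (i : ℕ) < n then ρ (a i) else 0) * sg (ω i) = R ω := by
      intro ω
      simp only [hR]
      rw [← sum_fin_ite h (fun i => ρ (a i) * sg (cubeExt ω i))]
      refine Finset.sum_congr rfl fun i _ => ?_
      split_ifs <;> simp [cubeExt_coe]
    simp only [k1, k2] at hk
    have hE0 : 0 ≤ (∑ ω, |R ω|) / 2 ^ N :=
      div_nonneg (Finset.sum_nonneg fun _ _ => abs_nonneg _) hp.le
    refine (pow_le_pow_iff_left₀ (by positivity) hE0 two_ne_zero).1 ?_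
    rw [mul_pow, Real.sq_sqrt hA0]
    linarith
  -- second moment
  have e4 : (∑ ω, ‖S ω‖) / 2 ^ N ≤ √A := by
    have k1 := rad_mom2K N (fun i : Fin N => if (i : ℕ) < n then a i else 0)
    have k2 : ∑ i : Fin N, ‖(if (i : ℕ) < n then a i else 0)‖ ^ 2 = A := by
      rw [hA, ← sum_fin_ite h (fun i => ‖a i‖ ^ 2)]
      refine Finset.sum_congr rfl fun i _ => ?_
      split_ifs <;> simp
    have k3 : ∀ ω : Fin N → Bool,
        ∑ i : Fin N, (if (i : ℕ) < n then a i else 0) * (sg (ω i) : 𝕜) = S ω := by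
      intro ω
      simp only [hS]
      rw [← sum_fin_ite h (fun i => a i * (sg (cubeExt ω i) : 𝕜))]
      refine Finset.sum_congr rfl fun i _ => ?_
      split_ifs <;> simp [cubeExt_coe]
    simp only [k2, k3] at k1
    have k4 := Finset.sum_mul_sq_le_sq_mul_sq Finset.univ (fun ω => ‖S ω‖) (fun _ => (1 : ℝ))
    simp only [mul_one, one_pow, k1, Finset.sum_const, Finset.card_univ, Fintype.card_fun,
      Fintype.card_bool, Fintype.card_fin, nsmul_eq_mul] at k4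
    push_cast at k4
    refine Real.le_sqrt_of_sq_le ?_
    rw [div_pow, div_le_iff₀ (by positivity)]
    nlinarith
  rw [e1]
  refine le_trans ?_ ((le_abs_self _).trans (hρ1 _))
  rw [hρ2, map_sum]
  have e5 := Finset.sum_le_sum (s := Finset.univ) fun ω _ => e2 ω
  rw [Finset.sum_sub_distrib, ← Finset.mul_sum, ← Finset.mul_sum] at e5
  have e6 : (δ * ∑ ω, |R ω| - δ / 4 * ∑ ω, ‖S ω‖) * (2 ^ N : ℝ)⁻¹ ≤
      (∑ ω, ρ (S ω * z ω)) * (2 ^ N : ℝ)⁻¹ := by gcongr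
  refine le_trans ?_ e6
  rw [div_eq_mul_inv _ (2 ^ N : ℝ)] at e3 e4
  have e7 := mul_le_mul_of_nonneg_left e3 hδ.le
  have e8 := mul_le_mul_of_nonneg_left e4 (by positivity : 0 ≤ δ / 4)
  nlinarith

/-- A space containing `ℓ¹` has the quotient `ℓ²`.
Sketch: index the `x` by the countable type `J = Σ m, ((Fin m → Bool) → Bool)` (`Encodable`/
`Countable`, injection `e : J → ℕ`).  For each level `N` and `ω : Fin N → Bool` choose `ψ N ω`,
`‖ψ N ω‖ ≤ 1`, with `‖ψ N ω (x (e ⟨m, g⟩)) - δ * sg (g (ω restricted to Fin m))‖ ≤ δ / 4` for all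
`m ≤ N` and `g` (finitely many conditions; `σ` is defined through `Function.extend e`).
`y' N i = 2^{-N} ∑_ω sg (ω i) • ψ N ω` (`0` if `N ≤ i`), `y i x = lim_𝒰 y' N i x` along
`hyperfilter ℕ` (bounded in the proper space `𝕜`; linear and bounded by `‖x‖`).
Upper estimate: `rad_bessel`.  Lower estimate for `a : ℕ → 𝕜`, `n`: with `S ω = ∑_{i<n} a i * sg (ω i)`
choose `g = sign (re S)` or `sign (im S)` (for the imaginary part multiply by `I`; note `RCLike.I`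
may be `0`, then `im = 0`); `∑ a i • y' N i` at `x (e ⟨n, g⟩)` is
`E[S · δ sg g] ± (δ/4) E‖S‖`, `E‖S‖ ≤ ‖a‖₂`, `max (E|re S|) (E|im S|) ≥ ‖a‖₂ / √6` by `khintchine`;
so `c = δ (1/√6 - 1/4)` (or `c = δ / 8`) works.  Finish with `sq_of_l2`. -/
theorem sq_of_ell1 [CompleteSpace X] (x : ℕ → X) (hx : ∀ j, ‖x j‖ ≤ 1) (δ : ℝ) (hδ : 0 < δ)
    (h : ∀ (n : ℕ) (σ : ℕ → Bool), ∃ ψ : StrongDual 𝕜 X, ‖ψ‖ ≤ 1 ∧
      ∀ j < n, ‖ψ (x j) - ((δ * sg (σ j) : ℝ) : 𝕜)‖ ≤ δ / 4) : SQ 𝕜 X := by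
  classical
  obtain ⟨s, hs⟩ := exists_surjective_nat (Σ n : ℕ, ((Fin n → Bool) → Bool))
  choose ψ hψ1 hψ2 using fun (N : ℕ) (ω : Fin N → Bool) =>
    h N (fun j => (s j).2 (fun i => cubeExt ω i))
  set y' : ℕ → ℕ → StrongDual 𝕜 X := fun N i =>
    ((2 : 𝕜) ^ N)⁻¹ • ∑ ω : Fin N → Bool, (sg (cubeExt ω i) : 𝕜) • ψ N ω with hy'
  have hy'a : ∀ N i v, y' N i v =
      (∑ ω : Fin N → Bool, (sg (cubeExt ω i) : 𝕜) * ψ N ω v) / 2 ^ N := by
    intro N i v
    simp only [hy', smul_apply, sum_apply, smul_eq_mul]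
    rw [div_eq_inv_mul]
  have hy'n : ∀ N i, ‖y' N i‖ ≤ 1 := by
    intro N i
    have hp : (0 : ℝ) < 2 ^ N := by positivity
    simp only [hy']
    rw [norm_smul, norm_inv, norm_pow, RCLike.norm_two, inv_mul_le_iff₀ hp]
    refine (norm_sum_le _ _).trans ?_
    calc _ ≤ ∑ _ω : Fin N → Bool, (1 : ℝ) := by
          refine Finset.sum_le_sum fun ω _ => ?_
          rw [norm_smul, RCLike.norm_ofReal, abs_sg, one_mul]
          exact hψ1 N ω
      _ = _ := by simp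
  have : ProperSpace 𝕜 := FiniteDimensional.proper_rclike 𝕜 𝕜
  have hlim : ∀ i v, ∃ l : 𝕜, Tendsto (fun N => y' N i v) (hyperfilter ℕ) (𝓝 l) := by
    intro i v
    obtain ⟨l, -, hl⟩ := (isCompact_closedBall (0 : 𝕜) ‖v‖).ultrafilter_le_nhds
      ((hyperfilter ℕ).map fun N => y' N i v) (by
        rw [Ultrafilter.coe_map, le_principal_iff, mem_map]
        refine Eventually.of_forall fun N => ?_
        simp only [mem_closedBall_zero_iff]
        exact ((y' N i).le_opNorm v).trans (by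
          have := hy'n N i
          have := norm_nonneg v
          nlinarith))
    exact ⟨l, hl⟩
  choose l hl using hlim
  set y : ℕ → StrongDual 𝕜 X := fun i =>
    ContinuousLinearMap.ofTendstoOfBoundedRange (l := (hyperfilter ℕ : Filter ℕ)) (l i)
      (fun N => y' N i) (tendsto_pi_nhds.2 (hl i))
      ((Metric.isBounded_closedBall (x := (0 : StrongDual 𝕜 X)) (r := 1)).subset (by
        rintro _ ⟨N, rfl⟩
        simpa using hy'n N i)) with hy
  have hyl : ∀ i v, Tendsto (fun N => y' N i v) (hyperfilter ℕ) (𝓝 (y i v)) := hl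
  have hev : ∀ n : ℕ, ∀ᶠ N in (hyperfilter ℕ : Filter ℕ), n ≤ N := fun n =>
    (Nat.hyperfilter_le_atTop) (eventually_ge_atTop n)
  refine sq_of_l2 y (δ / 8) (by positivity) ?_ ?_
  · intro v n
    have ht : Tendsto (fun N => ∑ i ∈ Finset.range n, ‖y' N i v‖ ^ 2) (hyperfilter ℕ)
        (𝓝 (∑ i ∈ Finset.range n, ‖y i v‖ ^ 2)) :=
      tendsto_finsetSum _ fun i _ => (hyl i v).norm.pow 2
    refine le_of_tendsto ht ?_
    filter_upwards [hev n] with N hN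
    simp only [hy'a]
    refine lvl_upper hN (fun ω => ψ N ω v) ‖v‖ fun ω => ?_
    exact ((ψ N ω).le_opNorm v).trans (by
      have := hψ1 N ω
      have := norm_nonneg v
      nlinarith)
  · intro n a
    have key : ∀ ρ : 𝕜 →+ ℝ, (∀ z, |ρ z| ≤ ‖z‖) → (∀ (z : 𝕜) (t : ℝ), ρ (z * t) = ρ z * t) →
        ∑ i ∈ Finset.range n, ‖a i‖ ^ 2 ≤ 2 * ∑ i ∈ Finset.range n, ρ (a i) ^ 2 →
        δ / 8 * √(∑ i ∈ Finset.range n, ‖a i‖ ^ 2) ≤ ‖∑ i ∈ Finset.range n, a i • y i‖ := by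
      intro ρ hρ1 hρ2 ha
      obtain ⟨j, hj⟩ := hs ⟨n, fun η => decide (0 ≤ ∑ i : Fin n, ρ (a i) * sg (η i))⟩
      have ht : Tendsto (fun N => ‖∑ i ∈ Finset.range n, a i * y' N i (x j)‖) (hyperfilter ℕ)
          (𝓝 ‖∑ i ∈ Finset.range n, a i * y i (x j)‖) :=
        (tendsto_finsetSum _ fun i _ => (hyl i (x j)).const_mul (a i)).norm
      have h1 : δ / 8 * √(∑ i ∈ Finset.range n, ‖a i‖ ^ 2) ≤
          ‖∑ i ∈ Finset.range n, a i * y i (x j)‖ := by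
        refine ge_of_tendsto ht ?_
        filter_upwards [hev n, hev (j + 1)] with N hN hN'
        simp only [hy'a]
        refine lvl_lower hN a ρ hρ1 hρ2 ha δ hδ (fun ω => ψ N ω (x j)) fun ω => ?_
        have h2 := hψ2 N ω j hN'
        rw [hj] at h2
        simp only at h2
        rwa [Fin.sum_univ_eq_sum_range (fun i => ρ (a i) * sg (cubeExt ω i)) n] at h2
      refine h1.trans ?_
      have h3 := (∑ i ∈ Finset.range n, a i • y i).le_opNorm (x j)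
      simp only [sum_apply, smul_apply, smul_eq_mul] at h3
      refine h3.trans ?_
      have := hx j
      have := norm_nonneg (∑ i ∈ Finset.range n, a i • y i)
      nlinarith
    have hA0 : 0 ≤ ∑ i ∈ Finset.range n, ‖a i‖ ^ 2 := Finset.sum_nonneg fun i _ => sq_nonneg _
    have hdec : ∑ i ∈ Finset.range n, ‖a i‖ ^ 2 = ∑ i ∈ Finset.range n, RCLike.re (a i) ^ 2 +
        ∑ i ∈ Finset.range n, RCLike.im (a i) ^ 2 := by
      rw [← Finset.sum_add_distrib]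
      refine Finset.sum_congr rfl fun i _ => ?_
      rw [RCLike.norm_sq_eq_def]; ring
    have hfin : δ / 8 * √(∑ i ∈ Finset.range n, ‖a i‖ ^ 2) ≤
        ‖∑ i ∈ Finset.range n, a i • y i‖ := by
      rcases le_total (∑ i ∈ Finset.range n, RCLike.re (a i) ^ 2)
        (∑ i ∈ Finset.range n, RCLike.im (a i) ^ 2) with hc | hc
      · refine key RCLike.im RCLike.abs_im_le_norm (fun z t => by simp) ?_
        rw [hdec]; linarith
      · refine key RCLike.re RCLike.abs_re_le_norm (fun z t => by simp) ?_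
        rw [hdec]; linarith
    calc _ = (δ / 8 * √(∑ i ∈ Finset.range n, ‖a i‖ ^ 2)) ^ 2 := by
          rw [mul_pow, Real.sq_sqrt hA0]
      _ ≤ _ := by gcongr

end Crest.Agent.R114
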