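import Crest.Agent.R114.Defs

/-! Elementary API for `pair`, `l2`, `rs`, `Lt`, `hull`, `Blk`. -/

set_option autoImplicit false
set_option linter.unusedSectionVars false
open Filter Topology

namespace Crest.Agent.R114

variable {𝕜 : Type} [RCLike 𝕜] {Γ : Type} [LinearOrder Γ]

theorem pair_eq_sum (f : Γ →₀ 𝕜) (z : Γ → 𝕜) (S : Finset Γ) (h : f.support ⊆ S) :
    pair f z = ∑ γ ∈ S, f γ * z γ := by
  unfold pair
  exact Finsupp.sum_of_support_subset f h _ (fun _ _ => zero_mul _)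

@[simp] theorem pair_zero_left (z : Γ → 𝕜) : pair (0 : Γ →₀ 𝕜) z = 0 := by simp [pair]

@[simp] theorem pair_zero_right (f : Γ →₀ 𝕜) : pair f (0 : Γ → 𝕜) = 0 := by simp [pair]

@[simp] theorem pair_single (γ : Γ) (c : 𝕜) (z : Γ → 𝕜) :
    pair (Finsupp.single γ c) z = c * z γ := by simp [pair]

theorem pair_add_left (f g : Γ →₀ 𝕜) (z : Γ → 𝕜) : pair (f + g) z = pair f z + pair g z := by
  unfold pair
  exact Finsupp.sum_add_index' (fun _ => zero_mul _) (fun _ _ _ => add_mul _ _ _)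

theorem pair_smul_left (c : 𝕜) (f : Γ →₀ 𝕜) (z : Γ → 𝕜) : pair (c • f) z = c * pair f z := by
  rw [pair_eq_sum _ z f.support Finsupp.support_smul, pair_eq_sum f z _ le_rfl, Finset.mul_sum]
  simp [mul_assoc]

theorem pair_sub_left (f g : Γ →₀ 𝕜) (z : Γ → 𝕜) : pair (f - g) z = pair f z - pair g z := by
  rw [eq_sub_iff_add_eq, ← pair_add_left, sub_add_cancel]

theorem pair_sum_left {ι : Type*} (S : Finset ι) (f : ι → Γ →₀ 𝕜) (z : Γ → 𝕜) :
    pair (∑ i ∈ S, f i) z = ∑ i ∈ S, pair (f i) z := by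
  classical
  induction S using Finset.induction_on with
  | empty => simp
  | insert a s ha ih => rw [Finset.sum_insert ha, Finset.sum_insert ha, pair_add_left, ih]

theorem pair_add_right (f : Γ →₀ 𝕜) (z w : Γ → 𝕜) : pair f (z + w) = pair f z + pair f w := by
  simp [pair, Finsupp.sum, mul_add, Finset.sum_add_distrib]

theorem pair_smul_right (c : 𝕜) (f : Γ →₀ 𝕜) (z : Γ → 𝕜) : pair f (c • z) = c * pair f z := by
  simp [pair, Finsupp.sum, Finset.mul_sum, mul_left_comm]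

theorem pair_sub_right (f : Γ →₀ 𝕜) (z w : Γ → 𝕜) : pair f (z - w) = pair f z - pair f w := by
  simp [pair, Finsupp.sum, mul_sub, Finset.sum_sub_distrib]

theorem pair_sum_right {ι : Type*} (S : Finset ι) (f : Γ →₀ 𝕜) (z : ι → Γ → 𝕜) :
    pair f (∑ i ∈ S, z i) = ∑ i ∈ S, pair f (z i) := by
  classical
  induction S using Finset.induction_on with
  | empty => simp
  | insert a s ha ih => rw [Finset.sum_insert ha, Finset.sum_insert ha, pair_add_right, ih]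

/-- the same for finitely supported vectors -/
theorem pair_sum_right' {ι : Type*} (S : Finset ι) (f : Γ →₀ 𝕜) (x : ι → Γ →₀ 𝕜) :
    pair f ⇑(∑ i ∈ S, x i) = ∑ i ∈ S, pair f (x i) := by
  rw [Finsupp.coe_finsetSum, pair_sum_right]

theorem pair_congr (f : Γ →₀ 𝕜) {z w : Γ → 𝕜} (h : ∀ γ ∈ f.support, z γ = w γ) :
    pair f z = pair f w :=
  Finset.sum_congr rfl fun γ hγ => by simp only [h γ hγ]

theorem pair_eq_zero (f : Γ →₀ 𝕜) {z : Γ → 𝕜} (h : ∀ γ ∈ f.support, z γ = 0) : pair f z = 0 := by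
  rw [pair_congr f (w := 0) h, pair_zero_right]

theorem exists_of_pair_ne_zero {f x : Γ →₀ 𝕜} (h : pair f x ≠ 0) :
    ∃ γ, γ ∈ f.support ∧ γ ∈ x.support := by
  by_contra hn
  push Not at hn
  exact h (pair_eq_zero f fun γ hγ => Finsupp.notMem_support_iff.1 (hn γ hγ))

theorem Lt.pair_left {f x : Γ →₀ 𝕜} (h : Lt f x) : pair f x = 0 := by
  by_contra hn
  obtain ⟨γ, h1, h2⟩ := exists_of_pair_ne_zero hn
  exact lt_irrefl _ (h γ h1 γ h2)

theorem Lt.pair_right {f x : Γ →₀ 𝕜} (h : Lt x f) : pair f x = 0 := by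
  by_contra hn
  obtain ⟨γ, h1, h2⟩ := exists_of_pair_ne_zero hn
  exact lt_irrefl _ (h γ h2 γ h1)

open Classical in
theorem rs_apply (E : Set Γ) (f : Γ →₀ 𝕜) (γ : Γ) : rs E f γ = if γ ∈ E then f γ else 0 := by
  unfold rs; rw [Finsupp.filter_apply]

theorem rs_apply_mem {E : Set Γ} (f : Γ →₀ 𝕜) {γ : Γ} (h : γ ∈ E) : rs E f γ = f γ := by
  rw [rs_apply, if_pos h]

theorem rs_apply_notMem {E : Set Γ} (f : Γ →₀ 𝕜) {γ : Γ} (h : γ ∉ E) : rs E f γ = 0 := by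
  rw [rs_apply, if_neg h]

theorem coe_rs (E : Set Γ) (f : Γ →₀ 𝕜) : ⇑(rs E f) = E.indicator f := by
  funext γ; by_cases h : γ ∈ E <;> simp [rs_apply, h]

theorem mem_support_rs {E : Set Γ} {f : Γ →₀ 𝕜} {γ : Γ} :
    γ ∈ (rs E f).support ↔ γ ∈ f.support ∧ γ ∈ E := by
  by_cases h : γ ∈ E <;> simp [rs_apply, h]

theorem support_rs_subset (E : Set Γ) (f : Γ →₀ 𝕜) : (rs E f).support ⊆ f.support :=
  fun _ h => (mem_support_rs.1 h).1

@[simp] theorem rs_zero (E : Set Γ) : rs E (0 : Γ →₀ 𝕜) = 0 := by ext γ; simp [rs_apply]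

@[simp] theorem rs_univ (f : Γ →₀ 𝕜) : rs Set.univ f = f := by ext γ; simp [rs_apply]

theorem rs_add (E : Set Γ) (f g : Γ →₀ 𝕜) : rs E (f + g) = rs E f + rs E g := by
  ext γ; by_cases h : γ ∈ E <;> simp [rs_apply, h]

theorem rs_smul (E : Set Γ) (c : 𝕜) (f : Γ →₀ 𝕜) : rs E (c • f) = c • rs E f := by
  ext γ; by_cases h : γ ∈ E <;> simp [rs_apply, h]

theorem rs_sum {ι : Type*} (E : Set Γ) (S : Finset ι) (f : ι → Γ →₀ 𝕜) :
    rs E (∑ i ∈ S, f i) = ∑ i ∈ S, rs E (f i) := by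
  ext γ; by_cases h : γ ∈ E <;> simp [rs_apply, h, Finsupp.finsetSum_apply]

theorem rs_rs (E E' : Set Γ) (f : Γ →₀ 𝕜) : rs E (rs E' f) = rs (E ∩ E') f := by
  ext γ; by_cases h : γ ∈ E <;> by_cases h' : γ ∈ E' <;> simp [rs_apply, h, h']

theorem rs_eq_self {E : Set Γ} {f : Γ →₀ 𝕜} (h : ∀ γ ∈ f.support, γ ∈ E) : rs E f = f := by
  ext γ; by_cases h' : γ ∈ E
  · simp [rs_apply, h']
  · rw [rs_apply_notMem f h']; by_contra hn
    exact h' (h γ (Finsupp.mem_support_iff.2 (Ne.symm hn)))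

theorem pair_rs (E : Set Γ) (f : Γ →₀ 𝕜) (z : Γ → 𝕜) :
    pair (rs E f) z = pair f (E.indicator z) := by
  rw [pair_eq_sum _ z _ (support_rs_subset E f), pair_eq_sum f _ _ le_rfl]
  refine Finset.sum_congr rfl fun γ _ => ?_
  by_cases h : γ ∈ E <;> simp [rs_apply, h]

theorem pair_rs' (E : Set Γ) (f x : Γ →₀ 𝕜) : pair (rs E f) x = pair f (rs E x) := by
  rw [pair_rs, coe_rs]

theorem pair_seg (σ : ℕ → Γ →₀ 𝕜) (u v : ℕ) (E : Set Γ) (z : Γ → 𝕜) :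
    pair (seg σ u v E) z = ∑ j ∈ Finset.Ico u v, pair (rs E (σ j)) z := by
  rw [seg, rs_sum, pair_sum_left]

theorem pair_seg_univ (σ : ℕ → Γ →₀ 𝕜) (u v : ℕ) (z : Γ → 𝕜) :
    pair (seg σ u v Set.univ) z = ∑ j ∈ Finset.Ico u v, pair (σ j) z := by
  simp [pair_seg]

theorem hull_ordConnected (f : Γ →₀ 𝕜) : (hull f).OrdConnected :=
  ⟨fun _ ⟨a, ha, _, _, h1, _⟩ _ ⟨_, _, b, hb, _, h2⟩ _ hc =>
    ⟨a, ha, b, hb, h1.trans hc.1, hc.2.trans h2⟩⟩

theorem mem_hull {f : Γ →₀ 𝕜} {γ : Γ} (h : γ ∈ f.support) : γ ∈ hull f :=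
  ⟨γ, h, γ, h, le_rfl, le_rfl⟩

theorem Lt.mono {f g f' g' : Γ →₀ 𝕜} (h : Lt f g) (hf : ∀ γ ∈ f'.support, γ ∈ hull f)
    (hg : ∀ γ ∈ g'.support, γ ∈ hull g) : Lt f' g' := by
  intro a ha b hb
  obtain ⟨_, _, c, hc, _, h1⟩ := hf a ha
  obtain ⟨d, hd, _, _, h2, _⟩ := hg b hb
  exact h1.trans_lt ((h c hc d hd).trans_le h2)

theorem Succ.restr {α : ℕ → Γ →₀ 𝕜} (h : Succ α) (E : Set Γ) : Succ fun i => rs E (α i) :=
  fun i j hij a ha b hb => h i j hij a (support_rs_subset _ _ ha) b (support_rs_subset _ _ hb)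

theorem Blk_anti (v : ℕ → Γ →₀ 𝕜) {m m' : ℕ} (h : m ≤ m') : Blk v m' ≤ Blk v m :=
  Submodule.span_mono (Set.image_mono (Set.Ici_subset_Ici.2 h))

theorem mem_Blk (v : ℕ → Γ →₀ 𝕜) {m k : ℕ} (h : m ≤ k) : v k ∈ Blk v m :=
  Submodule.subset_span ⟨k, h, rfl⟩

theorem mm_pos (j : ℕ) : 0 < mm j := by unfold mm; positivity

theorem l2_nonneg (f : Γ →₀ 𝕜) : 0 ≤ l2 f := Real.sqrt_nonneg _

end Crest.Agent.R114
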