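import Crest.Agent.R114.L2

/-! `ℓ²` inequalities and admissible families. -/

set_option autoImplicit false
set_option linter.unusedSectionVars false
open Filter Topology

namespace Crest.Agent.R114

variable {𝕜 : Type} [RCLike 𝕜] {Γ : Type} [LinearOrder Γ]

theorem l2_sq (f : Γ →₀ 𝕜) (S : Finset Γ) (h : f.support ⊆ S) :
    l2 f ^ 2 = ∑ γ ∈ S, ‖f γ‖ ^ 2 := by
  rw [l2, Real.sq_sqrt (by positivity)]
  refine Finset.sum_subset h fun γ _ hγ => ?_
  rw [Finsupp.notMem_support_iff.1 hγ]; simp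

@[simp] theorem l2_zero : l2 (0 : Γ →₀ 𝕜) = 0 := by
  simp [l2]

theorem l2_single (γ : Γ) (c : 𝕜) : l2 (Finsupp.single γ c) = ‖c‖ := by
  have h := l2_sq (Finsupp.single γ c) {γ} Finsupp.support_single_subset
  rw [Finset.sum_singleton, Finsupp.single_eq_same] at h
  exact (pow_left_inj₀ (l2_nonneg _) (norm_nonneg _) two_ne_zero).1 h

theorem norm_apply_le_l2 (f : Γ →₀ 𝕜) (γ : Γ) : ‖f γ‖ ≤ l2 f := by
  by_cases h : γ ∈ f.support
  · refine Real.le_sqrt_of_sq_le ?_
    exact Finset.single_le_sum (f := fun γ => ‖f γ‖ ^ 2) (fun _ _ => by positivity) h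
  · rw [Finsupp.notMem_support_iff.1 h, norm_zero]; exact l2_nonneg f

theorem l2_add_le (f g : Γ →₀ 𝕜) : l2 (f + g) ≤ l2 f + l2 g := by
  classical
  set S := f.support ∪ g.support
  have h1 := l2_sq (f + g) S Finsupp.support_add
  have h2 := l2_sq f S Finset.subset_union_left
  have h3 := l2_sq g S Finset.subset_union_right
  have h4 : (∑ γ ∈ S, ‖f γ‖ * ‖g γ‖) ^ 2 ≤ (l2 f * l2 g) ^ 2 := by
    rw [mul_pow, h2, h3]; exact Finset.sum_mul_sq_le_sq_mul_sq S _ _
  have h5 := (abs_le_of_sq_le_sq' h4 (mul_nonneg (l2_nonneg f) (l2_nonneg g))).2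
  refine (abs_le_of_sq_le_sq' ?_ (add_nonneg (l2_nonneg f) (l2_nonneg g))).2
  rw [h1, add_sq, h2, h3]
  calc _ ≤ ∑ γ ∈ S, (‖f γ‖ ^ 2 + 2 * (‖f γ‖ * ‖g γ‖) + ‖g γ‖ ^ 2) := by
        refine Finset.sum_le_sum fun γ _ => ?_
        have := norm_add_le (f γ) (g γ)
        rw [Finsupp.add_apply]
        nlinarith [norm_nonneg (f γ + g γ)]
    _ ≤ _ := by
        rw [Finset.sum_add_distrib, Finset.sum_add_distrib, ← Finset.mul_sum]; linarith

theorem l2_smul (c : 𝕜) (f : Γ →₀ 𝕜) : l2 (c • f) = ‖c‖ * l2 f := by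
  refine (pow_left_inj₀ (l2_nonneg _) (mul_nonneg (norm_nonneg _) (l2_nonneg _)) two_ne_zero).1 ?_
  rw [l2_sq _ f.support Finsupp.support_smul, mul_pow, l2_sq f _ le_rfl, Finset.mul_sum]
  simp [mul_pow]

theorem l2_sum_le {ι : Type*} (S : Finset ι) (f : ι → Γ →₀ 𝕜) :
    l2 (∑ i ∈ S, f i) ≤ ∑ i ∈ S, l2 (f i) := by
  classical
  induction S using Finset.induction_on with
  | empty => simp
  | insert a s ha ih =>
    rw [Finset.sum_insert ha, Finset.sum_insert ha]
    exact (l2_add_le _ _).trans (by linarith)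

theorem l2_rs_le (E : Set Γ) (f : Γ →₀ 𝕜) : l2 (rs E f) ≤ l2 f := by
  refine (abs_le_of_sq_le_sq' ?_ (l2_nonneg f)).2
  rw [l2_sq _ _ (support_rs_subset E f), l2_sq f _ le_rfl]
  refine Finset.sum_le_sum fun γ _ => ?_
  by_cases h : γ ∈ E
  · rw [rs_apply_mem f h]
  · rw [rs_apply_notMem f h]; simp

/-- Pythagoras for successive (disjoint) supports -/
theorem Succ.l2_sum_sq {g : ℕ → Γ →₀ 𝕜} (h : Succ g) (S : Finset ℕ) :
    l2 (∑ i ∈ S, g i) ^ 2 = ∑ i ∈ S, l2 (g i) ^ 2 := by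
  classical
  set T := S.biUnion fun i => (g i).support
  rw [l2_sq _ T Finsupp.support_finsetSum]
  rw [Finset.sum_congr rfl fun i hi => l2_sq (g i) T (Finset.subset_biUnion_of_mem (fun i => (g i).support) hi),
    Finset.sum_comm]
  refine Finset.sum_congr rfl fun γ hγ => ?_
  obtain ⟨k, hk, hγk⟩ := Finset.mem_biUnion.1 hγ
  have hz : ∀ b, b ≠ k → g b γ = 0 := fun b hb => by
    by_contra hn
    have hγ' := Finsupp.mem_support_iff.2 hn
    rcases lt_or_gt_of_ne hb with hlt | hlt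
    · exact lt_irrefl _ (h _ _ hlt γ hγ' γ hγk)
    · exact lt_irrefl _ (h _ _ hlt γ hγk γ hγ')
  rw [Finsupp.finsetSum_apply, Finset.sum_eq_single k (fun b _ hb => hz b hb) (fun hn => absurd hk hn),
    Finset.sum_eq_single k (fun b _ hb => by rw [hz b hb]; simp) (fun hn => absurd hk hn)]

/-- Cauchy–Schwarz -/
theorem norm_pair_le_l2 (f : Γ →₀ 𝕜) (z : Γ → 𝕜) (t : ℝ) (ht : 0 ≤ t)
    (h : ∑ γ ∈ f.support, ‖z γ‖ ^ 2 ≤ t ^ 2) : ‖pair f z‖ ≤ l2 f * t := by
  rw [pair_eq_sum f z _ le_rfl]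
  refine (norm_sum_le _ _).trans ?_
  simp only [norm_mul]
  refine (abs_le_of_sq_le_sq' ?_ (mul_nonneg (l2_nonneg f) ht)).2
  rw [mul_pow, l2_sq f _ le_rfl]
  exact (Finset.sum_mul_sq_le_sq_mul_sq _ _ _).trans
    (mul_le_mul_of_nonneg_left h (by positivity))

theorem norm_pair_le_card (f : Γ →₀ 𝕜) (z : Γ → 𝕜) (a t : ℝ) (hf : ∀ γ, ‖f γ‖ ≤ a)
    (hz : ∀ γ, ‖z γ‖ ≤ t) : ‖pair f z‖ ≤ f.support.card * (a * t) := by
  rw [pair_eq_sum f z _ le_rfl, ← nsmul_eq_mul, ← Finset.sum_const]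
  refine (norm_sum_le _ _).trans (Finset.sum_le_sum fun γ _ => ?_)
  rw [norm_mul]
  exact mul_le_mul (hf γ) (hz γ) (norm_nonneg _) ((norm_nonneg _).trans (hf γ))

theorem norm_pair_le_l1 (f x : Γ →₀ 𝕜) (a : ℝ) (hf : ∀ γ, ‖f γ‖ ≤ a) :
    ‖pair f x‖ ≤ a * ∑ γ ∈ x.support, ‖x γ‖ := by
  classical
  rw [pair_eq_sum f x (f.support ∪ x.support) Finset.subset_union_left,
    ← Finset.sum_subset (s₁ := x.support) Finset.subset_union_right
      (fun γ _ hγ => by rw [Finsupp.notMem_support_iff.1 hγ, mul_zero]), Finset.mul_sum]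
  refine (norm_sum_le _ _).trans (Finset.sum_le_sum fun γ _ => ?_)
  rw [norm_mul]
  exact mul_le_mul_of_nonneg_right (hf γ) (norm_nonneg _)

/-- The children of a node have total `ℓ²` norm at most `2`: the `i`-th one is `0` or has norm at most
`2^{-#(earlier nonzero children)}`. -/
theorem Adm.sum_l2_le {α : ℕ → Γ →₀ 𝕜} (h : Adm α) (n : ℕ) :
    ∑ i ∈ Finset.range n, l2 (α i) ≤ 2 := by
  have key : ∀ n, ∑ i ∈ Finset.range n, l2 (α i) +
      2 / 2 ^ (∑ i ∈ Finset.range n, (α i).support.card) ≤ 2 := by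
    intro n
    induction n with
    | zero => simp
    | succ n ih =>
      rw [Finset.sum_range_succ, Finset.sum_range_succ]
      by_cases h0 : α n = 0
      · simpa [h0] using ih
      · have h1 := h.2 n
        set s := ∑ i ∈ Finset.range n, (α i).support.card
        have hc : 1 ≤ (α n).support.card :=
          Finset.card_pos.2 (Finsupp.support_nonempty_iff.2 h0)
        have hp : (0 : ℝ) < 2 ^ s := by positivity
        have h2 : l2 (α n) ≤ 1 / 2 ^ s := by rw [le_div_iff₀ hp]; exact h1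
        have h3 : (2 : ℝ) / 2 ^ (s + (α n).support.card) ≤ 1 / 2 ^ s := by
          calc (2 : ℝ) / 2 ^ (s + (α n).support.card) ≤ 2 / 2 ^ (s + 1) := by
                gcongr; norm_num
            _ = _ := by rw [pow_succ]; field_simp
        have h4 : (2 : ℝ) / 2 ^ s = 2 * (1 / 2 ^ s) := by ring
        linarith
  have := key n
  have h2 : (0 : ℝ) ≤ 2 / 2 ^ (∑ i ∈ Finset.range n, (α i).support.card) := by positivity
  linarith

theorem Adm.restr {α : ℕ → Γ →₀ 𝕜} (h : Adm α) (E : Set Γ) : Adm fun i => rs E (α i) := by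
  refine ⟨h.1.restr E, fun i => le_trans ?_ (h.2 i)⟩
  refine mul_le_mul (l2_rs_le E _) ?_ (by positivity) (l2_nonneg _)
  exact pow_le_pow_right₀ (by norm_num)
    (Finset.sum_le_sum fun i' _ => Finset.card_le_card (support_rs_subset _ _))

/-- a finite subfamily of an admissible family, enumerated increasingly and padded with zeros -/
theorem Adm.sub {g : ℕ → Γ →₀ 𝕜} (h : Adm g) (K : Finset ℕ) :
    ∃ α : ℕ → Γ →₀ 𝕜, Adm α ∧ (∀ i, α i = 0 ∨ ∃ k ∈ K, α i = g k) ∧
      ∀ n, K.card ≤ n → ∑ i ∈ Finset.range n, α i = ∑ k ∈ K, g k := by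
  classical
  let e := K.orderEmbOfFin rfl
  let α : ℕ → Γ →₀ 𝕜 := fun i => if hi : i < K.card then g (e ⟨i, hi⟩) else 0
  have hα : ∀ i (hi : i < K.card), α i = g (e ⟨i, hi⟩) := fun i hi => dif_pos hi
  have hα' : ∀ i, ¬ i < K.card → α i = 0 := fun i hi => dif_neg hi
  refine ⟨α, ⟨fun i j hij => ?_, fun i => ?_⟩, fun i => ?_, fun n hn => ?_⟩
  · by_cases hj : j < K.card
    · rw [hα i (hij.trans hj), hα j hj]
      exact h.1 _ _ (e.strictMono (Fin.mk_lt_mk.2 hij))
    · rw [hα' j hj]; intro a _ b hb; simp at hb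
  · by_cases hi : i < K.card
    · rw [hα i hi]
      refine le_trans (mul_le_mul_of_nonneg_left (pow_le_pow_right₀ (by norm_num) ?_)
        (l2_nonneg _)) (h.2 (e ⟨i, hi⟩))
      let φ : ℕ → ℕ := fun i' => if hi' : i' < K.card then e ⟨i', hi'⟩ else 0
      have hφ : ∀ i' (hi' : i' < K.card), φ i' = e ⟨i', hi'⟩ := fun i' hi' => dif_pos hi'
      have e1 : ∑ i' ∈ Finset.range i, (α i').support.card =
          ∑ k ∈ (Finset.range i).image φ, (g k).support.card := by
        rw [Finset.sum_image]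
        · refine Finset.sum_congr rfl fun i' hi' => ?_
          have := (Finset.mem_range.1 hi').trans hi
          rw [hα i' this, hφ i' this]
        · intro a ha b hb hab
          have ha' := (Finset.mem_range.1 ha).trans hi
          have hb' := (Finset.mem_range.1 hb).trans hi
          rw [hφ a ha', hφ b hb'] at hab
          exact Fin.mk.inj (e.injective hab)
      rw [e1]
      refine Finset.sum_le_sum_of_subset fun k hk => ?_
      obtain ⟨i', hi', rfl⟩ := Finset.mem_image.1 hk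
      have := (Finset.mem_range.1 hi').trans hi
      rw [hφ i' this, Finset.mem_range]
      exact e.strictMono (Fin.mk_lt_mk.2 (Finset.mem_range.1 hi'))
    · rw [hα' i hi]; simp
  · by_cases hi : i < K.card
    · exact Or.inr ⟨_, K.orderEmbOfFin_mem rfl ⟨i, hi⟩, hα i hi⟩
    · exact Or.inl (hα' i hi)
  · rw [← Finset.sum_subset (Finset.range_subset_range.2 hn)
      (fun i _ hi => hα' i (by simpa using hi)), Finset.sum_range]
    rw [Finset.sum_congr rfl fun (i : Fin K.card) _ => hα i i.2]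
    conv_rhs => rw [← Finset.image_orderEmbOfFin_univ K rfl]
    rw [Finset.sum_image fun a _ b _ hab => e.injective hab]

end Crest.Agent.R114
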