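import Crest.Agent.R114.L2b

/-! Successive sequences, the staircase count, block subspaces, the parameters. -/

set_option autoImplicit false
set_option linter.unusedSectionVars false
open Filter Topology

namespace Crest.Agent.R114

variable {𝕜 : Type} [RCLike 𝕜] {Γ : Type} [LinearOrder Γ]

theorem Succ.eq_of_mem {x : ℕ → Γ →₀ 𝕜} (h : Succ x) {γ : Γ} {a b : ℕ} (ha : γ ∈ (x a).support)
    (hb : γ ∈ (x b).support) : a = b := by
  rcases lt_trichotomy a b with hlt | hlt | hlt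
  · exact absurd (h _ _ hlt γ ha γ hb) (lt_irrefl _)
  · exact hlt
  · exact absurd (h _ _ hlt γ hb γ ha) (lt_irrefl _)

theorem Succ.eventually_notMem {x : ℕ → Γ →₀ 𝕜} (h : Succ x) (S : Finset Γ) :
    ∀ᶠ k in atTop, ∀ γ ∈ S, γ ∉ (x k).support := by
  rw [Filter.eventually_all_finset]
  intro γ _
  by_cases hz : ∃ a, γ ∈ (x a).support
  · obtain ⟨a, ha⟩ := hz
    exact (eventually_gt_atTop a).mono fun k hk hγ => hk.ne (h.eq_of_mem ha hγ)
  · push Not at hz
    exact Eventually.of_forall hz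

theorem Succ.eventually_pair_left {x : ℕ → Γ →₀ 𝕜} (h : Succ x) (f : Γ →₀ 𝕜) :
    ∀ᶠ k in atTop, pair f (x k) = 0 := by
  exact (h.eventually_notMem f.support).mono fun k hk =>
    pair_eq_zero f fun γ hγ => Finsupp.notMem_support_iff.1 (hk γ hγ)

theorem Succ.eventually_pair_right {σ : ℕ → Γ →₀ 𝕜} (h : Succ σ) (x : Γ →₀ 𝕜) :
    ∀ᶠ j in atTop, pair (σ j) x = 0 := by
  exact (h.eventually_notMem x.support).mono fun k hk =>
    pair_eq_zero _ fun γ hγ => Finsupp.notMem_support_iff.1 fun hx => hk γ hx hγ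

theorem Succ.support_subset_sum {x : ℕ → Γ →₀ 𝕜} (h : Succ x) (K : Finset ℕ) {k : ℕ} (hk : k ∈ K) :
    (x k).support ⊆ (∑ l ∈ K, x l).support := by
  intro γ hγ
  rw [Finsupp.mem_support_iff, Finsupp.finsetSum_apply, Finset.sum_eq_single k]
  · exact Finsupp.mem_support_iff.1 hγ
  · intro b _ hb
    exact Finsupp.notMem_support_iff.1 fun hγ' => hb (h.eq_of_mem hγ' hγ)
  · exact fun hn => absurd hk hn

/-- The hull of `v k` cuts the `k`-th term out of a block. -/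
theorem Succ.rs_hull_sum {v : ℕ → Γ →₀ 𝕜} (h : Succ v) (K : Finset ℕ) (a : ℕ → 𝕜) {k : ℕ}
    (hk : k ∈ K) : rs (hull (v k)) (∑ l ∈ K, a l • v l) = a k • v k := by
  rw [rs_sum, Finset.sum_eq_single k]
  · rw [rs_smul, rs_eq_self fun γ hγ => mem_hull hγ]
  · intro b _ hb
    rw [rs_smul]
    have : rs (hull (v k)) (v b) = 0 := by
      ext γ
      by_contra hn
      obtain ⟨h1, a, ha, c, hc, h2, h3⟩ := mem_support_rs.1 (Finsupp.mem_support_iff.2 hn)
      rcases lt_or_gt_of_ne hb with hlt | hlt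
      · exact absurd (h _ _ hlt γ h1 a ha) (not_lt.2 h2)
      · exact absurd (h _ _ hlt c hc γ h1) (not_lt.2 h3)
    rw [this, smul_zero]
  · exact fun hn => absurd hk hn

open Classical in
/-- Staircase count: the pairs `(q, k)` whose supports meet form a chain, so
`(q, k) ↦ #{q' ∈ Q | q' < q} + #{k' ∈ K | k' < k}` is injective on them. -/
theorem staircase {α x : ℕ → Γ →₀ 𝕜} (hα : Succ α) (hx : Succ x) (Q K : Finset ℕ) :
    ∑ q ∈ Q, (K.filter fun k => pair (α q) (x k) ≠ 0).card ≤ Q.card + K.card := by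
  let T := (Q ×ˢ K).filter fun p => pair (α p.1) (x p.2) ≠ 0
  have e1 : ∑ q ∈ Q, (K.filter fun k => pair (α q) (x k) ≠ 0).card = T.card := by
    simp only [T, Finset.card_filter]
    rw [Finset.sum_product]
  have chain : ∀ p ∈ T, ∀ p' ∈ T, p.1 < p'.1 → p.2 ≤ p'.2 := by
    intro p hp p' hp' hlt
    obtain ⟨γ, a1, a2⟩ := exists_of_pair_ne_zero (Finset.mem_filter.1 hp).2
    obtain ⟨γ', b1, b2⟩ := exists_of_pair_ne_zero (Finset.mem_filter.1 hp').2
    by_contra hn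
    exact lt_asymm (hα _ _ hlt γ a1 γ' b1) (hx _ _ (not_le.1 hn) γ' b2 γ a2)
  let rk : Finset ℕ → ℕ → ℕ := fun S a => (S.filter (· < a)).card
  have rk_le : ∀ S a b, a ≤ b → rk S a ≤ rk S b := fun S a b hab =>
    Finset.card_le_card fun c hc => by
      simp only [Finset.mem_filter] at hc ⊢; exact ⟨hc.1, hc.2.trans_le hab⟩
  have rk_lt : ∀ S a b, a ∈ S → a < b → rk S a < rk S b := fun S a b ha hab =>
    Finset.card_lt_card ⟨fun c hc => by
      simp only [Finset.mem_filter] at hc ⊢; exact ⟨hc.1, hc.2.trans hab⟩, fun hs => by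
      have := hs (Finset.mem_filter.2 ⟨ha, hab⟩)
      simp at this⟩
  have rk_card : ∀ S a, rk S a ≤ S.card := fun S a => Finset.card_filter_le _ _
  have rk_card' : ∀ S a, a ∈ S → rk S a < S.card := fun S a ha =>
    Finset.card_lt_card ⟨Finset.filter_subset _ _, fun hs => by
      have := hs ha
      simp at this⟩
  rw [e1, ← Finset.card_range (Q.card + K.card)]
  refine Finset.card_le_card_of_injOn (fun p => rk Q p.1 + rk K p.2) (fun p hp => ?_) ?_
  · obtain ⟨h1, h2⟩ := Finset.mem_product.1 (Finset.mem_filter.1 hp).1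
    have := rk_card' Q _ h1
    have := rk_card K p.2
    simp only [Finset.coe_range, Set.mem_Iio]; omega
  · intro p hp p' hp' he
    obtain ⟨h1, h2⟩ := Finset.mem_product.1 (Finset.mem_filter.1 hp).1
    obtain ⟨h1', h2'⟩ := Finset.mem_product.1 (Finset.mem_filter.1 hp').1
    simp only at he
    rcases lt_trichotomy p.1 p'.1 with hlt | hlt | hlt
    · have := rk_lt Q _ _ h1 hlt
      have := rk_le K _ _ (chain p hp p' hp' hlt)
      omega
    · refine Prod.ext hlt ?_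
      rw [hlt] at he
      rcases lt_trichotomy p.2 p'.2 with h3 | h3 | h3
      · have := rk_lt K _ _ h2 h3; omega
      · exact h3
      · have := rk_lt K _ _ h2' h3; omega
    · have := rk_lt Q _ _ h1' hlt
      have := rk_le K _ _ (chain p' hp' p hp hlt)
      omega

theorem mem_Blk_iff {v : ℕ → Γ →₀ 𝕜} {m : ℕ} {u : Γ →₀ 𝕜} :
    u ∈ Blk v m ↔ ∃ (K : Finset ℕ) (a : ℕ → 𝕜), (∀ k ∈ K, m ≤ k) ∧ u = ∑ k ∈ K, a k • v k := by
  constructor
  · intro hu
    obtain ⟨l, hl, rfl⟩ := (Finsupp.mem_span_image_iff_linearCombination 𝕜).1 hu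
    exact ⟨l.support, l, fun k hk => (Finsupp.mem_supported 𝕜 l).1 hl hk, by
      rw [Finsupp.linearCombination_apply, Finsupp.sum]⟩
  · rintro ⟨K, a, hK, rfl⟩
    exact Submodule.sum_mem _ fun k hk => Submodule.smul_mem _ _ (mem_Blk v (hK k hk))

theorem exists_mem_support_of_sum {v : ℕ → Γ →₀ 𝕜} {K : Finset ℕ} {a : ℕ → 𝕜} {γ : Γ}
    (h : γ ∈ (∑ k ∈ K, a k • v k).support) : ∃ k ∈ K, γ ∈ (v k).support := by
  classical
  obtain ⟨k, hk, h1⟩ := Finset.mem_biUnion.1 (Finsupp.support_finsetSum h)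
  exact ⟨k, hk, Finsupp.support_smul h1⟩

theorem Base.lt_of_mem_Blk {v : ℕ → Γ →₀ 𝕜} {lam : Γ} (h : Base v lam) {m : ℕ} {u : Γ →₀ 𝕜}
    (hu : u ∈ Blk v m) : ∀ γ ∈ u.support, γ < lam := by
  obtain ⟨K, a, -, rfl⟩ := mem_Blk_iff.1 hu
  intro γ hγ
  obtain ⟨k, -, hk⟩ := exists_mem_support_of_sum hγ
  exact h.2.2 k γ hk

theorem Succ.exists_Lt_Blk {v : ℕ → Γ →₀ 𝕜} (h : Succ v) {m : ℕ} {u : Γ →₀ 𝕜} (hu : u ∈ Blk v m) :
    ∃ m', ∀ w ∈ Blk v m', Lt u w := by
  obtain ⟨K, a, -, rfl⟩ := mem_Blk_iff.1 hu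
  refine ⟨K.sup id + 1, fun w hw => ?_⟩
  obtain ⟨K', a', hK', rfl⟩ := mem_Blk_iff.1 hw
  intro γ hγ γ' hγ'
  obtain ⟨k, hk, h1⟩ := exists_mem_support_of_sum hγ
  obtain ⟨k', hk', h2⟩ := exists_mem_support_of_sum hγ'
  have h3 : k ≤ K.sup id := Finset.le_sup (f := id) hk
  have := hK' k' hk'
  exact h k k' (by omega) γ h1 γ' h2

theorem nn_pos (j : ℕ) : 0 < nn j := by
  induction j with
  | zero => simp [nn]
  | succ j ih => rw [nn]; have := mm_pos (j + 1); positivity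

theorem nn_succ_ge (j : ℕ) : mm (j + 1) ^ 2 * nn j ^ (2 * j + 12) ≤ nn (j + 1) := by
  rw [nn, mul_pow, mul_pow, ← pow_mul, show (j + 6) * 2 = 2 * j + 12 by ring]
  exact Nat.mul_le_mul_right _ (Nat.le_mul_of_pos_left _ (by norm_num))

theorem pow_le_nn_succ (j : ℕ) : nn j ^ (2 * j + 12) ≤ nn (j + 1) :=
  (Nat.le_mul_of_pos_left _ (pow_pos (mm_pos _) 2)).trans (nn_succ_ge j)

theorem mm_sq_le_nn_succ (j : ℕ) : mm (j + 1) ^ 2 ≤ nn (j + 1) :=
  (Nat.le_mul_of_pos_right _ (pow_pos (nn_pos _) _)).trans (nn_succ_ge j)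

theorem lt_mm (j : ℕ) : j < mm j :=
  (Nat.lt_two_pow_self).trans_le (Nat.pow_le_pow_right (by norm_num) (Nat.le_add_right j 5))

theorem nn_mono : Monotone nn := by
  refine monotone_nat_of_le_succ fun j => le_trans ?_ (pow_le_nn_succ j)
  exact Nat.le_self_pow (by omega) _

theorem exists_lt_nn_div (C : ℝ) : ∃ j, C < (nn j : ℝ) / mm j := by
  obtain ⟨j, hj⟩ := exists_nat_gt C
  refine ⟨j + 1, ?_⟩
  have hm : (0 : ℝ) < mm (j + 1) := by exact_mod_cast mm_pos _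
  have h1 : (mm (j + 1) : ℝ) ^ 2 ≤ nn (j + 1) := by exact_mod_cast mm_sq_le_nn_succ j
  have h2 : ((j + 1 : ℕ) : ℝ) < mm (j + 1) := by exact_mod_cast lt_mm (j + 1)
  rw [lt_div_iff₀ hm]
  push_cast at h2
  nlinarith

/-- `nn (j+1) ≥ nn j ^ (2 j + 12)` and `2 ^ (2 j + 12) = mm (j+1) * 2 ^ (j + 6)` -/
theorem exists_pow_le_nn (N : ℕ) (C : ℝ) : ∃ j s, N ^ s ≤ nn j ∧ C * mm j < 2 ^ s := by
  obtain ⟨c, hc⟩ := exists_nat_gt C
  set j := max c N + 1 with hj
  refine ⟨j + 1, 2 * j + 12, le_trans (Nat.pow_le_pow_left ?_ _) (pow_le_nn_succ j), ?_⟩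
  · have h1 := mm_sq_le_nn_succ (max c N)
    have h2 := lt_mm (max c N + 1)
    have h3 : mm (max c N + 1) ≤ mm (max c N + 1) ^ 2 := Nat.le_self_pow (by norm_num) _
    rw [hj]; omega
  · have hm : (0 : ℝ) < mm (j + 1) := by exact_mod_cast mm_pos _
    have e : (2 : ℝ) ^ (2 * j + 12) = mm (j + 1) * mm (j + 1) := by
      rw [mm]; push_cast; ring
    have h2 : (c : ℝ) ≤ mm (j + 1) := by
      have := lt_mm (j + 1)
      exact_mod_cast (by omega : c ≤ mm (j + 1))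
    rw [e]
    exact mul_lt_mul_of_pos_right (hc.trans_le h2) hm

theorem sum_inv_mm_le (S : Finset ℕ) (p : ℕ) (h : ∀ i ∈ S, p ≤ i) :
    ∑ i ∈ S, (1 : ℝ) / mm i ≤ 2 / mm p := by
  have key : ∀ n, ∑ i ∈ Finset.Ico p (p + n), (1 : ℝ) / mm i + 2 / mm (p + n) = 2 / mm p := by
    intro n
    induction n with
    | zero => simp
    | succ n ih =>
      rw [← add_assoc, Finset.sum_Ico_succ_top (Nat.le_add_right p n), ← ih]
      simp only [mm]; push_cast
      rw [show p + n + 1 + 5 = p + n + 5 + 1 by ring, pow_succ]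
      field_simp; ring
  have h1 : S ⊆ Finset.Ico p (p + (S.sup id + 1)) := fun i hi => by
    have : i ≤ S.sup id := Finset.le_sup (f := id) hi
    have := h i hi
    rw [Finset.mem_Ico]; omega
  have h2 := Finset.sum_le_sum_of_subset_of_nonneg (f := fun i => (1 : ℝ) / mm i) h1
    (fun _ _ _ => by positivity)
  have h3 := key (S.sup id + 1)
  have h4 : (0 : ℝ) ≤ 2 / mm (p + (S.sup id + 1)) := by positivity
  linarith

end Crest.Agent.R114
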