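import Crest.Agent.R114.Nrm

/-! Lower estimate for successive functionals; bounded completeness. -/

set_option autoImplicit false
set_option linter.unusedSectionVars false
open Filter Topology

namespace Crest.Agent.R114

variable {𝕜 : Type} [RCLike 𝕜] {Γ : Type} [LinearOrder Γ]

theorem re_pair_avg (M : ℕ) (S : Finset ℕ) (g : ℕ → Γ →₀ 𝕜) (z : Γ → 𝕜) :
    RCLike.re (pair ((M : 𝕜)⁻¹ • ∑ q ∈ S, g q) z) = (M : ℝ)⁻¹ * ∑ q ∈ S, RCLike.re (pair (g q) z) := by
  rw [pair_smul_left, pair_sum_left, ← RCLike.ofReal_natCast, ← RCLike.ofReal_inv,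
    RCLike.re_ofReal_mul, map_sum]

namespace Data

variable {D : Data 𝕜 Γ} [Nonempty Γ]

/-- Group the `g q` into consecutive averages `α i` (`W.avg`) of lengths `M i ≥ 4 ^ (∑_{i' < i} card supp (α i'))`;
then `Adm α` and `f = nodeOf j α`. -/
theorem exists_big {g : ℕ → Γ →₀ 𝕜} (hg : ∀ q, D.W (g q)) (hs : Succ g) (z : Γ → 𝕜) {ε : ℝ}
    (h : ∀ q, ε ≤ RCLike.re (pair (g q) z)) (j : ℕ) :
    ∃ f, D.W f ∧ ε * (nn j / mm j) ≤ RCLike.re (pair f z) := by
  let av : ℕ → ℕ → Γ →₀ 𝕜 := fun a M => (M : 𝕜)⁻¹ • ∑ q ∈ Finset.Ico a (a + M), g q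
  let st : ℕ → ℕ × ℕ := fun i => Nat.rec (0, 0)
    (fun _ p => (p.1 + 4 ^ p.2, p.2 + (av p.1 (4 ^ p.2)).support.card)) i
  let α : ℕ → Γ →₀ 𝕜 := fun i => av (st i).1 (4 ^ (st i).2)
  have h1 : ∀ i, (st (i + 1)).1 = (st i).1 + 4 ^ (st i).2 := fun _ => rfl
  have h2 : ∀ i, (st i).2 = ∑ i' ∈ Finset.range i, (α i').support.card := fun i => by
    induction i with
    | zero => rfl
    | succ i ih => rw [Finset.sum_range_succ, ← ih]
  have h3 : Monotone fun i => (st i).1 := monotone_nat_of_le_succ fun i => Nat.le_add_right _ _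
  have h4 : ∀ a M γ, γ ∈ (av a M).support → ∃ q ∈ Finset.Ico a (a + M), γ ∈ (g q).support :=
    fun a M γ hγ => by
      classical
      simpa using Finsupp.support_finsetSum (Finsupp.support_smul hγ)
  have h5 := fun i => W.avg hg hs (st i).1 (4 ^ (st i).2) (by positivity)
  refine ⟨_, W.node j α (fun i => (h5 i).1) ⟨fun i i' hi a ha b hb => ?_, fun i => ?_⟩, ?_⟩
  · obtain ⟨q, hq, ha⟩ := h4 _ _ _ ha
    obtain ⟨q', hq', hb⟩ := h4 _ _ _ hb
    exact hs q q' ((Finset.mem_Ico.1 hq).2.trans_le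
      ((h3 (Nat.succ_le_of_lt hi)).trans (Finset.mem_Ico.1 hq').1)) a ha b hb
  · rw [← h2, ← sq_le_one_iff₀ (mul_nonneg (l2_nonneg _) (by positivity)), mul_pow, ← pow_mul,
      mul_comm _ 2, pow_mul, ← le_div_iff₀ (by positivity)]
    exact (h5 i).2.trans (le_of_eq (by norm_num))
  · rw [nodeOf, re_pair_avg, mul_div_assoc', div_eq_inv_mul]
    refine mul_le_mul_of_nonneg_left (le_trans (le_of_eq ?_)
      (Finset.card_nsmul_le_sum _ _ ε fun i _ => ?_)) (by positivity)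
    · simp [mul_comm]
    · rw [re_pair_avg, le_inv_mul_iff₀ (by positivity)]
      exact le_trans (by simp) (Finset.card_nsmul_le_sum _ _ ε fun q _ => h q)

theorem not_bdd {g : ℕ → Γ →₀ 𝕜} (hg : ∀ q, D.W (g q)) (hs : Succ g) {z : Γ → 𝕜} {ε : ℝ}
    (hε : 0 < ε) (h : ∀ q, ε ≤ RCLike.re (pair (g q) z)) : ¬ D.Bdd z := by
  rintro ⟨C, hC⟩
  obtain ⟨j, hj⟩ := exists_lt_nn_div (C / ε)
  obtain ⟨f, hf, h1⟩ := exists_big hg hs z h j
  rw [div_lt_iff₀' hε] at hj
  exact not_lt.2 (h1.trans ((RCLike.re_le_norm _).trans (hC f hf))) hj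

/-- Finitely supported vectors are dense.  Sketch: say that `w` is approximable if the conclusion
holds for `w`.  Claim: if `L` is a lower set and `(Iio γ).indicator z` is approximable for all
`γ ∈ L`, then `L.indicator z` is approximable.  Otherwise, for some `ε > 0` and all `γ ∈ L`,
`nrm ((L ∩ Ioi γ).indicator z) > ε` (as `(Iic γ).indicator z` is approximable), so `exists_lt_re` and
`W.restr` give `g ∈ W` supported in `L ∩ Ioi γ`, nonzero, with `re (pair g z) > ε`; iterate with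
`γ' = max (supp g)` to get successive `g q`; `exists_big` and `exists_lt_nn_div` contradict `Bdd z`.
Apply the claim to `L = Iio γ` (well-founded induction) and to `L = univ`. -/
theorem Bdd.exists_approx [WellFoundedLT Γ] {z : Γ → 𝕜} (hz : D.Bdd z) {ε : ℝ} (hε : 0 < ε) :
    ∃ x : Γ →₀ 𝕜, D.nrm (z - x) ≤ ε := by
  let Ap : Set Γ → Prop := fun L => ∀ ε > 0, ∃ x : Γ →₀ 𝕜, D.nrm (L.indicator z - x) ≤ ε
  have claim : ∀ L : Set Γ, IsLowerSet L → (∀ γ ∈ L, Ap (Set.Iio γ)) → Ap L := fun L hL hA ε hε => by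
    by_contra hn
    push Not at hn
    obtain ⟨γ₀, hγ₀⟩ : L.Nonempty := by
      rw [Set.nonempty_iff_ne_empty]
      rintro rfl
      have := hn 0
      rw [Set.indicator_empty', Finsupp.coe_zero, sub_zero, nrm_zero] at this
      exact not_lt.2 hε.le this
    have step : ∀ γ : L, ∃ (γ' : L) (g : Γ →₀ 𝕜), D.W g ∧ γ < γ' ∧
        (∀ a ∈ g.support, γ < a ∧ a ≤ γ') ∧ ε / 2 ≤ RCLike.re (pair g z) := fun γ => by
      obtain ⟨x, hx⟩ := hA γ γ.2 (ε / 2) (by positivity)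
      have hE : (L ∩ Set.Ioi γ.1).OrdConnected := hL.ordConnected.inter Set.ordConnected_Ioi
      have h1 := hn (x + Finsupp.single γ.1 (z γ))
      have h2 : L.indicator z - ⇑(x + Finsupp.single γ.1 (z γ)) =
          (L ∩ Set.Ioi γ.1).indicator z + ((Set.Iio γ.1).indicator z - x) := by
        funext a
        rcases lt_trichotomy a γ with h | rfl | h
        · simp [hL h.le γ.2, h, h.le, h.ne']
        · simp
        · by_cases ha : a ∈ L <;> simp [ha, h, h.le, h.ne, sub_eq_add_neg]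
      have h3 := nrm_add_le (hz.indicator hE)
        ((hz.indicator (E := Set.Iio γ.1) Set.ordConnected_Iio).sub (D.bdd_finsupp x))
      obtain ⟨f, hf, h4⟩ := exists_lt_re (D := D) (z := (L ∩ Set.Ioi γ.1).indicator z) (t := ε / 2)
        (by rw [h2] at h1; linarith)
      rw [← pair_rs] at h4
      have h5 : (rs (L ∩ Set.Ioi γ.1) f).support.Nonempty := by
        rw [Finsupp.support_nonempty_iff]
        intro h0
        rw [h0] at h4
        simp at h4
        linarith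
      have h6 := (mem_support_rs.1 (Finset.max'_mem _ h5)).2
      exact ⟨⟨_, h6.1⟩, _, hf.restr hE, h6.2,
        fun a ha => ⟨(mem_support_rs.1 ha).2.2, Finset.le_max' _ _ ha⟩, h4.le⟩
    choose nx G hW hlt hsupp hre using step
    have hm : StrictMono fun k => nx^[k] ⟨γ₀, hγ₀⟩ := strictMono_nat_of_lt_succ fun k => by
      rw [Function.iterate_succ_apply']
      exact hlt _
    refine not_bdd (g := fun k => G (nx^[k] ⟨γ₀, hγ₀⟩)) (fun k => hW _)
      (fun i j hij a ha b hb => ?_) (half_pos hε) (fun k => hre _) hz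
    refine (hsupp _ a ha).2.trans_lt (lt_of_le_of_lt ?_ (hsupp _ b hb).1)
    have := hm.monotone (Nat.succ_le_of_lt hij)
    rwa [Function.iterate_succ_apply'] at this
  have h1 : ∀ γ, Ap (Set.Iio γ) := fun γ => by
    induction γ using WellFoundedLT.induction with
    | ind γ ih => exact claim _ (isLowerSet_Iio γ) ih
  simpa using claim Set.univ isLowerSet_univ (fun γ _ => h1 γ) ε hε

theorem Bdd.countable_support [WellFoundedLT Γ] {z : Γ → 𝕜} (hz : D.Bdd z) :
    (Function.support z).Countable := by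
  choose x hx using fun n : ℕ => hz.exists_approx (Nat.one_div_pos_of_nat (α := ℝ) (n := n))
  refine (Set.countable_iUnion fun n => (x n).support.countable_toSet).mono fun γ hγ => ?_
  obtain ⟨n, hn⟩ := exists_nat_one_div_lt (norm_pos_iff.2 hγ)
  refine Set.mem_iUnion.2 ⟨n, Finsupp.mem_support_iff.2 fun h0 => ?_⟩
  have := (norm_apply_le_nrm (hz.sub (D.bdd_finsupp (x n))) γ).trans (hx n)
  rw [Pi.sub_apply, h0, sub_zero] at this
  exact not_lt.2 this hn

/-- In every block subspace the norm is not equivalent to the sup norm.  Sketch: otherwise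
`ε * nrm x ≤ sup |x|` on `Blk v m`.  Let `y k = v (m+k) / nrm (v (m+k))`, `z γ = ∑ᶠ k, y k γ`; every
`f ∈ W` sees a finite partial sum, whose sup norm is `≤ 1`, so `‖pair f z‖ ≤ 1/ε`.  With `g k` from
`exists_lt_re_hull` (`t = 1/2`), `exists_big` gives a contradiction. -/
theorem exists_small_sup {v : ℕ → Γ →₀ 𝕜} {lam : Γ} (D : Data 𝕜 Γ) (hv : Base v lam) (m : ℕ) {ε : ℝ}
    (hε : 0 < ε) : ∃ x ∈ Blk v m, D.nrm x = 1 ∧ ∀ γ, ‖x γ‖ ≤ ε := by
  by_contra hn
  push Not at hn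
  have hnorm : ∀ x : Γ →₀ 𝕜, x ≠ 0 → D.nrm ⇑((((D.nrm x)⁻¹ : ℝ) : 𝕜) • x) = 1 := fun x hx => by
    rw [Finsupp.coe_smul, nrm_smul, RCLike.norm_ofReal, abs_of_nonneg (inv_nonneg.2 (D.nrm_nonneg _)),
      inv_mul_cancel₀ (D.nrm_pos hx).ne']
  have h1 : ∀ x ∈ Blk v m, (∀ γ, ‖x γ‖ ≤ 1) → D.nrm x ≤ ε⁻¹ := fun x hx h => by
    rcases eq_or_ne x 0 with rfl | h0
    · simpa using hε.le
    obtain ⟨γ, hγ⟩ := hn _ (Submodule.smul_mem _ _ hx) (hnorm x h0)
    have hp := D.nrm_pos h0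
    rw [Finsupp.smul_apply, norm_smul, RCLike.norm_ofReal, abs_of_nonneg (inv_nonneg.2 hp.le)] at hγ
    exact ((lt_inv_comm₀ hε hp).1 (hγ.trans_le (mul_le_of_le_one_right (inv_nonneg.2 hp.le) (h γ)))).le
  let y : ℕ → Γ →₀ 𝕜 := fun k => (((D.nrm (v (m + k)))⁻¹ : ℝ) : 𝕜) • v (m + k)
  have hy1 : ∀ k, D.nrm (y k) = 1 := fun k => hnorm _ (hv.2.1 _)
  have hy2 : Succ y := fun i j hij a ha b hb =>
    hv.1 _ _ (Nat.add_lt_add_left hij m) a (Finsupp.support_smul ha) b (Finsupp.support_smul hb)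
  have hy3 : ∀ k γ, γ ∈ hull (y k) → ∀ l ≠ k, y l γ = 0 := fun k γ ⟨a, ha, b, hb, h1, h2⟩ l hl => by
    by_contra h0
    rcases lt_or_gt_of_ne hl with h | h
    · exact not_lt.2 h1 (hy2 l k h γ (Finsupp.mem_support_iff.2 h0) a ha)
    · exact not_lt.2 h2 (hy2 k l h b hb γ (Finsupp.mem_support_iff.2 h0))
  have hy4 : ∀ k γ, y k γ ≠ 0 → ∀ l ≠ k, y l γ = 0 := fun k γ h =>
    hy3 k γ (mem_hull (Finsupp.mem_support_iff.2 h))
  choose g hg1 hg2 hg3 using fun k => exists_lt_re_hull (D := D) (x := y k) (t := 1 / 2)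
    (by rw [hy1]; norm_num)
  refine not_bdd (z := fun γ => ∑ᶠ k, y k γ) hg1
    (fun i j hij => (hy2 i j hij).mono (hg2 i) (hg2 j)) one_half_pos (fun k => ?_) ⟨ε⁻¹, fun f hf => ?_⟩
  · rw [pair_congr (g k) (w := y k) fun γ hγ => finsum_eq_single _ k (hy3 k γ (hg2 k γ hγ))]
    exact (hg3 k).le
  · have h2 : ∀ γ, ∀ᶠ N in atTop, ∑ᶠ k, y k γ = (∑ k ∈ Finset.range N, y k) γ := fun γ => by
      by_cases h : ∃ k, y k γ ≠ 0
      · obtain ⟨k, hk⟩ := h
        filter_upwards [eventually_gt_atTop k] with N hN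
        rw [finsum_eq_single _ k (hy4 k γ hk), Finsupp.finsetSum_apply,
          Finset.sum_eq_single_of_mem k (Finset.mem_range.2 hN) fun l _ => hy4 k γ hk l]
      · push Not at h
        simp [Finsupp.finsetSum_apply, h]
    obtain ⟨N, hN⟩ := ((eventually_all_finset f.support).2 fun γ _ => h2 γ).exists
    rw [pair_congr f hN]
    refine (hf.le_nrm' _).trans (h1 _ (Submodule.sum_mem _ fun k _ =>
      Submodule.smul_mem _ _ (mem_Blk v (Nat.le_add_right m k))) fun γ => ?_)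
    rw [Finsupp.finsetSum_apply]
    by_cases h : ∃ k ∈ Finset.range N, y k γ ≠ 0
    · obtain ⟨k, hk, h0⟩ := h
      rw [Finset.sum_eq_single_of_mem k hk fun l _ => hy4 k γ h0 l, ← hy1 k]
      exact norm_apply_le_nrm (D.bdd_finsupp _) γ
    · push Not at h
      simp [Finset.sum_eq_zero h]

end Data

end Crest.Agent.R114
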