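import Mathlib

set_option autoImplicit false

namespace Crest.Agent.R114

variable {𝕜 : Type} [RCLike 𝕜] {X : Type*} [NormedAddCommGroup X] [NormedSpace 𝕜 X]

/-- a functional of norm at most one, vanishing on `N`, norming the class of `x` -/
theorem lift_quot_dual (N : Submodule 𝕜 X) (x : X) :
    ∃ g : StrongDual 𝕜 X, ‖g‖ ≤ 1 ∧ (∀ n ∈ N, g n = 0) ∧ g x = (‖N.mkQ x‖ : 𝕜) := by
  obtain ⟨g, hg1, hg2⟩ := exists_dual_vector'' 𝕜 (N.mkQ x)
  have hb : ∀ y, ‖(g : (X ⧸ N) →ₗ[𝕜] 𝕜).comp N.mkQ y‖ ≤ 1 * ‖y‖ := fun y => by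
    refine (g.le_opNorm (N.mkQ y)).trans ?_
    exact mul_le_mul hg1 (Submodule.Quotient.norm_mk_le N y) (norm_nonneg _) zero_le_one
  refine ⟨LinearMap.mkContinuous _ 1 hb, LinearMap.mkContinuous_norm_le _ zero_le_one _,
    fun n hn => ?_, hg2⟩
  change g (N.mkQ n) = 0
  rw [Submodule.mkQ_apply, (Submodule.Quotient.mk_eq_zero N).2 hn, map_zero]

/-- Finitely many functionals are controlled by a finite-dimensional subspace.
Sketch: `N = ⋂ ker φ`, `X ⧸ N` is finite-dimensional (it injects in `𝕜^A`); take a finite `1/4`-net of its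
closed unit ball, lift the net points to vectors of norm `≤ 5/4` (`Q`).  Successive approximation inside the
finite-dimensional (complete) space `span Q` gives, for `‖x‖ ≤ 1`, a lift of norm
`≤ (5/4) / (1 - 1/4) ≤ 2` (or use `controlled_closure_of_complete`-type lemmas; alternatively:
the image of `closedBall 0 2 ∩ E` is compact and the increasing union over finite-dimensional `E`
of the relatively open images of `ball 0 2 ∩ E` covers the compact unit ball of the quotient). -/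
theorem exists_lift_finset (A : Finset (StrongDual 𝕜 X)) :
    ∃ Q : Finset X, ∀ x : X, ∃ u ∈ Submodule.span 𝕜 (Q : Set X), ‖u‖ ≤ 2 * ‖x‖ ∧
      ∀ φ ∈ A, φ u = φ x := by
  classical
  let T : X →ₗ[𝕜] (A → 𝕜) := LinearMap.pi fun φ : A => ((φ : StrongDual 𝕜 X) : X →ₗ[𝕜] 𝕜)
  let N : Submodule 𝕜 X := LinearMap.ker T
  have hN : ∀ x, x ∈ N ↔ ∀ φ ∈ A, φ x = 0 := fun x => by
    simp [N, T, funext_iff]
  have hcl : IsClosed (N : Set X) := by
    have : (N : Set X) = ⋂ φ ∈ A, {x | φ x = 0} := by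
      ext x
      simp [hN]
    rw [this]
    exact isClosed_biInter fun φ _ => isClosed_eq φ.continuous continuous_const
  have hfd : FiniteDimensional 𝕜 (X ⧸ N) := (LinearMap.quotKerEquivRange T).symm.finiteDimensional
  obtain ⟨s, hs⟩ := N.mkQ.exists_rightInverse_of_surjective N.range_mkQ
  have hs' : ∀ q, N.mkQ (s q) = q := fun q => LinearMap.congr_fun hs q
  let s' := LinearMap.toContinuousLinearMap s
  have hC : ∀ q, ‖s q‖ ≤ ‖s'‖ * ‖q‖ := fun q => s'.le_opNorm q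
  have hC0 : 0 ≤ ‖s'‖ := norm_nonneg _
  obtain ⟨Q0, hQ0⟩ : (LinearMap.range s).FG := Module.Finite.iff_fg.1 inferInstance
  have : ProperSpace (X ⧸ N) := FiniteDimensional.proper_rclike 𝕜 _
  obtain ⟨t, ht1, ht2, ht3⟩ := (isCompact_closedBall (0 : X ⧸ N) 1).finite_cover_balls
    (e := 1 / (2 * (‖s'‖ + 1))) (by positivity)
  choose v hv1 hv2 using fun q : X ⧸ N =>
    Submodule.Quotient.norm_mk_lt (S := N) q (ε := 1 / 2) (by norm_num)
  refine ⟨Q0 ∪ ht2.toFinset.image v, ?_⟩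
  have key : ∀ x : X, ‖x‖ ≤ 1 → ∃ u ∈ Submodule.span 𝕜
      ((Q0 ∪ ht2.toFinset.image v : Finset X) : Set X), ‖u‖ ≤ 2 ∧ ∀ φ ∈ A, φ u = φ x := by
    intro x hx
    have h1 : N.mkQ x ∈ Metric.closedBall (0 : X ⧸ N) 1 := by
      rw [mem_closedBall_zero_iff]
      exact (Submodule.Quotient.norm_mk_le N x).trans hx
    obtain ⟨q, hq, hq'⟩ := Set.mem_iUnion₂.1 (ht3 h1)
    rw [Metric.mem_ball, dist_eq_norm] at hq'
    have hq1 : ‖q‖ ≤ 1 := mem_closedBall_zero_iff.1 (ht1 hq)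
    refine ⟨v q + s (N.mkQ x - q), Submodule.add_mem _ ?_ ?_, ?_, ?_⟩
    · refine Submodule.subset_span ?_
      simp only [Finset.coe_union, Finset.coe_image, Set.Finite.coe_toFinset]
      exact Or.inr ⟨q, hq, rfl⟩
    · refine Submodule.span_mono (s := (Q0 : Set X)) (by simp) ?_
      rw [hQ0]
      exact ⟨_, rfl⟩
    · have h2 := hC (N.mkQ x - q)
      have h3 : ‖s'‖ * ‖N.mkQ x - q‖ ≤ ‖s'‖ * (1 / (2 * (‖s'‖ + 1))) :=
        mul_le_mul_of_nonneg_left hq'.le hC0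
      have h4 : ‖s'‖ * (1 / (2 * (‖s'‖ + 1))) ≤ 1 / 2 := by
        rw [mul_one_div, div_le_div_iff₀ (by positivity) (by positivity)]
        linarith
      have h5 := hv2 q
      have h6 := norm_add_le (v q) (s (N.mkQ x - q))
      linarith
    · have h2 : v q + s (N.mkQ x - q) - x ∈ N := by
        rw [← Submodule.Quotient.mk_eq_zero, ← Submodule.mkQ_apply, map_sub, map_add, hs',
          Submodule.mkQ_apply _ (v q), hv1]
        abel
      intro φ hφ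
      have := (hN _).1 h2 φ hφ
      rwa [map_sub, sub_eq_zero] at this
  intro x
  by_cases hx : x = 0
  · exact ⟨0, Submodule.zero_mem _, by simp, by simp [hx]⟩
  have hx' : 0 < ‖x‖ := norm_pos_iff.2 hx
  have hx'' : ((‖x‖ : ℝ) : 𝕜) ≠ 0 := by exact_mod_cast hx'.ne'
  obtain ⟨u, hu1, hu2, hu3⟩ := key (((‖x‖ : ℝ) : 𝕜)⁻¹ • x) (by
    rw [norm_smul, norm_inv, RCLike.norm_ofReal, abs_norm, inv_mul_cancel₀ hx'.ne'])
  refine ⟨((‖x‖ : ℝ) : 𝕜) • u, Submodule.smul_mem _ _ hu1, ?_, fun φ hφ => ?_⟩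
  · rw [norm_smul, RCLike.norm_ofReal, abs_norm, mul_comm]
    exact mul_le_mul_of_nonneg_right hu2 hx'.le
  · rw [map_smul, hu3 φ hφ, map_smul, smul_smul, mul_inv_cancel₀ hx'', one_smul]

/-- A proper closed subspace is annihilated by a norm-one functional (Hahn–Banach). -/
theorem exists_norm_one_vanish (D : Submodule 𝕜 X) (hD : ¬ Dense (D : Set X)) :
    ∃ φ : StrongDual 𝕜 X, ‖φ‖ = 1 ∧ ∀ x ∈ D, φ x = 0 := by
  obtain ⟨x, hx⟩ := not_forall.1 hD
  obtain ⟨g, -, hg2, hg3⟩ := lift_quot_dual D x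
  have h1 : ‖D.mkQ x‖ ≠ 0 := fun h =>
    hx ((QuotientAddGroup.norm_mk_eq_zero_iff_mem_closure (S := D.toAddSubgroup) (m := x)).1 h)
  have h2 : g ≠ 0 := by
    rintro rfl
    exact h1 (by simpa using hg3.symm)
  have h3 : ‖g‖ ≠ 0 := norm_ne_zero_iff.2 h2
  refine ⟨((‖g‖ : ℝ) : 𝕜)⁻¹ • g, ?_, fun y hy => ?_⟩
  · rw [norm_smul, norm_inv, RCLike.norm_ofReal, abs_norm, inv_mul_cancel₀ h3]
  · rw [smul_apply, hg2 y hy, smul_zero]

/-- Duality for finitely many functionals: if every `v` with the same values as `x` on `F` has norm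
`≥ ε`, some combination of norm `≤ 1` takes the value `ε` at `x` (Hahn–Banach in `X ⧸ ⋂ ker`,
`mem_span_of_iInf_ker_le_ker`, rescaling). -/
theorem exists_comb_of_dist {ι : Type*} (φ : ι → StrongDual 𝕜 X) (F : Finset ι) (x : X) (ε : ℝ)
    (hε : 0 < ε) (h : ∀ v : X, (∀ i ∈ F, φ i v = φ i x) → ε ≤ ‖v‖) :
    ∃ a : ι → 𝕜, ‖∑ i ∈ F, a i • φ i‖ ≤ 1 ∧ (∑ i ∈ F, a i • φ i) x = (ε : 𝕜) := by
  classical
  let N : Submodule 𝕜 X := ⨅ i : F, LinearMap.ker ((φ i : StrongDual 𝕜 X) : X →ₗ[𝕜] 𝕜)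
  have hN : ∀ y, y ∈ N ↔ ∀ i ∈ F, φ i y = 0 := fun y => by
    simp [N, Submodule.mem_iInf]
  obtain ⟨g, hg1, hg2, hg3⟩ := lift_quot_dual N x
  have h1 : ε ≤ ‖N.mkQ x‖ := by
    by_contra hc
    push Not at hc
    obtain ⟨m, hm1, hm2⟩ := Submodule.Quotient.norm_mk_lt (S := N) (N.mkQ x) (sub_pos.2 hc)
    have h2 : m - x ∈ N := (Submodule.Quotient.eq N).1 hm1
    have h3 := h m fun i hi => by
      have := (hN _).1 h2 i hi
      rwa [map_sub, sub_eq_zero] at this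
    linarith
  have h2 : (g : X →ₗ[𝕜] 𝕜) ∈ Submodule.span 𝕜
      (Set.range fun i : F => ((φ i : StrongDual 𝕜 X) : X →ₗ[𝕜] 𝕜)) :=
    mem_span_of_iInf_ker_le_ker fun y hy => hg2 y hy
  obtain ⟨c, hc⟩ := (Submodule.mem_span_range_iff_exists_fun 𝕜).1 h2
  have hpos : 0 < ‖N.mkQ x‖ := hε.trans_le h1
  have h3 : ∑ i ∈ F, (if hi : i ∈ F then ((ε / ‖N.mkQ x‖ : ℝ) : 𝕜) * c ⟨i, hi⟩ else 0) • φ i =
      ((ε / ‖N.mkQ x‖ : ℝ) : 𝕜) • g := by
    ext y
    have h4 := LinearMap.congr_fun hc y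
    simp only [LinearMap.coe_sum, LinearMap.coe_smul, ContinuousLinearMap.coe_coe,
      Finset.sum_apply, Pi.smul_apply, smul_eq_mul] at h4
    rw [← Finset.sum_coe_sort F]
    simp only [sum_apply, smul_apply, smul_eq_mul,
      Finset.coe_mem, dite_true, ← h4, Finset.mul_sum, mul_assoc]
  refine ⟨fun i => if hi : i ∈ F then ((ε / ‖N.mkQ x‖ : ℝ) : 𝕜) * c ⟨i, hi⟩ else 0, ?_, ?_⟩
  · rw [h3, norm_smul, RCLike.norm_ofReal, abs_of_pos (div_pos hε hpos)]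
    exact mul_le_one₀ ((div_le_one hpos).2 h1) (norm_nonneg _) hg1
  · rw [h3, smul_apply, hg3, smul_eq_mul, ← RCLike.ofReal_mul,
      div_mul_cancel₀ _ hpos.ne']

end Crest.Agent.R114
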