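import Crest.Agent.R114.WB

/-! The norm defined by `W`. -/

set_option autoImplicit false
set_option linter.unusedSectionVars false
open Filter Topology

namespace Crest.Agent.R114

variable {𝕜 : Type} [RCLike 𝕜] {Γ : Type} [LinearOrder Γ]

/-- `ℓ²` duality with coefficients in a dense subfield -/
theorem sum_sq_le_of_dense (R : Subfield 𝕜) (hR : Dense (R : Set 𝕜)) (n : ℕ) (s : ℕ → 𝕜) {N : ℝ}
    (hN : 0 ≤ N) (h : ∀ c : ℕ → 𝕜, (∀ r, c r ∈ R) → ∑ r ∈ Finset.range n, ‖c r‖ ^ 2 ≤ 1 →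
      ‖∑ r ∈ Finset.range n, c r * s r‖ ≤ N) : ∑ r ∈ Finset.range n, ‖s r‖ ^ 2 ≤ N ^ 2 := by
  have hd : Dense (Set.pi Set.univ fun _ : ℕ => (R : Set 𝕜)) := dense_pi _ fun _ _ => hR
  have h1 : ∀ c : ℕ → 𝕜, ∑ r ∈ Finset.range n, ‖c r‖ ^ 2 < 1 →
      ‖∑ r ∈ Finset.range n, c r * s r‖ ≤ N := fun c hc => by
    by_contra hlt
    obtain ⟨c', h', hc'⟩ := hd.inter_open_nonempty
      ({c | ∑ r ∈ Finset.range n, ‖c r‖ ^ 2 < 1} ∩ {c | N < ‖∑ r ∈ Finset.range n, c r * s r‖})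
      ((isOpen_lt (by fun_prop) continuous_const).inter (isOpen_lt continuous_const (by fun_prop)))
      ⟨c, hc, not_le.1 hlt⟩
    exact not_le.2 h'.2 (h c' (fun r => hc' r trivial) h'.1.le)
  by_contra hlt
  set A := ∑ r ∈ Finset.range n, ‖s r‖ ^ 2 with hA
  have h2 : N < √A := Real.lt_sqrt_of_sq_lt (not_le.1 hlt)
  obtain ⟨t, ht1, ht2⟩ := exists_between h2
  have hA0 : 0 < A := (sq_nonneg N).trans_lt (not_le.1 hlt)
  have ht0 : 0 ≤ t := hN.trans ht1.le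
  have ht3 : t ^ 2 < A := (Real.lt_sqrt ht0).1 ht2
  have h3 := h1 (fun r => ((t / A : ℝ) : 𝕜) * (starRingEnd 𝕜) (s r)) (by
    simp only [norm_mul, mul_pow, RCLike.norm_conj, RCLike.norm_ofReal, sq_abs]
    rw [← Finset.mul_sum, ← hA, div_pow, div_mul_eq_mul_div, div_lt_one (by positivity)]
    nlinarith)
  simp only [mul_assoc, RCLike.conj_mul, ← Finset.mul_sum, ← RCLike.ofReal_pow,
    ← RCLike.ofReal_sum, ← hA, ← RCLike.ofReal_mul, RCLike.norm_ofReal] at h3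
  rw [div_mul_cancel₀ _ hA0.ne', abs_of_nonneg ht0] at h3
  exact not_le.2 ht1 h3

namespace Data

/-- `W` is bounded on `z` -/
def Bdd (D : Data 𝕜 Γ) (z : Γ → 𝕜) : Prop := ∃ C : ℝ, ∀ f, D.W f → ‖pair f z‖ ≤ C

variable {D : Data 𝕜 Γ} [Nonempty Γ]

theorem bdd_finsupp (D : Data 𝕜 Γ) (x : Γ →₀ 𝕜) : D.Bdd x := by
  exact ⟨_, fun f hf => norm_pair_le_l1 f x 1 hf.norm_apply_le⟩

theorem Bdd.add {z w : Γ → 𝕜} (hz : D.Bdd z) (hw : D.Bdd w) : D.Bdd (z + w) := by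
  obtain ⟨C, hC⟩ := hz
  obtain ⟨C', hC'⟩ := hw
  refine ⟨C + C', fun f hf => ?_⟩
  rw [pair_add_right]
  exact norm_add_le_of_le (hC f hf) (hC' f hf)

theorem Bdd.smul {z : Γ → 𝕜} (hz : D.Bdd z) (c : 𝕜) : D.Bdd (c • z) := by
  obtain ⟨C, hC⟩ := hz
  refine ⟨‖c‖ * C, fun f hf => ?_⟩
  rw [pair_smul_right, norm_mul]
  exact mul_le_mul_of_nonneg_left (hC f hf) (norm_nonneg _)

theorem Bdd.sub {z w : Γ → 𝕜} (hz : D.Bdd z) (hw : D.Bdd w) : D.Bdd (z - w) := by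
  simpa [sub_eq_add_neg] using hz.add (hw.smul (-1))

theorem Bdd.indicator {z : Γ → 𝕜} (hz : D.Bdd z) {E : Set Γ} (hE : E.OrdConnected) :
    D.Bdd (E.indicator z) := by
  obtain ⟨C, hC⟩ := hz
  exact ⟨C, fun f hf => by rw [← pair_rs]; exact hC _ (hf.restr hE)⟩

theorem W.le_nrm {f : Γ →₀ 𝕜} (hf : D.W f) {z : Γ → 𝕜} (hz : D.Bdd z) : ‖pair f z‖ ≤ D.nrm z := by
  obtain ⟨C, hC⟩ := hz
  exact le_ciSup (f := fun f : {f // D.W f} => ‖pair f.1 z‖)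
    ⟨C, by rintro _ ⟨g, rfl⟩; exact hC _ g.2⟩ ⟨f, hf⟩

theorem W.le_nrm' {f : Γ →₀ 𝕜} (hf : D.W f) (x : Γ →₀ 𝕜) : ‖pair f x‖ ≤ D.nrm x :=
  hf.le_nrm (D.bdd_finsupp x)

theorem nrm_le {z : Γ → 𝕜} {C : ℝ} (h : ∀ f, D.W f → ‖pair f z‖ ≤ C) : D.nrm z ≤ C := by
  have : Nonempty {f // D.W f} := ⟨⟨0, W.zero⟩⟩
  exact ciSup_le fun f => h _ f.2

theorem nrm_nonneg (D : Data 𝕜 Γ) (z : Γ → 𝕜) : 0 ≤ D.nrm z := by
  exact Real.iSup_nonneg fun _ => norm_nonneg _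

@[simp] theorem nrm_zero (D : Data 𝕜 Γ) : D.nrm 0 = 0 := by
  exact le_antisymm (nrm_le fun f _ => by simp) (D.nrm_nonneg _)

theorem nrm_add_le {z w : Γ → 𝕜} (hz : D.Bdd z) (hw : D.Bdd w) :
    D.nrm (z + w) ≤ D.nrm z + D.nrm w := by
  refine nrm_le fun f hf => ?_
  rw [pair_add_right]
  exact norm_add_le_of_le (hf.le_nrm hz) (hf.le_nrm hw)

theorem nrm_smul (D : Data 𝕜 Γ) (c : 𝕜) (z : Γ → 𝕜) : D.nrm (c • z) = ‖c‖ * D.nrm z := by
  simp only [nrm, pair_smul_right, norm_mul]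
  exact (Real.mul_iSup_of_nonneg (norm_nonneg c) _).symm

theorem nrm_sum_le {ι : Type*} (D : Data 𝕜 Γ) (S : Finset ι) (x : ι → Γ →₀ 𝕜) :
    D.nrm ⇑(∑ i ∈ S, x i) ≤ ∑ i ∈ S, D.nrm (x i) := by
  refine nrm_le fun f hf => ?_
  rw [pair_sum_right']
  exact norm_sum_le_of_le _ fun i _ => hf.le_nrm' _

theorem norm_apply_le_nrm {z : Γ → 𝕜} (hz : D.Bdd z) (γ : Γ) : ‖z γ‖ ≤ D.nrm z := by
  simpa using (W.base (D := D) γ 1 D.R.one_mem (by simp)).le_nrm hz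

theorem nrm_pos (D : Data 𝕜 Γ) {x : Γ →₀ 𝕜} (hx : x ≠ 0) : 0 < D.nrm x := by
  obtain ⟨γ, hγ⟩ := Finsupp.ne_iff.1 hx
  exact (norm_pos_iff.2 hγ).trans_le (norm_apply_le_nrm (D.bdd_finsupp x) γ)

theorem nrm_indicator_le {z : Γ → 𝕜} (hz : D.Bdd z) {E : Set Γ} (hE : E.OrdConnected) :
    D.nrm (E.indicator z) ≤ D.nrm z := by
  exact nrm_le fun f hf => by rw [← pair_rs]; exact (hf.restr hE).le_nrm hz

theorem exists_lt_re {z : Γ → 𝕜} {t : ℝ} (h : t < D.nrm z) :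
    ∃ f, D.W f ∧ t < RCLike.re (pair f z) := by
  have : Nonempty {f // D.W f} := ⟨⟨0, W.zero⟩⟩
  obtain ⟨f, hf⟩ := exists_lt_of_lt_ciSup h
  obtain ⟨s, h1, h2⟩ := exists_between hf
  obtain ⟨c, hc, hc1, hc2⟩ := D.exists_rot (pair f.1 z) _ (sub_pos.2 h2)
  exact ⟨c • f.1, f.2.smul hc hc1, by rw [pair_smul_left]; linarith⟩

/-- the same with the support of the functional inside the hull of the vector -/
theorem exists_lt_re_hull {x : Γ →₀ 𝕜} {t : ℝ} (h : t < D.nrm x) :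
    ∃ f, D.W f ∧ (∀ γ ∈ f.support, γ ∈ hull x) ∧ t < RCLike.re (pair f x) := by
  obtain ⟨f, hf, h1⟩ := exists_lt_re h
  refine ⟨rs (hull x) f, hf.restr (hull_ordConnected x), fun γ hγ => (mem_support_rs.1 hγ).2, ?_⟩
  rwa [pair_rs', rs_eq_self fun γ hγ => mem_hull hγ]

/-- The `ℓ²` estimate for segments with disjoint weights.  Enumerate `S` by `range S.card` (pad with
`σ = 0`, `E = univ`), use `W.three'` with coefficients in `R`, and approximate the optimal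
coefficients `conj (s r) / ‖s‖₂` by elements of `R` (density of `R`; shrink by a factor `< 1` first). -/
theorem three_sq {ι : Type*} (S : Finset ι) (σ : ι → ℕ → Γ →₀ 𝕜) (u v : ι → ℕ) (E : ι → Set Γ)
    (hσ : ∀ r ∈ S, D.SpN (σ r)) (hE : ∀ r ∈ S, (E r).OrdConnected)
    (hd : ∀ r ∈ S, ∀ r' ∈ S, r ≠ r' → DisW (σ r) (u r) (v r) (σ r') (u r') (v r'))
    {z : Γ → 𝕜} (hz : D.Bdd z) :
    ∑ r ∈ S, ‖pair (seg (σ r) (u r) (v r) (E r)) z‖ ^ 2 ≤ D.nrm z ^ 2 := by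
  classical
  let en : ℕ → Option ι := fun q => if h : q < S.card then some (S.equivFin.symm ⟨q, h⟩) else none
  let σ' : ℕ → ℕ → Γ →₀ 𝕜 := fun q => (en q).elim 0 σ
  let u' : ℕ → ℕ := fun q => (en q).elim 0 u
  let v' : ℕ → ℕ := fun q => (en q).elim 0 v
  let E' : ℕ → Set Γ := fun q => (en q).elim Set.univ E
  rw [← Finset.sum_coe_sort S, ← Equiv.sum_comp S.equivFin.symm]
  have e1 : ∀ q : Fin S.card, ‖pair (seg (σ (S.equivFin.symm q)) (u (S.equivFin.symm q))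
      (v (S.equivFin.symm q)) (E (S.equivFin.symm q))) z‖ ^ 2 =
      ‖pair (seg (σ' q) (u' q) (v' q) (E' q)) z‖ ^ 2 := fun q => by
    simp [σ', u', v', E', en]
  rw [Finset.sum_congr rfl fun q _ => e1 q, Fin.sum_univ_eq_sum_range
    (fun q => ‖pair (seg (σ' q) (u' q) (v' q) (E' q)) z‖ ^ 2)]
  refine sum_sq_le_of_dense D.R D.R_dense _ _ (D.nrm_nonneg z) fun c hc h1 => ?_
  have hW := W.three' (D := D) (n := S.card) (c := c) (σ := σ') (u := u') (v := v') (E := E')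
    ⟨hc, h1, fun q => ?_, fun q => ?_, fun q hq q' hq' hne => ?_⟩
  · simpa only [pair_sum_left, pair_smul_left] using hW.le_nrm hz
  · simp only [σ', en]
    split_ifs
    exacts [hσ _ (Subtype.prop _), SpN.zero]
  · simp only [E', en]
    split_ifs
    exacts [hE _ (Subtype.prop _), Set.ordConnected_univ]
  · simp only [σ', u', v', en, dif_pos hq, dif_pos hq', Option.elim]
    refine hd _ (Subtype.prop _) _ (Subtype.prop _) fun e => hne ?_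
    simpa using S.equivFin.symm.injective (Subtype.ext e)

end Data

end Crest.Agent.R114
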