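import Crest.Agent.R114.SQ

set_option autoImplicit false
open Filter Topology

namespace Crest.Agent.R114

variable {𝕜 : Type} [RCLike 𝕜] {X : Type*} [NormedAddCommGroup X] [NormedSpace 𝕜 X]

section Aux

variable {F : Type*} [NormedAddCommGroup F] [NormedSpace 𝕜 F]

private theorem onto_of_approx [CompleteSpace X] (f : X →L[𝕜] F) (C : ℝ) (C0 : 0 ≤ C)
    (hC : ∀ y, ∃ x, ‖y - f x‖ ≤ 1 / 2 * ‖y‖ ∧ ‖x‖ ≤ C * ‖y‖) (y : F) :
    ∃ x, f x = y ∧ ‖x‖ ≤ 2 * C * ‖y‖ := by
  choose g hg using hC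
  let h y := y - f (g y)
  have hle : ∀ y, ‖h y‖ ≤ 1 / 2 * ‖y‖ := fun y => (hg y).1
  have hnle : ∀ n : ℕ, ‖h^[n] y‖ ≤ (1 / 2) ^ n * ‖y‖ := by
    intro n
    induction n with
    | zero => simp
    | succ n IH =>
      rw [Function.iterate_succ']
      apply le_trans (hle _) _
      rw [pow_succ', mul_assoc]
      gcongr
  let u n := g (h^[n] y)
  have ule : ∀ n, ‖u n‖ ≤ (1 / 2) ^ n * (C * ‖y‖) := fun n ↦ by
    apply le_trans (hg _).2
    calc
      C * ‖h^[n] y‖ ≤ C * ((1 / 2) ^ n * ‖y‖) := by gcongr; exact hnle n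
      _ = (1 / 2) ^ n * (C * ‖y‖) := by ring
  have sNu : Summable fun n => ‖u n‖ := by
    refine .of_nonneg_of_le (fun n => norm_nonneg _) ule ?_
    exact Summable.mul_right _ (summable_geometric_of_lt_one (by simp) (by norm_num))
  have su : Summable u := sNu.of_norm
  let x := tsum u
  have x_ineq : ‖x‖ ≤ 2 * C * ‖y‖ :=
    calc
      ‖x‖ ≤ ∑' n, ‖u n‖ := norm_tsum_le_tsum_norm sNu
      _ ≤ ∑' n, (1 / 2) ^ n * (C * ‖y‖) :=
        sNu.tsum_le_tsum ule <| Summable.mul_right _ summable_geometric_two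
      _ = (∑' n, (1 / 2) ^ n) * (C * ‖y‖) := tsum_mul_right
      _ = 2 * C * ‖y‖ := by rw [tsum_geometric_two, mul_assoc]
  have fsumeq : ∀ n : ℕ, f (∑ i ∈ Finset.range n, u i) = y - h^[n] y := by
    intro n
    induction n with
    | zero => simp
    | succ n IH =>
      rw [Finset.sum_range_succ, f.map_add, IH, Function.iterate_succ_apply', sub_add]
  have : Tendsto (fun n => ∑ i ∈ Finset.range n, u i) atTop (𝓝 x) := su.hasSum.tendsto_sum_nat
  have L₁ : Tendsto (fun n => f (∑ i ∈ Finset.range n, u i)) atTop (𝓝 (f x)) :=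
    (f.continuous.tendsto _).comp this
  simp only [fsumeq] at L₁
  have L₂ : Tendsto (fun n => y - h^[n] y) atTop (𝓝 (y - 0)) := by
    refine tendsto_const_nhds.sub ?_
    rw [tendsto_iff_norm_sub_tendsto_zero]
    simp only [sub_zero]
    refine squeeze_zero (fun _ => norm_nonneg _) hnle ?_
    rw [← zero_mul ‖y‖]
    refine (_root_.tendsto_pow_atTop_nhds_zero_of_lt_one ?_ ?_).mul tendsto_const_nhds <;> norm_num
  have feq : f x = y - 0 := tendsto_nhds_unique L₁ L₂
  rw [sub_zero] at feq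
  exact ⟨x, feq, x_ineq⟩

/-- If the adjoint is bounded below, the image of a ball is dense in a ball. -/
private theorem approx_of_dual (f : X →L[𝕜] F) (c : ℝ) (hc : 0 < c)
    (hd : ∀ φ : StrongDual 𝕜 F, c * ‖φ‖ ≤ ‖φ.comp f‖) (y : F) :
    ∃ x, ‖y - f x‖ ≤ 1 / 2 * ‖y‖ ∧ ‖x‖ ≤ (2 / c) * ‖y‖ := by
  rcases eq_or_ne y 0 with rfl | hy
  · exact ⟨0, by simp, by simp⟩
  have hy' : 0 < ‖y‖ := norm_pos_iff.2 hy
  letI : NormedSpace ℝ F := NormedSpace.restrictScalars ℝ 𝕜 F
  letI : NormedSpace ℝ X := NormedSpace.restrictScalars ℝ 𝕜 X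
  haveI : IsScalarTower ℝ 𝕜 F := RestrictScalars.isScalarTower ℝ 𝕜 F
  haveI : IsScalarTower ℝ 𝕜 X := RestrictScalars.isScalarTower ℝ 𝕜 X
  set R : ℝ := (2 / c) * ‖y‖ with hR
  have hR0 : 0 < R := by positivity
  let K : Set F := closure (f '' Metric.closedBall (0 : X) R)
  have hKc : Convex ℝ K := by
    refine Convex.closure ?_
    exact (convex_closedBall (0 : X) R).linear_image (f.restrictScalars ℝ).toLinearMap
  have hmem : y ∈ K := by
    by_contra hn
    obtain ⟨φ, u, h1, h2⟩ :=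
      RCLike.geometric_hahn_banach_closed_point (𝕜 := 𝕜) hKc isClosed_closure hn
    have hu0 : 0 < u := by
      have := h1 0 (subset_closure ⟨0, by simp [hR0.le], by simp⟩)
      simpa using this
    have hb : ‖φ.comp f‖ ≤ u / R := by
      refine ContinuousLinearMap.opNorm_le_bound _ (by positivity) fun x => ?_
      rcases eq_or_ne x 0 with rfl | hx
      · simp
      have hx' : 0 < ‖x‖ := norm_pos_iff.2 hx
      rcases eq_or_ne (φ (f x)) 0 with h0 | h0
      · simp only [ContinuousLinearMap.comp_apply, h0, norm_zero]; positivity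
      have hn0 : 0 < ‖φ (f x)‖ := norm_pos_iff.2 h0
      set t : 𝕜 := ((R / ‖x‖ : ℝ) : 𝕜) * (((‖φ (f x)‖ : ℝ) : 𝕜) / φ (f x)) with ht
      have htn : ‖t‖ = R / ‖x‖ := by
        rw [ht, norm_mul, norm_div, RCLike.norm_ofReal, RCLike.norm_ofReal, abs_norm,
          div_self hn0.ne', mul_one, abs_of_pos (by positivity)]
      have hm : f (t • x) ∈ K := by
        refine subset_closure ⟨t • x, ?_, rfl⟩
        rw [mem_closedBall_zero_iff, norm_smul, htn, div_mul_cancel₀ _ hx'.ne']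
      have h3 := h1 _ hm
      have h4 : φ (f (t • x)) = ((R / ‖x‖ * ‖φ (f x)‖ : ℝ) : 𝕜) := by
        rw [map_smul, map_smul, smul_eq_mul, ht]
        push_cast
        field_simp
      rw [h4, RCLike.ofReal_re] at h3
      simp only [ContinuousLinearMap.comp_apply]
      rw [div_mul_eq_mul_div, div_lt_iff₀ hx'] at h3
      rw [div_mul_eq_mul_div, le_div_iff₀ hR0]
      nlinarith
    have h5 : u < ‖φ‖ * ‖y‖ :=
      h2.trans_le ((RCLike.re_le_norm _).trans (φ.le_opNorm y))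
    have h6 := (hd φ).trans hb
    rw [le_div_iff₀ hR0, hR] at h6
    have h7 : c * ‖φ‖ * (2 / c * ‖y‖) = 2 * (‖φ‖ * ‖y‖) := by field_simp
    rw [h7] at h6
    linarith
  obtain ⟨z, ⟨x, hx, rfl⟩, hz⟩ := Metric.mem_closure_iff.1 hmem (1 / 2 * ‖y‖) (by positivity)
  refine ⟨x, ?_, mem_closedBall_zero_iff.1 hx⟩
  rw [← dist_eq_norm]
  exact hz.le

end Aux

/-- A sequence of functionals with an upper `ℓ²` estimate on vectors and a lower `ℓ²` estimate on
linear combinations gives the quotient `ℓ²`.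
Sketch: `S : X →L ℓ²(ℕ, 𝕜)`, `S x = (y i x)_i`, `‖S‖ ≤ 1`.  For `a ∈ ℓ²`, the functional
`x ↦ ⟪a, S x⟫` has norm `≥ c ‖a‖` (true for finitely supported `a`, then density/continuity).
Hence `closure (S '' closedBall 0 1) ⊇ ball 0 c`: otherwise project `b` (`‖b‖ < c`) on the closed
convex balanced set `K` (`exists_norm_eq_iInf_of_complete_convex`,
`norm_eq_iInf_iff_real_inner_le_zero` / or `RCLike.geometric_hahn_banach_point_closed`), get
`a ≠ 0` with `re ⟪a, S x⟫ ≤ re ⟪a, b⟫ ≤ ‖a‖ ‖b‖ < c ‖a‖` on the unit ball, contradiction (rotate `x`).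
Successive approximation (as in the open mapping theorem, or `controlled_closure_range_of_complete`)
shows that `S` is onto.  Then either `X ⧸ ker S ≃L ℓ²`, or use `sq_of_tail`/`sq_of_dense` with
`u k` a preimage of `lp.single 2 k 1` and the open mapping constant. -/
theorem sq_of_l2 [CompleteSpace X] (y : ℕ → StrongDual 𝕜 X) (c : ℝ) (hc : 0 < c)
    (hup : ∀ (x : X) (n : ℕ), ∑ i ∈ Finset.range n, ‖y i x‖ ^ 2 ≤ ‖x‖ ^ 2)
    (hlo : ∀ (n : ℕ) (a : ℕ → 𝕜),
      c ^ 2 * ∑ i ∈ Finset.range n, ‖a i‖ ^ 2 ≤ ‖∑ i ∈ Finset.range n, a i • y i‖ ^ 2) :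
    SQ 𝕜 X := by
  classical
  have hsum : ∀ (x : X) (s : Finset ℕ),
      ∑ i ∈ s, ‖y i x‖ ^ (2 : ENNReal).toReal ≤ ‖x‖ ^ (2 : ENNReal).toReal := by
    intro x s
    obtain ⟨n, hn⟩ := s.exists_nat_subset_range
    simp only [ENNReal.toReal_ofNat, Real.rpow_ofNat]
    exact (Finset.sum_le_sum_of_subset_of_nonneg hn fun _ _ _ => by positivity).trans (hup x n)
  let S₀ : X →ₗ[𝕜] lp (fun _ : ℕ => 𝕜) 2 :=
    { toFun := fun x => ⟨fun i => y i x, memℓp_gen' (hsum x)⟩
      map_add' := fun a b => by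
        ext i
        simp
      map_smul' := fun r a => by
        ext i
        simp }
  have hS₀ : ∀ x, ‖S₀ x‖ ≤ 1 * ‖x‖ := fun x => by
    rw [one_mul]
    exact lp.norm_le_of_forall_sum_le (by simp) (norm_nonneg _) (hsum x)
  let S : X →L[𝕜] lp (fun _ : ℕ => 𝕜) 2 := S₀.mkContinuous 1 hS₀
  have hS : ∀ x i, S x i = y i x := fun _ _ => rfl
  have hd : ∀ φ : StrongDual 𝕜 (lp (fun _ : ℕ => 𝕜) 2), c * ‖φ‖ ≤ ‖φ.comp S‖ := by
    intro φ
    obtain ⟨a, rfl⟩ := (InnerProductSpace.toDual 𝕜 (lp (fun _ : ℕ => 𝕜) 2)).surjective φ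
    have hlim := (lp.hasSum_single (E := fun _ : ℕ => 𝕜) (p := 2) (by simp) a).tendsto_sum_nat
    have hc1 : Continuous fun b : lp (fun _ : ℕ => 𝕜) 2 =>
        c * ‖InnerProductSpace.toDual 𝕜 (lp (fun _ : ℕ => 𝕜) 2) b‖ := by fun_prop
    have hc2 : Continuous fun b : lp (fun _ : ℕ => 𝕜) 2 =>
        ‖(InnerProductSpace.toDual 𝕜 (lp (fun _ : ℕ => 𝕜) 2) b).comp S‖ := by
      refine continuous_norm.comp ?_
      exact ((InnerProductSpace.toDual 𝕜 (lp (fun _ : ℕ => 𝕜) 2)).continuous).clm_comp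
        continuous_const
    refine le_of_tendsto_of_tendsto' ((hc1.tendsto a).comp hlim) ((hc2.tendsto a).comp hlim)
      fun n => ?_
    simp only [Function.comp_apply, LinearIsometryEquiv.norm_map]
    have e1 : (InnerProductSpace.toDual 𝕜 (lp (fun _ : ℕ => 𝕜) 2)
        (∑ i ∈ Finset.range n, lp.single 2 i (a i))).comp S
        = ∑ i ∈ Finset.range n, (starRingEnd 𝕜 (a i)) • y i := by
      ext x
      simp only [ContinuousLinearMap.comp_apply, InnerProductSpace.toDual_apply_apply, sum_inner,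
        lp.inner_single_left, hS, ContinuousLinearMap.sum_apply, ContinuousLinearMap.smul_apply,
        smul_eq_mul]
      refine Finset.sum_congr rfl fun i _ => ?_
      simp [mul_comm]
    have e2 : ‖∑ i ∈ Finset.range n, lp.single (E := fun _ : ℕ => 𝕜) 2 i (a i)‖ ^ 2
        = ∑ i ∈ Finset.range n, ‖starRingEnd 𝕜 (a i)‖ ^ 2 := by
      have := lp.norm_sum_single (E := fun _ : ℕ => 𝕜) (p := 2) (by simp) a (Finset.range n)
      simpa only [ENNReal.toReal_ofNat, Real.rpow_ofNat, RCLike.norm_conj] using this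
    rw [e1]
    refine (pow_le_pow_iff_left₀ (by positivity) (norm_nonneg _) two_ne_zero).1 ?_
    rw [mul_pow, e2]
    exact hlo n _
  have honto := onto_of_approx S (2 / c) (by positivity) (approx_of_dual S c hc hd)
  choose g hg hgn using honto
  refine sq_of_dense y (fun k => g (lp.single 2 k 1)) ⟨fun k => ?_, fun k l hkl => ?_⟩ ?_
  · rw [← hS, hg, lp.single_apply_self]
  · rw [← hS, hg, lp.single_apply_ne _ _ _ hkl]
  · intro x
    have hlim := (lp.hasSum_single (E := fun _ : ℕ => 𝕜) (p := 2) (by simp) (S x)).tendsto_sum_nat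
    let t : ℕ → lp (fun _ : ℕ => 𝕜) 2 := fun n =>
      S x - ∑ i ∈ Finset.range n, lp.single 2 i (S x i)
    have ht : Tendsto t atTop (𝓝 0) := by
      have := (tendsto_const_nhds (x := S x)).sub hlim
      simpa using this
    have hg0 : Tendsto (fun n => g (t n)) atTop (𝓝 0) := by
      rw [tendsto_zero_iff_norm_tendsto_zero] at ht ⊢
      refine squeeze_zero (fun _ => norm_nonneg _) (fun n => hgn (t n)) ?_
      simpa using ht.const_mul (2 * (2 / c))
    have hx : Tendsto (fun n => x - g (t n)) atTop (𝓝 x) := by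
      simpa using (tendsto_const_nhds (x := x)).sub hg0
    refine mem_closure_of_tendsto hx (Eventually.of_forall fun n => ?_)
    refine (eventually_ge_atTop n).mono fun k hk => ?_
    rw [← hS, map_sub, hg]
    simp only [t, sub_sub_cancel, lp.coeFn_sum, Finset.sum_apply]
    refine Finset.sum_eq_zero fun i hi => ?_
    exact lp.single_apply_ne _ _ _ (by have := Finset.mem_range.1 hi; omega)

end Crest.Agent.R114
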