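import Crest.Prelude.Def_ContinuumRVM

set_option autoImplicit false
open MeasureTheory

namespace Crest.Agent.R114

/-- the real line with the discrete `σ`-algebra -/
structure PartR where
  val : ℝ

instance : MeasurableSpace PartR := ⊤

instance : DiscreteMeasurableSpace PartR := ⟨fun _ => trivial⟩

theorem part_cdf_le (μ : Measure ℝ) [IsProbabilityMeasure μ] [NullSingletonClass μ] (a b : ℝ) :
    μ {t | a ≤ ProbabilityTheory.cdf μ t ∧ ProbabilityTheory.cdf μ t ≤ b} ≤
      ENNReal.ofReal (b - a) := by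
  have hmono := ProbabilityTheory.monotone_cdf μ
  have hm : MeasurableSet
      {t | a ≤ ProbabilityTheory.cdf μ t ∧ ProbabilityTheory.cdf μ t ≤ b} :=
    hmono.measurable (measurableSet_Icc (a := a) (b := b))
  rw [hm.measure_eq_iSup_isCompact]
  refine iSup_le fun K => iSup_le fun hK => iSup_le fun hc => ?_
  rcases K.eq_empty_or_nonempty with rfl | hne
  · simp
  obtain ⟨s, hs⟩ := hc.exists_isLeast hne
  obtain ⟨t, ht⟩ := hc.exists_isGreatest hne
  have h1 : K ⊆ Set.Icc s t := fun x hx => ⟨hs.2 hx, ht.2 hx⟩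
  refine (measure_mono h1).trans ?_
  rw [← measure_congr (Ioc_ae_eq_Icc (μ := μ) (a := s) (b := t))]
  conv_lhs => rw [← ProbabilityTheory.measure_cdf μ]
  rw [StieltjesFunction.measure_Ioc]
  refine ENNReal.ofReal_le_ofReal ?_
  have h2 := (hK hs.1).1
  have h3 := (hK ht.1).2
  linarith

/-- A total probability measure with fine partitions.
Sketch: `Ω` a type synonym (or one-field structure) of `ℝ` with the `σ`-algebra `⊤`;
`ν = Measure.ofMeasurable (fun s _ => m s) …` (`m ∅ = 0` from the empty family, or from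
`m univ = 1` and additivity; countable additivity from `ι = ℕ`, `Cardinal.aleph0_lt_continuum`).
`F t = ν (Iic t)` (real valued); for `a ≤ b` the set `I = {t | a ≤ F t ≤ b}` is an interval and
`ν I ≤ b - a` (for `s < t` in `I`, `ν (Ioc s t) = F t - F s ≤ b - a`; `I` is, up to the null
endpoints, an increasing countable union of such `Ioc`; singletons are null).
`c t = min ⌊M * F t⌋₊ (M - 1)`. -/
theorem exists_total (hc : Crest.AnalysisR.ContinuumRVM) :
    ∃ (Ω : Type) (_ : MeasurableSpace Ω) (_ : DiscreteMeasurableSpace Ω) (ν : Measure Ω),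
      IsProbabilityMeasure ν ∧ ∀ M : ℕ, 0 < M → ∃ c : Ω → ℕ, (∀ ξ, c ξ < M) ∧
        ∀ i, ν {ξ | c ξ = i} ≤ (M : ENNReal)⁻¹ := by
  obtain ⟨m, h1, h0, hadd⟩ := hc
  have hemp : m ∅ = 0 := by
    have := hadd Empty (fun _ => ∅) (by simp [Cardinal.continuum_pos]) (fun i => i.elim)
    simpa using this
  have hinj : Function.Injective PartR.val := fun x y h => by
    cases x
    cases y
    simpa using h
  let ν : Measure PartR := Measure.ofMeasurable (fun s _ => m (PartR.val '' s))
    (by simpa using hemp) (fun f _ hd => by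
      rw [Set.image_iUnion]
      refine hadd ℕ _ (by simpa using Cardinal.aleph0_lt_continuum) fun i j hij => ?_
      exact (Set.disjoint_image_iff hinj).2 (hd hij))
  have hν : ∀ s, ν s = m (PartR.val '' s) := fun s =>
    Measure.ofMeasurable_apply s MeasurableSet.of_discrete
  have hsurj : Function.Surjective PartR.val := fun x => ⟨⟨x⟩, rfl⟩
  have hP : IsProbabilityMeasure ν := ⟨by rw [hν, Set.image_univ, hsurj.range_eq, h1]⟩
  have hmeas : Measurable PartR.val := Measurable.of_discrete
  let μ : Measure ℝ := ν.map PartR.val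
  have hμP : IsProbabilityMeasure μ := Measure.isProbabilityMeasure_map hmeas.aemeasurable
  have hμ0 : NullSingletonClass μ := ⟨fun x => by
    rw [Measure.map_apply hmeas (measurableSet_singleton x), hν, hsurj.image_preimage, h0]⟩
  refine ⟨PartR, inferInstance, inferInstance, ν, hP, fun M hM => ?_⟩
  have hM' : (0 : ℝ) < M := by exact_mod_cast hM
  refine ⟨fun ξ => min ⌊(M : ℝ) * ProbabilityTheory.cdf μ ξ.val⌋₊ (M - 1),
    fun ξ => lt_of_le_of_lt (min_le_right _ _) (by omega), fun i => ?_⟩
  have hmono := ProbabilityTheory.monotone_cdf μ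
  have hm : MeasurableSet {t | (i : ℝ) / M ≤ ProbabilityTheory.cdf μ t ∧
      ProbabilityTheory.cdf μ t ≤ (i + 1) / M} :=
    hmono.measurable (measurableSet_Icc (a := (i : ℝ) / M) (b := (i + 1) / M))
  have h2 := part_cdf_le μ ((i : ℝ) / M) ((i + 1) / M)
  rw [Measure.map_apply hmeas hm] at h2
  have h3 : ENNReal.ofReal (((i : ℝ) + 1) / M - i / M) = (M : ENNReal)⁻¹ := by
    have : ((i : ℝ) + 1) / M - i / M = (M : ℝ)⁻¹ := by field_simp; ring
    rw [this, ENNReal.ofReal_inv_of_pos hM', ENNReal.ofReal_natCast]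
  rw [h3] at h2
  refine (measure_mono fun ξ hξ => ?_).trans h2
  simp only [Set.mem_ofPred_eq] at hξ
  have h4 := ProbabilityTheory.cdf_nonneg μ ξ.val
  have h5 := ProbabilityTheory.cdf_le_one μ ξ.val
  have h6 : 0 ≤ (M : ℝ) * ProbabilityTheory.cdf μ ξ.val := mul_nonneg hM'.le h4
  refine ⟨?_, ?_⟩
  · rw [div_le_iff₀ hM', mul_comm]
    refine (Nat.le_floor_iff h6).1 ?_
    omega
  · rw [le_div_iff₀ hM', mul_comm]
    by_cases h7 : ⌊(M : ℝ) * ProbabilityTheory.cdf μ ξ.val⌋₊ = i
    · rw [← h7]
      exact (Nat.lt_floor_add_one _).le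
    · have h8 : i + 1 = M := by omega
      have h9 : (i : ℝ) + 1 = M := by exact_mod_cast h8
      rw [h9]
      exact mul_le_of_le_one_right hM'.le h5

end Crest.Agent.R114
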