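import Crest.Agent.R114.SQ
import Crest.Agent.R114.Fam
import Crest.Agent.R114.Part
import Crest.Agent.R114.Gen
import Crest.Agent.R114.Lift

set_option autoImplicit false
open MeasureTheory

namespace Crest.Agent.R114

variable {𝕜 : Type} [RCLike 𝕜] {X : Type*} [NormedAddCommGroup X] [NormedSpace 𝕜 X]

/-- Norm-one functionals with uniformly bounded coordinate restrictions. -/
def PropP (φ : ℕ → StrongDual 𝕜 X) : Prop :=
  (∀ n, ‖φ n‖ = 1) ∧ ∀ (F : Finset ℕ) (x : X), ∃ u : X, ‖u‖ ≤ 2 * ‖x‖ ∧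
    (∀ n ∈ F, φ n u = φ n x) ∧ ∀ n ∉ F, φ n u = 0

namespace PPAux

/-- Averaging over a fine partition. -/
theorem lintegral_part_le {Ω : Type} [MeasurableSpace Ω] [DiscreteMeasurableSpace Ω]
    (ν : Measure Ω) (M : ℕ) (c : Ω → ℕ) (hc1 : ∀ ξ, c ξ < M)
    (hc2 : ∀ i, ν {ξ | c ξ = i} ≤ (M : ENNReal)⁻¹) (a : ℕ → ENNReal) :
    ∫⁻ ξ, a (c ξ) ∂ν ≤ (∑ i ∈ Finset.range M, a i) * (M : ENNReal)⁻¹ := by
  classical
  have h1 : ∀ ξ, a (c ξ) =
      ∑ i ∈ Finset.range M, Set.indicator {ξ | c ξ = i} (fun _ => a i) ξ := by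
    intro ξ
    rw [Finset.sum_eq_single (c ξ)]
    · rw [Set.indicator_of_mem (by simp)]
    · intro i _ hi
      exact Set.indicator_of_notMem (by simpa using hi.symm) _
    · intro h
      exact absurd (Finset.mem_range.2 (hc1 ξ)) h
  simp_rw [h1]
  rw [lintegral_finsetSum _ (fun i _ => Measurable.of_discrete), Finset.sum_mul]
  refine Finset.sum_le_sum fun i _ => ?_
  rw [lintegral_indicator_const MeasurableSet.of_discrete]
  exact mul_le_mul_right (hc2 i) _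

theorem sum_le_of_sq (M k : ℕ) (a : ℕ → ℝ) (B : ℝ)
    (h : ∑ i ∈ Finset.range M, a i ^ 2 ≤ M / 4 ^ k * B) :
    ∑ i ∈ Finset.range M, a i ≤ M * ((1 + B) * (1 / 2) ^ k) := by
  have ht : (0 : ℝ) < 2 ^ k := by positivity
  have h4 : (4 : ℝ) ^ k = 2 ^ k * 2 ^ k := by rw [← mul_pow]; norm_num
  have h1 : ∀ i, a i ≤ 1 / 2 ^ k + 2 ^ k * a i ^ 2 := by
    intro i
    have h2 : 2 ^ k * a i ≤ 1 + (2 ^ k * a i) ^ 2 := by nlinarith [sq_nonneg (2 ^ k * a i - 1)]
    have h3 : 1 / 2 ^ k + 2 ^ k * a i ^ 2 = (1 + (2 ^ k * a i) ^ 2) / 2 ^ k := by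
      field_simp
    rw [h3, le_div_iff₀ ht]
    linarith
  calc ∑ i ∈ Finset.range M, a i
      ≤ ∑ i ∈ Finset.range M, (1 / 2 ^ k + 2 ^ k * a i ^ 2) := Finset.sum_le_sum fun i _ => h1 i
    _ = M * (1 / 2 ^ k) + 2 ^ k * ∑ i ∈ Finset.range M, a i ^ 2 := by
        rw [Finset.sum_add_distrib, Finset.sum_const, Finset.card_range, nsmul_eq_mul,
          Finset.mul_sum]
    _ ≤ M * (1 / 2 ^ k) + 2 ^ k * (M / 4 ^ k * B) := by gcongr
    _ = M * ((1 + B) * (1 / 2) ^ k) := by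
        rw [h4, one_div_pow]
        field_simp

theorem ae_summable {Ω : Type} [MeasurableSpace Ω] [DiscreteMeasurableSpace Ω]
    (ν : Measure Ω) (M : ℕ → ℕ) (hM : ∀ k, 0 < M k) (c : ℕ → Ω → ℕ) (hc1 : ∀ k ξ, c k ξ < M k)
    (hc2 : ∀ k i, ν {ξ | c k ξ = i} ≤ (M k : ENNReal)⁻¹) (y : ℕ → ℕ → StrongDual 𝕜 X) (x : X)
    (hsum : ∀ k, ∑ i ∈ Finset.range (M k), ‖y k i x‖ ^ 2 ≤ M k / 4 ^ k * ‖x‖ ^ 2) :
    ∀ᵐ ξ ∂ν, Summable fun k => ‖y k (c k ξ) x‖ := by
  have h1 : ∀ k, ∫⁻ ξ, ‖y k (c k ξ) x‖ₑ ∂ν ≤ ENNReal.ofReal ((1 + ‖x‖ ^ 2) * (1 / 2) ^ k) := by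
    intro k
    refine (lintegral_part_le ν (M k) (c k) (hc1 k) (hc2 k) fun i => ‖y k i x‖ₑ).trans ?_
    have h2 := sum_le_of_sq (M k) k (fun i => ‖y k i x‖) _ (hsum k)
    have h3 : ∑ i ∈ Finset.range (M k), ‖y k i x‖ₑ =
        ENNReal.ofReal (∑ i ∈ Finset.range (M k), ‖y k i x‖) := by
      rw [ENNReal.ofReal_sum_of_nonneg fun i _ => norm_nonneg _]
      exact Finset.sum_congr rfl fun i _ => (ofReal_norm_eq_enorm _).symm
    have hM0 : (M k : ENNReal) ≠ 0 := by exact_mod_cast (hM k).ne'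
    rw [h3, ← div_eq_mul_inv, ENNReal.div_le_iff hM0 (ENNReal.natCast_ne_top _)]
    refine (ENNReal.ofReal_le_ofReal h2).trans ?_
    rw [ENNReal.ofReal_mul (Nat.cast_nonneg _), ENNReal.ofReal_natCast, mul_comm]
  have hs : Summable fun k : ℕ => (1 + ‖x‖ ^ 2) * (1 / 2 : ℝ) ^ k :=
    summable_geometric_two.mul_left _
  have h2 : ∫⁻ ξ, ∑' k, ‖y k (c k ξ) x‖ₑ ∂ν ≠ ⊤ := by
    rw [lintegral_tsum fun k => Measurable.of_discrete.aemeasurable]
    refine ne_top_of_le_ne_top ?_ (ENNReal.tsum_le_tsum h1)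
    rw [← ENNReal.ofReal_tsum_of_nonneg (fun k => by positivity) hs]
    exact ENNReal.ofReal_ne_top
  filter_upwards [ae_lt_top Measurable.of_discrete h2] with ξ hξ
  exact tsum_enorm_ne_top_iff_summable_norm.1 hξ.ne

theorem measurableSet_summable {Ω B : Type} [MeasurableSpace Ω] [DiscreteMeasurableSpace Ω]
    (c : ℕ → Ω → ℕ) (y : ℕ → ℕ → StrongDual 𝕜 X) (x : B → X) :
    @MeasurableSet (Ω × B) (@Prod.instMeasurableSpace Ω B _ ⊤)
      {p | Summable fun k => ‖y k (c k p.1) (x p.2)‖} := by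
  letI : MeasurableSpace B := ⊤
  have h1 : ∀ k, Measurable fun p : Ω × B => ‖y k (c k p.1) (x p.2)‖ₑ := by
    intro k
    have h2 : Measurable fun q : ℕ × B => ‖y k q.1 (x q.2)‖ₑ :=
      measurable_from_prod_countable_right fun _ => measurable_from_top
    have h3 : Measurable fun p : Ω × B => (c k p.1, p.2) :=
      ((Measurable.of_discrete (f := c k)).comp measurable_fst).prodMk measurable_snd
    exact h2.comp h3
  have h2 : {p : Ω × B | Summable fun k => ‖y k (c k p.1) (x p.2)‖} =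
      (fun p : Ω × B => ∑' k, ‖y k (c k p.1) (x p.2)‖ₑ) ⁻¹' {⊤}ᶜ := by
    ext p
    simp only [Set.mem_setOf_eq, Set.mem_preimage, Set.mem_compl_iff, Set.mem_singleton_iff]
    exact tsum_enorm_ne_top_iff_summable_norm.symm
  rw [h2]
  exact Measurable.ennreal_tsum h1 (measurableSet_singleton _).compl

/-- The vectors with absolutely summable coordinates. -/
def summ (z : ℕ → StrongDual 𝕜 X) : Submodule 𝕜 X where
  carrier := {x | Summable fun k => ‖z k x‖}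
  zero_mem' := by simp [summable_zero]
  add_mem' := by
    intro a b ha hb
    refine Summable.of_nonneg_of_le (fun _ => norm_nonneg _) (fun k => ?_) (Summable.add ha hb)
    rw [map_add]
    exact norm_add_le _ _
  smul_mem' := by
    intro r a ha
    have h := Summable.mul_left ‖r‖ ha
    refine h.congr fun k => ?_
    rw [map_smul, norm_smul]

end PPAux

/-- Sketch: `exists_total` gives `Ω, ν`; `exists_fam` gives `M, y, u`; `c k : Ω → ℕ` the partition
for `M k`.  `R ξ x := Summable fun k => ‖y k (c k ξ) x‖`; `D ξ = {x | R ξ x}` is a submodule.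
(a) `∀ x, ∀ᵐ ξ, R ξ x`: `∫ ‖y k (c k ξ) x‖² ≤ (M k)⁻¹ ∑_i ‖y k i x‖² ≤ 4^{-k} ‖x‖²`, so
`∫⁻ ∑' k, 2^k ‖y k (c k ξ) x‖² < ∞`, finite a.e., and then `‖y k (c k ξ) x‖ ≤ C 2^{-k/2}`.
(b) If some `D ξ` is dense: `sq_of_l1` with `y k (c k ξ)`, `u k (c k ξ)`.  Otherwise choose `φ ξ` by
`exists_norm_one_vanish`, `Q A` by `exists_lift_finset` for `A.image φ`, and
`S ξ A := ∀ x ∈ Q A, R ξ x`.  Measurability for the product of `⊤ ⊗ ⊤`: enumerate `Q A` as
`x j A` (`j : ℕ`, default `0`, e.g. `(Q A).toList.getD j 0`); `R ξ (x j A)` iff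
`∑' k, ofReal ‖y k (c k ξ) (x j A)‖ ≠ ⊤`, and each term is a measurable function of
`(c k ξ, A)` (`measurable_from_prod_countable_right`/`_left`, or a countable union of rectangles).
`exists_generic` gives `ξ n`; take `φ (ξ n)`. -/
theorem sq_or_propP [CompleteSpace X] (hc : Crest.AnalysisR.ContinuumRVM)
    (hX : ¬ FiniteDimensional 𝕜 X) : SQ 𝕜 X ∨ ∃ φ : ℕ → StrongDual 𝕜 X, PropP φ := by
  classical
  obtain ⟨Ω, mΩ, dΩ, ν, hν, hpart⟩ := exists_total hc
  obtain ⟨M, y, u, hM, hu, horth, hsum⟩ := exists_fam (𝕜 := 𝕜) (X := X) hX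
  choose c hc1 hc2 using fun k => hpart (M k) (hM k)
  have ha : ∀ x : X, ∀ᵐ ξ ∂ν, Summable fun k => ‖y k (c k ξ) x‖ := fun x =>
    PPAux.ae_summable ν M hM c hc1 hc2 y x fun k => hsum k x
  by_cases hd : ∃ ξ, Dense {x : X | Summable fun k => ‖y k (c k ξ) x‖}
  · obtain ⟨ξ, hξ⟩ := hd
    left
    exact sq_of_l1 (fun k => y k (c k ξ)) (fun k => u k (c k ξ))
      ⟨fun k => (hu k _ (hc1 k ξ)).2, fun k l hkl => horth k l hkl _ (hc1 k ξ) _ (hc1 l ξ)⟩ 2
      (fun k => (hu k _ (hc1 k ξ)).1) hξ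
  · right
    have hnd : ∀ ξ, ¬ Dense ((PPAux.summ fun k => y k (c k ξ) : Submodule 𝕜 X) : Set X) :=
      fun ξ h => hd ⟨ξ, h⟩
    choose φ hφ1 hφ2 using fun ξ => exists_norm_one_vanish _ (hnd ξ)
    choose Q hQ using fun A : Finset Ω => exists_lift_finset (𝕜 := 𝕜) (X := X) (A.image φ)
    have hmeas : @MeasurableSet (Ω × Finset Ω) (@Prod.instMeasurableSpace Ω (Finset Ω) _ ⊤)
        {p | ∀ x ∈ Q p.2, Summable fun k => ‖y k (c k p.1) x‖} := by
      have h1 : {p : Ω × Finset Ω | ∀ x ∈ Q p.2, Summable fun k => ‖y k (c k p.1) x‖} =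
          ⋂ j : ℕ, {p | Summable fun k => ‖y k (c k p.1) ((Q p.2).toList.getD j 0)‖} := by
        ext p
        simp only [Set.mem_setOf_eq, Set.mem_iInter]
        constructor
        · intro h j
          by_cases hj : j < (Q p.2).toList.length
          · rw [List.getD_eq_getElem _ _ hj]
            exact h _ (Finset.mem_toList.1 (List.getElem_mem hj))
          · rw [List.getD_eq_default _ _ (not_lt.1 hj)]
            simp [summable_zero]
        · intro h x hx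
          obtain ⟨j, hj, rfl⟩ := List.getElem_of_mem (Finset.mem_toList.2 hx)
          have := h j
          rwa [List.getD_eq_getElem _ _ hj] at this
      rw [h1]
      exact MeasurableSet.iInter fun j =>
        PPAux.measurableSet_summable c y fun A => (Q A).toList.getD j 0
    obtain ⟨ξ, hξ⟩ := exists_generic ν
      (fun η A => ∀ x ∈ Q A, Summable fun k => ‖y k (c k η) x‖) hmeas
      (fun A => (Filter.eventually_all_finset (Q A)).2 fun x _ => ha x)
    refine ⟨fun n => φ (ξ n), fun n => hφ1 _, fun F x => ?_⟩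
    obtain ⟨v, hv, hv1, hv2⟩ := hQ (F.image ξ) x
    refine ⟨v, hv1, fun n hn => ?_, fun n hn => ?_⟩
    · exact hv2 _ (Finset.mem_image_of_mem _ (Finset.mem_image_of_mem _ hn))
    · refine hφ2 _ v (Submodule.span_le.2 (fun z hz => ?_) hv)
      exact hξ F n hn z hz

end Crest.Agent.R114
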