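import Mathlib

/-!
Row 114, part S0153: three elementary criteria for a separable infinite-dimensional quotient.
-/

set_option autoImplicit false
open Filter Topology

namespace Crest.Agent.R114

/-- `X` has a separable infinite-dimensional quotient. -/
def SQ (𝕜 : Type) [RCLike 𝕜] (X : Type*) [NormedAddCommGroup X] [NormedSpace 𝕜 X] : Prop :=
  ∃ M : Submodule 𝕜 X, IsClosed (M : Set X) ∧
    TopologicalSpace.SeparableSpace (X ⧸ M) ∧ ¬ FiniteDimensional 𝕜 (X ⧸ M)

variable {𝕜 : Type} [RCLike 𝕜] {X : Type*} [NormedAddCommGroup X] [NormedSpace 𝕜 X]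

/-- A biorthogonal system. -/
def Biorth (y : ℕ → StrongDual 𝕜 X) (u : ℕ → X) : Prop :=
  (∀ k, y k (u k) = 1) ∧ ∀ k l, k ≠ l → y k (u l) = 0

/-- Take `M = ⋂ ker (y k)`.  For `x` with `y k x = 0` for `k ≥ m`, `x - ∑_{k<m} y k x • u k ∈ M`, so
the classes of the `u k` span a dense subspace of `X ⧸ M` (separable: countable span,
`TopologicalSpace.IsSeparable.span`, `IsSeparable.closure`, `isSeparable_univ_iff`);
the classes of the `u k` are linearly independent (apply `y k`), so the quotient is
infinite-dimensional. -/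
theorem sq_of_dense (y : ℕ → StrongDual 𝕜 X) (u : ℕ → X) (h : Biorth y u)
    (hd : Dense {x : X | ∀ᶠ k in atTop, y k x = 0}) : SQ 𝕜 X := by
  classical
  let M : Submodule 𝕜 X := ⨅ k, LinearMap.ker (y k : X →ₗ[𝕜] 𝕜)
  have hM : ∀ x, x ∈ M ↔ ∀ k, y k x = 0 := fun x => by simp [M, Submodule.mem_iInf]
  have hcl : IsClosed (M : Set X) := by
    have : (M : Set X) = ⋂ k, {x | y k x = 0} := by
      ext x
      simp [hM]
    rw [this]
    exact isClosed_iInter fun k => isClosed_eq (y k).continuous continuous_const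
  have hy : ∀ k l, y k (u l) = if k = l then 1 else 0 := fun k l => by
    split_ifs with hkl
    · rw [hkl]; exact h.1 l
    · exact h.2 k l hkl
  refine ⟨M, hcl, ?_, ?_⟩
  · have h1 : TopologicalSpace.IsSeparable
        (Submodule.span 𝕜 (Set.range fun k => M.mkQ (u k)) : Set (X ⧸ M)) :=
      (Set.countable_range _).isSeparable.span
    have hc : Continuous M.mkQ := continuous_quot_mk
    have h2 : Dense (M.mkQ '' {x : X | ∀ᶠ k in atTop, y k x = 0}) :=
      M.mkQ_surjective.denseRange.dense_image hc hd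
    have h3 : M.mkQ '' {x : X | ∀ᶠ k in atTop, y k x = 0} ⊆
        (Submodule.span 𝕜 (Set.range fun k => M.mkQ (u k)) : Set (X ⧸ M)) := by
      rintro _ ⟨x, hx, rfl⟩
      obtain ⟨m, hm⟩ := eventually_atTop.1 hx
      have h4 : x - ∑ k ∈ Finset.range m, y k x • u k ∈ M := by
        rw [hM]
        intro l
        simp only [map_sub, map_sum, map_smul, hy, smul_eq_mul, mul_ite, mul_one, mul_zero,
          Finset.sum_ite_eq, Finset.mem_range]
        split_ifs with hl
        · exact sub_self _
        · rw [hm l (not_lt.1 hl), sub_self]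
      have h5 : M.mkQ x = ∑ k ∈ Finset.range m, y k x • M.mkQ (u k) := by
        have := (Submodule.Quotient.eq M).2 h4
        rw [Submodule.mkQ_apply, this, ← Submodule.mkQ_apply, map_sum]
        simp only [map_smul]
      rw [SetLike.mem_coe, h5]
      exact Submodule.sum_mem _ fun k _ =>
        Submodule.smul_mem _ _ (Submodule.subset_span ⟨k, rfl⟩)
    rw [← TopologicalSpace.isSeparable_univ_iff, ← (h2.mono h3).closure_eq]
    exact h1.closure
  · intro hfd
    have hli : LinearIndependent 𝕜 fun k => M.mkQ (u k) := by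
      rw [linearIndependent_iff']
      intro s g hg i hi
      have h1 : ∑ k ∈ s, g k • u k ∈ M := by
        rw [← Submodule.Quotient.mk_eq_zero, ← Submodule.mkQ_apply, map_sum]
        simpa only [map_smul] using hg
      have h2 := (hM _).1 h1 i
      simpa only [map_sum, map_smul, hy, smul_eq_mul, mul_ite, mul_one, mul_zero,
        Finset.sum_ite_eq, hi, if_true] using h2
    have : Finite ℕ := hli.finite
    exact not_finite ℕ

/-- For `x` with `∑ ‖y k x‖ < ∞`, `x - ∑'_{k ≥ m} y k x • u k` has `y k`-value `0` for `k ≥ m` and tends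
to `x`; apply `sq_of_dense`. -/
theorem sq_of_l1 [CompleteSpace X] (y : ℕ → StrongDual 𝕜 X) (u : ℕ → X) (h : Biorth y u)
    (C : ℝ) (hu : ∀ k, ‖u k‖ ≤ C) (hd : Dense {x : X | Summable fun k => ‖y k x‖}) :
    SQ 𝕜 X := by
  classical
  have hy : ∀ k l, y k (u l) = if k = l then 1 else 0 := fun k l => by
    split_ifs with hkl
    · rw [hkl]; exact h.1 l
    · exact h.2 k l hkl
  refine sq_of_dense y u h ?_
  refine Dense.of_closure (hd.mono fun x hx => ?_)
  have hs : Summable fun k => y k x • u k := by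
    refine Summable.of_norm_bounded (g := fun k => ‖y k x‖ * C) (Summable.mul_right C hx)
      fun k => ?_
    rw [norm_smul]
    exact mul_le_mul_of_nonneg_left (hu k) (norm_nonneg _)
  have ht : Tendsto (fun m => x - ∑' k, y (k + m) x • u (k + m)) atTop (𝓝 (x - 0)) :=
    tendsto_const_nhds.sub (tendsto_sum_nat_add fun k => y k x • u k)
  rw [sub_zero] at ht
  refine mem_closure_of_tendsto ht (Eventually.of_forall fun m => ?_)
  refine eventually_atTop.2 ⟨m, fun l hl => ?_⟩
  have hs' : Summable fun k => y (k + m) x • u (k + m) :=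
    (summable_nat_add_iff (f := fun k => y k x • u k) m).2 hs
  rw [map_sub, (y l).map_tsum hs', tsum_eq_single (l - m)]
  · rw [Nat.sub_add_cancel hl, map_smul, h.1, smul_eq_mul, mul_one, sub_self]
  · intro k hk
    rw [map_smul, h.2 l (k + m) (by omega), smul_zero]

/-- Given `x, ε` take `m i` strictly increasing and at least the `m` for `ε / 2^(i+1)`,
`F i = Ico (m i) (m (i+1))`, `v i` the vectors given; `x - ∑' v i` has `y k`-value `0` for
`k ≥ m 0` and is `ε`-close to `x`; apply `sq_of_dense`. -/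
theorem sq_of_tail [CompleteSpace X] (y : ℕ → StrongDual 𝕜 X) (u : ℕ → X) (h : Biorth y u)
    (hT : ∀ x : X, ∀ ε > (0 : ℝ), ∃ m : ℕ, ∀ F : Finset ℕ, (∀ k ∈ F, m ≤ k) →
      ∃ v : X, ‖v‖ ≤ ε ∧ (∀ k ∈ F, y k v = y k x) ∧ ∀ k ∉ F, y k v = 0) : SQ 𝕜 X := by
  classical
  refine sq_of_dense y u h ?_
  rw [Metric.dense_iff]
  intro x ε hε
  choose m0 hm0 using fun i : ℕ => hT x (ε / 2 / 2 / 2 ^ i) (by positivity)
  let m : ℕ → ℕ := fun i => i + ∑ j ∈ Finset.range (i + 1), m0 j
  have hm : StrictMono m := strictMono_nat_of_lt_succ fun i => by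
    simp only [m, Finset.sum_range_succ _ (i + 1)]
    omega
  have hm1 : ∀ i, m0 i ≤ m i := fun i => by
    simp only [m, Finset.sum_range_succ]
    omega
  choose v hv1 hv2 hv3 using fun i : ℕ => hm0 i (Finset.Ico (m i) (m (i + 1)))
    fun k hk => (hm1 i).trans (Finset.mem_Ico.1 hk).1
  have hg := hasSum_geometric_two' (ε / 2)
  have hs : Summable v := Summable.of_norm_bounded hg.summable hv1
  refine ⟨x - ∑' i, v i, ?_, ?_⟩
  · rw [Metric.mem_ball, dist_eq_norm, sub_sub_cancel_left, norm_neg]
    have := tsum_of_norm_bounded hg hv1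
    linarith
  · refine eventually_atTop.2 ⟨m 0, fun l hl => ?_⟩
    have hex : ∃ i, l < m (i + 1) := ⟨l, lt_of_lt_of_le (Nat.lt_succ_self l) (hm.id_le _)⟩
    have hi1 : l < m (Nat.find hex + 1) := Nat.find_spec hex
    have hi0 : m (Nat.find hex) ≤ l := by
      rcases hj : Nat.find hex with _ | j
      · exact hl
      · exact not_lt.1 (Nat.find_min hex (by omega))
    rw [map_sub, (y l).map_tsum hs, tsum_eq_single (Nat.find hex)]
    · rw [hv2 _ l (Finset.mem_Ico.2 ⟨hi0, hi1⟩), sub_self]
    · intro i hi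
      refine hv3 i l fun hl' => hi ?_
      rw [Finset.mem_Ico] at hl'
      rcases lt_trichotomy i (Nat.find hex) with h1 | h1 | h1
      · have := hm.monotone (Nat.succ_le_of_lt h1)
        simp only [Nat.succ_eq_add_one] at this
        omega
      · exact h1
      · have := hm.monotone (Nat.succ_le_of_lt h1)
        simp only [Nat.succ_eq_add_one] at this
        omega

end Crest.Agent.R114
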