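import Crest.Agent.R114.Block

set_option autoImplicit false
open Filter

namespace Crest.Agent.R114

variable {𝕜 : Type} [RCLike 𝕜] {X : Type*} [NormedAddCommGroup X] [NormedSpace 𝕜 X]

/-- successive `ℓ¹`-normalised real blocks -/
def IsBlk (a : ℕ → ℕ →₀ ℝ) : Prop :=
  (∀ k, ((a k).sum fun _ c => |c|) = 1) ∧
    ∀ k l, k < l → ∀ i ∈ (a k).support, ∀ j ∈ (a l).support, i < j

/-- the block sequence of `y` with coefficients `a` -/
noncomputable def blk (y : ℕ → StrongDual 𝕜 X) (a : ℕ → ℕ →₀ ℝ) (k : ℕ) : StrongDual 𝕜 X :=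
  (a k).sum fun i c => (c : 𝕜) • y i

/-- `limsup ‖y k x‖ ≤ t` on the unit ball -/
def LeW (y : ℕ → StrongDual 𝕜 X) (t : ℝ) : Prop :=
  ∀ x : X, ‖x‖ ≤ 1 → ∀ η > (0 : ℝ), ∀ᶠ k in atTop, ‖y k x‖ ≤ t + η

theorem IsBlk.nonempty {a : ℕ → ℕ →₀ ℝ} (ha : IsBlk a) (k : ℕ) : (a k).support.Nonempty := by
  by_contra hn
  rw [Finset.not_nonempty_iff_eq_empty] at hn
  have := ha.1 k
  rw [Finsupp.sum, hn, Finset.sum_empty] at this
  exact zero_ne_one this

theorem IsBlk.le_of_mem {a : ℕ → ℕ →₀ ℝ} (ha : IsBlk a) (k : ℕ) :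
    ∀ i ∈ (a k).support, k ≤ i := by
  induction k with
  | zero => exact fun _ _ => Nat.zero_le _
  | succ k ih =>
    intro i hi
    obtain ⟨j, hj⟩ := ha.nonempty k
    have h1 := ih j hj
    have h2 := ha.2 k (k + 1) (Nat.lt_succ_self k) j hj i hi
    omega

theorem IsBlk.eq_of_mem {a : ℕ → ℕ →₀ ℝ} (ha : IsBlk a) {k l i : ℕ} (hk : i ∈ (a k).support)
    (hl : i ∈ (a l).support) : k = l := by
  rcases lt_trichotomy k l with h | h | h
  · exact absurd (ha.2 k l h i hk i hl) (lt_irrefl i)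
  · exact h
  · exact absurd (ha.2 l k h i hl i hk) (lt_irrefl i)

theorem norm_blk_apply_le (y : ℕ → StrongDual 𝕜 X) {a : ℕ → ℕ →₀ ℝ} (ha : IsBlk a) (k : ℕ) (x : X)
    (t : ℝ) (ht : ∀ i ∈ (a k).support, ‖y i x‖ ≤ t) : ‖blk y a k x‖ ≤ t := by
  have h1 := ha.1 k
  rw [Finsupp.sum] at h1
  rw [blk, Finsupp.sum, ContinuousLinearMap.sum_apply]
  calc ‖∑ i ∈ (a k).support, (((a k i : ℝ) : 𝕜) • y i) x‖
      ≤ ∑ i ∈ (a k).support, ‖(((a k i : ℝ) : 𝕜) • y i) x‖ := norm_sum_le _ _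
    _ ≤ ∑ i ∈ (a k).support, |a k i| * t := by
        refine Finset.sum_le_sum fun i hi => ?_
        rw [ContinuousLinearMap.smul_apply, norm_smul, RCLike.norm_ofReal]
        exact mul_le_mul_of_nonneg_left (ht i hi) (abs_nonneg _)
    _ = t := by rw [← Finset.sum_mul, h1, one_mul]

/-- Block sequences keep `LP` (pattern `i ↦ b k * sign (a k i)` for `i ∈ supp (a k)`). -/
theorem LP.blk {w : ℕ → StrongDual 𝕜 X} {C : ℝ} (h : LP w C) {a : ℕ → ℕ →₀ ℝ} (ha : IsBlk a) :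
    LP (blk w a) C := by
  classical
  refine ⟨fun k => ?_, fun b hb => ?_⟩
  · refine ContinuousLinearMap.opNorm_le_bound _ zero_le_one fun x => ?_
    refine norm_blk_apply_le w ha k x _ fun i _ => ?_
    exact ((w i).le_opNorm x).trans (mul_le_mul_of_nonneg_right (h.1 i) (norm_nonneg _))
  · let g : ℕ → 𝕜 := fun i => ∑ l ∈ b.support, b l * ((|a l i| / a l i : ℝ) : 𝕜)
    have hg : ∀ k, ∀ i ∈ (a k).support, g i = b k * ((|a k i| / a k i : ℝ) : 𝕜) := by
      intro k i hi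
      refine Finset.sum_eq_single k (fun l _ hl => ?_) fun hk => ?_
      · have : a l i = 0 := by
          by_contra hne
          exact hl (ha.eq_of_mem (Finsupp.mem_support_iff.2 hne) hi)
        simp [this]
      · rw [Finsupp.notMem_support_iff.1 hk, zero_mul]
    have hg0 : ∀ i, (∀ k ∈ b.support, i ∉ (a k).support) → g i = 0 := by
      intro i hi
      refine Finset.sum_eq_zero fun l hl => ?_
      simp [Finsupp.notMem_support_iff.1 (hi l hl)]
    obtain ⟨u, hu, hwu⟩ := h.2 (Finsupp.onFinset (b.support.biUnion fun k => (a k).support) g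
      (fun i hi => by
        by_contra hn
        exact hi (hg0 i fun k hk hik => hn (Finset.mem_biUnion.2 ⟨k, hk, hik⟩)))) (fun i => by
      rw [Finsupp.onFinset_apply]
      by_cases hi : ∃ k, i ∈ (a k).support
      · obtain ⟨k, hk⟩ := hi
        have hne : a k i ≠ 0 := Finsupp.mem_support_iff.1 hk
        rw [hg k i hk, norm_mul, RCLike.norm_ofReal, abs_div, abs_abs,
          div_self (abs_ne_zero.2 hne), mul_one]
        exact hb k
      · rw [hg0 i fun k _ hik => hi ⟨k, hik⟩]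
        simp)
    refine ⟨u, hu, fun k => ?_⟩
    have h1 := ha.1 k
    rw [Finsupp.sum] at h1
    rw [R114.blk, Finsupp.sum, ContinuousLinearMap.sum_apply]
    calc ∑ i ∈ (a k).support, (((a k i : ℝ) : 𝕜) • w i) u
        = ∑ i ∈ (a k).support, b k * ((|a k i| : ℝ) : 𝕜) := by
          refine Finset.sum_congr rfl fun i hi => ?_
          have hne : ((a k i : ℝ) : 𝕜) ≠ 0 :=
            RCLike.ofReal_ne_zero.2 (Finsupp.mem_support_iff.1 hi)
          rw [ContinuousLinearMap.smul_apply, hwu, Finsupp.onFinset_apply, hg k i hi, smul_eq_mul,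
            RCLike.ofReal_div]
          field_simp
      _ = b k := by
          rw [← Finset.mul_sum, ← RCLike.ofReal_sum, h1, RCLike.ofReal_one, mul_one]

private noncomputable def comp (a b : ℕ → ℕ →₀ ℝ) (k : ℕ) : ℕ →₀ ℝ :=
  (b k).sum fun i c => c • a i

private noncomputable def idB (k : ℕ) : ℕ →₀ ℝ := Finsupp.single k 1

private theorem idB_supp {k i : ℕ} (h : i ∈ (idB k).support) : i = k :=
  Finset.mem_singleton.1 (Finsupp.support_single_subset h)

private theorem idB_sum (k : ℕ) : ((idB k).sum fun _ c => |c|) = 1 := by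
  rw [idB, Finsupp.sum_single_index abs_zero, abs_one]

private theorem isBlk_idB : IsBlk idB :=
  ⟨idB_sum, fun k l hkl i hi j hj => by rw [idB_supp hi, idB_supp hj]; exact hkl⟩

private theorem blk_idB (y : ℕ → StrongDual 𝕜 X) : blk y idB = y := by
  funext k
  rw [blk, idB, Finsupp.sum_single_index (by ext; simp),
    RCLike.ofReal_one, one_smul]

private theorem mem_sum_smul {a : ℕ → ℕ →₀ ℝ} {s : Finset ℕ} {f : ℕ → ℝ} {j : ℕ}
    (h : j ∈ (∑ i ∈ s, f i • a i).support) : ∃ i ∈ s, j ∈ (a i).support := by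
  classical
  obtain ⟨i, hi, hj⟩ := Finset.mem_biUnion.1 (Finsupp.support_finset_sum h)
  exact ⟨i, hi, Finsupp.support_smul hj⟩

private theorem comp_supp {a b : ℕ → ℕ →₀ ℝ} {k j : ℕ} (h : j ∈ (comp a b k).support) :
    ∃ i ∈ (b k).support, j ∈ (a i).support :=
  mem_sum_smul (f := fun i => b k i) h

private theorem sum_abs_sum_smul {a : ℕ → ℕ →₀ ℝ} (ha : IsBlk a) (f : ℕ → ℝ) (s : Finset ℕ) :
    ((∑ i ∈ s, f i • a i).sum fun _ c => |c|) = ∑ i ∈ s, |f i| := by
  classical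
  induction s using Finset.induction_on with
  | empty => simp
  | insert i s hi ih =>
    rw [Finset.sum_insert hi, Finset.sum_insert hi, Finsupp.sum_add_index_of_disjoint, ih]
    · congr 1
      rw [Finsupp.sum_smul_index' (fun _ => abs_zero)]
      have h1 := ha.1 i
      rw [Finsupp.sum] at h1 ⊢
      simp only [smul_eq_mul, abs_mul]
      rw [← Finset.mul_sum, h1, mul_one]
    · rw [Finset.disjoint_left]
      intro j hj hj'
      obtain ⟨l, hl, hjl⟩ := mem_sum_smul hj'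
      have := ha.eq_of_mem (Finsupp.support_smul hj) hjl
      exact hi (this ▸ hl)

private theorem IsBlk.comp {a b : ℕ → ℕ →₀ ℝ} (ha : IsBlk a) (hb : IsBlk b) :
    IsBlk (comp a b) := by
  refine ⟨fun k => ?_, fun k l hkl i hi j hj => ?_⟩
  · have := sum_abs_sum_smul ha (fun i => b k i) (b k).support
    exact this.trans (hb.1 k)
  · obtain ⟨i', hi', hi⟩ := comp_supp hi
    obtain ⟨j', hj', hj⟩ := comp_supp hj
    exact ha.2 i' j' (hb.2 k l hkl i' hi' j' hj') i hi j hj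

private theorem blk_comp (w : ℕ → StrongDual 𝕜 X) (a b : ℕ → ℕ →₀ ℝ) :
    blk w (comp a b) = blk (blk w a) b := by
  funext k
  rw [blk, blk, comp, Finsupp.sum_sum_index
    (fun _ => by ext; simp)
    (fun _ _ _ => by ext; simp [add_mul])]
  refine Finsupp.sum_congr fun i _ => ?_
  rw [Finsupp.sum_smul_index' (fun _ => by ext; simp), blk,
    Finsupp.smul_sum]
  refine Finsupp.sum_congr fun j _ => ?_
  rw [smul_eq_mul, RCLike.ofReal_mul, mul_smul]

/-- `z` is eventually a block sequence of `y` -/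
private def Sub (y z : ℕ → StrongDual 𝕜 X) : Prop :=
  ∃ b, IsBlk b ∧ ∀ᶠ k in atTop, z k = blk y b k

private theorem Sub.blk {y z : ℕ → StrongDual 𝕜 X} (h : Sub y z) {c : ℕ → ℕ →₀ ℝ}
    (hc : IsBlk c) : Sub y (blk z c) := by
  obtain ⟨b, hb, hz⟩ := h
  obtain ⟨m, hm⟩ := eventually_atTop.1 hz
  refine ⟨comp b c, hb.comp hc, (eventually_ge_atTop m).mono fun k hk => ?_⟩
  rw [blk_comp]
  refine Finsupp.sum_congr fun i hi => ?_
  rw [hm i (hk.trans (hc.le_of_mem k i hi))]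

private theorem LeW.congr {y z : ℕ → StrongDual 𝕜 X} {t : ℝ} (h : LeW y t)
    (hz : ∀ᶠ k in atTop, z k = y k) : LeW z t := fun x hx η hη =>
  ((h x hx η hη).and hz).mono fun k hk => by rw [hk.2]; exact hk.1

private theorem LeW.sub {y z : ℕ → StrongDual 𝕜 X} {t : ℝ} (h : LeW y t) (hz : Sub y z) :
    LeW z t := by
  obtain ⟨b, hb, hz⟩ := hz
  refine LeW.congr (y := R114.blk y b) (fun x hx η hη => ?_) hz
  obtain ⟨m, hm⟩ := eventually_atTop.1 (h x hx η hη)
  exact (eventually_ge_atTop m).mono fun k hk =>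
    norm_blk_apply_le y hb k x _ fun i hi => hm i (hk.trans (hb.le_of_mem k i hi))

private noncomputable def dW (y : ℕ → StrongDual 𝕜 X) : ℝ := sInf {t | 0 ≤ t ∧ LeW y t}

private theorem dW_nonneg (y : ℕ → StrongDual 𝕜 X) : 0 ≤ dW y :=
  Real.sInf_nonneg fun _ h => h.1

private theorem dW_le {y : ℕ → StrongDual 𝕜 X} {t : ℝ} (h0 : 0 ≤ t) (h : LeW y t) : dW y ≤ t :=
  csInf_le ⟨0, fun _ h => h.1⟩ ⟨h0, h⟩

private theorem leW_dW {y : ℕ → StrongDual 𝕜 X} (h : ∀ i, ‖y i‖ ≤ 1) : LeW y (dW y) := by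
  intro x hx η hη
  have hne : {t | 0 ≤ t ∧ LeW y t}.Nonempty := by
    refine ⟨1, zero_le_one, fun x hx η hη => Eventually.of_forall fun k => ?_⟩
    have h1 := (y k).le_opNorm x
    have h2 : ‖y k‖ * ‖x‖ ≤ 1 := mul_le_one₀ (h k) (norm_nonneg _) hx
    linarith
  obtain ⟨t, ht, hlt⟩ := exists_lt_of_csInf_lt hne (show dW y < dW y + η / 2 by linarith)
  exact (ht.2 x hx (η / 2) (by linarith)).mono fun k hk => by linarith

private theorem exists_near (y : ℕ → StrongDual 𝕜 X) (n : ℕ) :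
    ∃ b, IsBlk b ∧ ∀ c, IsBlk c → dW (blk y b) < dW (blk y c) + 1 / ((n : ℝ) + 1) := by
  let T : Set ℝ := {r | ∃ c, IsBlk c ∧ r = dW (blk y c)}
  have hne : T.Nonempty := ⟨_, idB, isBlk_idB, rfl⟩
  have hbd : BddBelow T := ⟨0, fun r ⟨c, _, hr⟩ => hr ▸ dW_nonneg _⟩
  have hpos : (0 : ℝ) < 1 / ((n : ℝ) + 1) := by positivity
  obtain ⟨r, ⟨b, hb, rfl⟩, hlt⟩ :=
    exists_lt_of_csInf_lt hne (show sInf T < sInf T + 1 / ((n : ℝ) + 1) by linarith)
  refine ⟨b, hb, fun c hc => ?_⟩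
  have := csInf_le hbd (show dW (blk y c) ∈ T from ⟨c, hc, rfl⟩)
  linarith

private theorem diag (y : ℕ → ℕ → StrongDual 𝕜 X) (b : ℕ → ℕ → ℕ →₀ ℝ) (hb : ∀ n, IsBlk (b n))
    (hy : ∀ n, y (n + 1) = blk (y n) (b n)) (n : ℕ) :
    ∃ e, IsBlk e ∧ ∀ k, n ≤ k → y k k = blk (y n) e k := by
  let c : ℕ → ℕ → ℕ →₀ ℝ := fun j =>
    Nat.rec (motive := fun _ => ℕ → ℕ →₀ ℝ) idB (fun j p => comp p (b (n + j))) j
  have hc0 : c 0 = idB := rfl
  have hcs : ∀ j, c (j + 1) = comp (c j) (b (n + j)) := fun _ => rfl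
  have hc : ∀ j, IsBlk (c j) := by
    intro j
    induction j with
    | zero => exact isBlk_idB
    | succ j ih => rw [hcs]; exact ih.comp (hb _)
  have hyc : ∀ j, y (n + j) = blk (y n) (c j) := by
    intro j
    induction j with
    | zero => rw [hc0, blk_idB]; rfl
    | succ j ih => rw [hcs, blk_comp, ← ih, ← hy]; rfl
  have hP : ∀ j j', j ≤ j' → ∀ l, ∀ i ∈ (c j' l).support, ∃ l', l ≤ l' ∧ i ∈ (c j l').support := by
    intro j j' hjj'
    induction j', hjj' using Nat.le_induction with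
    | base => exact fun l i hi => ⟨l, le_rfl, hi⟩
    | succ j' _ ih =>
      intro l i hi
      rw [hcs] at hi
      obtain ⟨l₁, hl₁, hi⟩ := comp_supp hi
      obtain ⟨l', hl', hi⟩ := ih l₁ i hi
      exact ⟨l', ((hb _).le_of_mem l l₁ hl₁).trans hl', hi⟩
  refine ⟨fun k => c (k - n) k, ⟨fun k => (hc _).1 k, fun k l hkl i hi j hj => ?_⟩,
    fun k hk => ?_⟩
  · obtain ⟨l', hl', hj⟩ := hP (k - n) (l - n) (by omega) l j hj
    exact (hc _).2 k l' (by omega) i hi j hj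
  · have := congrFun (hyc (k - n)) k
    rw [Nat.add_sub_cancel' hk] at this
    exact this

/-- Stabilisation.  Sketch: the composite `(a ∘ b) k = (b k).sum fun i c => c • a i` of two `IsBlk` is
`IsBlk` (norms add up since the supports are disjoint), `blk (blk w a) b = blk w (a ∘ b)`;
`LeW y t → LeW (blk y b) t` (`k ≤ i` for `i ∈ supp (b k)`), and `LeW` only depends on tails.
`d a = sInf {t ≥ 0 | LeW (blk w a) t}` satisfies `LeW (blk w a) (d a)`.  Choose
`a 0 = single`, `a (n+1) = a n ∘ b n` with `d (a (n+1)) ≤ inf_b d (a n ∘ b) + 1/(n+1)`.  The diagonal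
`U k = a k k` is `IsBlk`, and for each `n` there is an `IsBlk` sequence `e n` with
`U k = (a n ∘ e n) k` for `k ≥ n` (`e n k = single k 1` for `k < n`; for `k ≥ n` it is the `k`-th term of
`b n ∘ ⋯ ∘ b (k-1)`, supported in `[k, ∞)`).  Take `y = blk w U`, `δ = d U`: for any `IsBlk b`,
`U ∘ b` eventually agrees with `a n ∘ (e n ∘ b)`, so
`d (U ∘ b) ≥ d (a (n+1)) - 1/(n+1) ≥ d U - 1/(n+1)`. -/
theorem exists_stable (w : ℕ → StrongDual 𝕜 X) (C : ℝ) (h : LP w C) :
    ∃ (y : ℕ → StrongDual 𝕜 X) (δ : ℝ), LP y C ∧ 0 ≤ δ ∧ LeW y δ ∧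
      ∀ a, IsBlk a → ∀ s < δ, ¬ LeW (blk y a) s := by
  choose β hβ hβ' using exists_near (𝕜 := 𝕜) (X := X)
  let y : ℕ → ℕ → StrongDual 𝕜 X := fun n =>
    Nat.rec (motive := fun _ => ℕ → StrongDual 𝕜 X) w (fun n p => blk p (β p n)) n
  have hy : ∀ n, y (n + 1) = blk (y n) (β (y n) n) := fun _ => rfl
  have hLP : ∀ n, LP (y n) C := by
    intro n
    induction n with
    | zero => exact h
    | succ n ih => rw [hy]; exact ih.blk (hβ _ _)
  have hd := diag y (fun n => β (y n) n) (fun n => hβ _ _) hy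
  have hsub : ∀ n, Sub (y n) fun k => y k k := fun n => by
    obtain ⟨e, he, hk⟩ := hd n
    exact ⟨e, he, (eventually_ge_atTop n).mono hk⟩
  have hLPd : LP (fun k => y k k) C := by
    obtain ⟨e, he, hk⟩ := hd 0
    have : (fun k => y k k) = blk (y 0) e := funext fun k => hk k (Nat.zero_le k)
    rw [this]
    exact (hLP 0).blk he
  refine ⟨fun k => y k k, dW fun k => y k k, hLPd, dW_nonneg _, leW_dW hLPd.1,
    fun a ha s hs hle => ?_⟩
  rcases lt_or_ge s 0 with hs0 | hs0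
  · obtain ⟨k, hk⟩ := (hle 0 (by simp) (-s / 2) (by linarith)).exists
    rw [map_zero, norm_zero] at hk
    linarith
  obtain ⟨n, hn⟩ := exists_nat_one_div_lt (sub_pos.2 hs)
  obtain ⟨c, hc, hev⟩ := (hsub n).blk ha
  have h1 : dW (blk (y n) c) ≤ s := dW_le hs0 (hle.congr (hev.mono fun k hk => hk.symm))
  have h2 := hβ' (y n) n c hc
  have h3 : dW (fun k => y k k) ≤ dW (y (n + 1)) :=
    dW_le (dW_nonneg _) ((leW_dW (hLP (n + 1)).1).sub (hsub (n + 1)))
  rw [← hy] at h2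
  linarith

end Crest.Agent.R114
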