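import Crest.Agent.R114.Stab
import Crest.Agent.R114.Kh

set_option autoImplicit false
open Filter

namespace Crest.Agent.R114

variable {𝕜 : Type} [RCLike 𝕜] {X : Type*} [NormedAddCommGroup X] [NormedSpace 𝕜 X]

/-- weak* null case: `sq_of_tail`, with the patterns `b k = y k x / η` on `F`. -/
theorem sq_of_LP_null [CompleteSpace X] (y : ℕ → StrongDual 𝕜 X) (C : ℝ) (h : LP y C)
    (h0 : LeW y 0) : SQ 𝕜 X := by
  have hb : ∀ k : ℕ, ∃ u : X, ‖u‖ ≤ C ∧ ∀ i, y i u = (Finsupp.single k (1 : 𝕜)) i := fun k =>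
    h.2 _ fun i => by
      rw [Finsupp.single_apply]; split_ifs <;> simp
  choose u _ hu using hb
  refine sq_of_tail y u ⟨fun k => by simp [hu], fun k l hkl => by simp [hu, hkl.symm]⟩
    fun x ε hε => ?_
  have hx : 0 < ‖x‖ + 1 := by positivity
  have hC : 0 < |C| + 1 := by positivity
  set t : ℝ := ε / (|C| + 1) with ht
  have ht0 : 0 < t := by positivity
  have hx' : ‖(((‖x‖ + 1)⁻¹ : ℝ) : 𝕜) • x‖ ≤ 1 := by
    rw [norm_smul, RCLike.norm_ofReal, abs_of_pos (inv_pos.2 hx), inv_mul_le_iff₀ hx]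
    linarith
  obtain ⟨m, hm⟩ := eventually_atTop.1 (h0 _ hx' (t / (‖x‖ + 1)) (by positivity))
  have hm' : ∀ k ≥ m, ‖y k x‖ ≤ t := by
    intro k hk
    have := hm k hk
    rw [map_smul, norm_smul, RCLike.norm_ofReal, abs_of_pos (inv_pos.2 hx), zero_add,
      ← div_eq_inv_mul, div_le_div_iff_of_pos_right hx] at this
    exact this
  refine ⟨m, fun F hF => ?_⟩
  classical
  obtain ⟨v, hv, hyv⟩ := h.2 (Finsupp.onFinset F (fun k => if k ∈ F then y k x / t else 0)
    (fun k hk => by by_contra h; simp [h] at hk)) (fun k => by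
      simp only [Finsupp.onFinset_apply]
      split_ifs with hk
      · rw [norm_div, RCLike.norm_ofReal, abs_of_pos ht0, div_le_one ht0]
        exact hm' k (hF k hk)
      · simp)
  have htk : (t : 𝕜) ≠ 0 := RCLike.ofReal_ne_zero.2 ht0.ne'
  refine ⟨(t : 𝕜) • v, ?_, fun k hk => ?_, fun k hk => ?_⟩
  · rw [norm_smul, RCLike.norm_ofReal, abs_of_pos ht0]
    calc t * ‖v‖ ≤ t * (|C| + 1) :=
          mul_le_mul_of_nonneg_left (by linarith [le_abs_self C]) ht0.le
      _ = ε := by rw [ht]; field_simp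
  · rw [map_smul, hyv, Finsupp.onFinset_apply, if_pos hk, smul_eq_mul]
    field_simp
  · rw [map_smul, hyv, Finsupp.onFinset_apply, if_neg hk, smul_zero]

/-- One step of the Hagler–Johnson tree.  Sketch: `N = 2^(n+1)`,
`a k = ∑_{r<N} single (q (N k + r)) (sg (r.testBit n) / N)` is `IsBlk`.  With `η` small
(`η = δ / (1000 N)` is enough), `¬ LeW (blk y a) (δ - 2η)` gives `x₀` in the unit ball and
infinitely many `k` with `‖blk y a k x₀‖ > δ - 2η`; by compactness of the closed unit ball of `𝕜` (or a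
finite net of the unit circle) some unit scalar `c` has `re (blk y a k (c • x₀)) > δ - 3η` for
infinitely many `k`; also `‖y i x₀‖ ≤ δ + η` for large `i`.  For such `k` each of the `N` terms
`z = sg (r.testBit n) * y (q (N k + r)) x` has `‖z‖ ≤ δ + η`, `re z ≥ δ - 4 N η`, so
`‖z - δ‖² ≤ (δ+η)² - 2 δ (δ - 4 N η) + δ² ≤ (δ/4)²`.  With `n_k` the increasing enumeration of these `k`
(`Filter.extraction_of_frequently_atTop`), `p (N k + r) = N n_k + r`, i.e.
`p i = N * n_(i / N) + i % N`. -/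
theorem tree_step (y : ℕ → StrongDual 𝕜 X) (δ : ℝ) (hδ : 0 < δ) (hle : LeW y δ)
    (hst : ∀ a, IsBlk a → ∀ s < δ, ¬ LeW (blk y a) s) (q : ℕ → ℕ) (hq : StrictMono q) (n : ℕ) :
    ∃ (x : X) (p : ℕ → ℕ), ‖x‖ ≤ 1 ∧ StrictMono p ∧ (∀ i, p i % 2 ^ (n + 1) = i % 2 ^ (n + 1)) ∧
      ∀ i, ‖y (q (p i)) x - ((δ * sg (i.testBit n) : ℝ) : 𝕜)‖ ≤ δ / 4 := by
  set N : ℕ := 2 ^ (n + 1) with hN
  have hN0 : 0 < N := by positivity
  have hNR : (1 : ℝ) ≤ N := by exact_mod_cast hN0
  have hNR0 : (0 : ℝ) < N := by linarith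
  have hsg : ∀ b, |sg b| = 1 := fun b => by cases b <;> simp [sg]
  have hsg2 : ∀ b, sg b * sg b = 1 := fun b => by cases b <;> simp [sg]
  let s : ℕ →₀ ℝ := Finsupp.onFinset (Finset.range N)
    (fun r => if r < N then sg (r.testBit n) / N else 0)
    (fun r hr => by by_contra h; simp at h; simp [h.not_gt] at hr)
  have hinj : ∀ k, Function.Injective fun r => q (N * k + r) := fun k r r' h =>
    Nat.add_left_cancel (hq.injective h)
  let a : ℕ → ℕ →₀ ℝ := fun k => s.mapDomain fun r => q (N * k + r)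
  have hsupp : ∀ k, ∀ i ∈ (a k).support, ∃ r < N, i = q (N * k + r) := by
    intro k i hi
    obtain ⟨r, hr, rfl⟩ := Finset.mem_image.1 (Finsupp.mapDomain_support hi)
    exact ⟨r, Finset.mem_range.1 (Finsupp.support_onFinset_subset hr), rfl⟩
  have ha : IsBlk a := by
    refine ⟨fun k => ?_, fun k l hkl i hi j hj => ?_⟩
    · rw [Finsupp.sum_mapDomain_index_inj (hinj k), Finsupp.onFinset_sum _ (fun _ => abs_zero)]
      rw [Finset.sum_congr rfl (g := fun _ => (1 : ℝ) / N) fun r hr => by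
        rw [if_pos (Finset.mem_range.1 hr), abs_div, hsg, abs_of_pos hNR0]]
      rw [Finset.sum_const, Finset.card_range, nsmul_eq_mul]
      field_simp
    · obtain ⟨r, hr, rfl⟩ := hsupp k i hi
      obtain ⟨r', -, rfl⟩ := hsupp l j hj
      refine hq ?_
      have : N * (k + 1) ≤ N * l := Nat.mul_le_mul_left _ hkl
      rw [Nat.mul_succ] at this
      omega
  have hblk : ∀ k x, blk y a k x =
      (∑ r ∈ Finset.range N, (sg (r.testBit n) : 𝕜) * y (q (N * k + r)) x) / N := by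
    intro k x
    rw [blk, Finsupp.sum_mapDomain_index_inj (hinj k),
      Finsupp.onFinset_sum _ (fun r => by
        rw [RCLike.ofReal_zero]; exact zero_smul 𝕜 (y (q (N * k + r)))),
      sum_apply, Finset.sum_div]
    refine Finset.sum_congr rfl fun r hr => ?_
    rw [if_pos (Finset.mem_range.1 hr), smul_apply, smul_eq_mul]
    push_cast
    ring
  set η : ℝ := δ / (1000 * N) with hη
  have hη0 : 0 < η := by positivity
  have hηN : η * N = δ / 1000 := by rw [hη]; field_simp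
  have hη1 : η ≤ δ / 1000 := by nlinarith
  have hnl := hst a ha (δ - 2 * η) (by linarith)
  simp only [LeW, not_forall, not_eventually, not_le] at hnl
  obtain ⟨x₀, hx₀, η', hη', hfr⟩ := hnl
  obtain ⟨m₀, hm₀⟩ := eventually_atTop.1 (hle x₀ hx₀ η hη0)
  have hge : ∀ k r, m₀ ≤ k → m₀ ≤ q (N * k + r) := fun k r hk =>
    le_trans (show m₀ ≤ N * k + r by nlinarith) (hq.id_le _)
  have hbd : ∀ k, m₀ ≤ k → ‖blk y a k x₀‖ ≤ δ + η := by
    intro k hk
    rw [hblk, norm_div, RCLike.norm_natCast, div_le_iff₀ hNR0]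
    refine (norm_sum_le _ _).trans ?_
    refine (Finset.sum_le_card_nsmul _ _ (δ + η) fun r _ => ?_).trans_eq ?_
    · rw [norm_mul, RCLike.norm_ofReal, hsg, one_mul]
      exact hm₀ _ (hge k r hk)
    · rw [Finset.card_range, nsmul_eq_mul, mul_comm]
  have hK : IsCompact (Metric.closedBall (0 : 𝕜) (δ + η) ∩ {z : 𝕜 | δ - 2 * η ≤ ‖z‖}) :=
    (isCompact_closedBall _ _).inter_right (isClosed_le continuous_const continuous_norm)
  obtain ⟨z, hz, φ, hφ, hlim⟩ := hK.tendsto_subseq' (x := fun k => blk y a k x₀)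
    ((hfr.and_eventually (eventually_ge_atTop m₀)).mono fun k hk =>
      ⟨mem_closedBall_zero_iff.2 (hbd k hk.2), by
        change δ - 2 * η ≤ _
        linarith [hk.1]⟩)
  have hz1 : δ - 2 * η ≤ ‖z‖ := hz.2
  have hz0 : 0 < ‖z‖ := by linarith
  have hzk : ((‖z‖ : ℝ) : 𝕜) ≠ 0 := RCLike.ofReal_ne_zero.2 hz0.ne'
  set c : 𝕜 := (starRingEnd 𝕜) z / ‖z‖ with hc
  have hc1 : ‖c‖ = 1 := by
    rw [hc, norm_div, RCLike.norm_conj, RCLike.norm_ofReal, abs_norm, div_self hz0.ne']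
  have hcz : RCLike.re (c * z) = ‖z‖ := by
    have : c * z = ‖z‖ := by
      rw [hc, div_mul_eq_mul_div, RCLike.conj_mul, div_eq_iff hzk, sq]
    rw [this, RCLike.ofReal_re]
  have hlim2 : Tendsto (fun k => RCLike.re (c * blk y a (φ k) x₀)) atTop
      (nhds (RCLike.re (c * z))) :=
    (RCLike.continuous_re.tendsto _).comp (hlim.const_mul c)
  obtain ⟨m₁, hm₁⟩ := eventually_atTop.1
    ((tendsto_order.1 hlim2).1 (δ - 3 * η) (by rw [hcz]; linarith))
  let ψ : ℕ → ℕ := fun k => φ (k + (m₀ + m₁))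
  have hψ : StrictMono ψ := fun k l hkl => hφ (by omega)
  have hψ0 : ∀ k, m₀ ≤ ψ k := fun k => le_trans (show m₀ ≤ k + (m₀ + m₁) by omega) (hφ.id_le (k + (m₀ + m₁)))
  have key : ∀ k, ∀ r < N, ‖y (q (N * ψ k + r)) (c • x₀) - ((δ * sg (r.testBit n) : ℝ) : 𝕜)‖
      ≤ δ / 4 := by
    intro k r hr
    let w : ℕ → 𝕜 := fun r => (sg (r.testBit n) : 𝕜) * y (q (N * ψ k + r)) (c • x₀)
    have hw : ∀ r, ‖w r‖ ≤ δ + η := by
      intro r
      simp only [w]
      rw [norm_mul, RCLike.norm_ofReal, hsg, one_mul, map_smul, norm_smul, hc1, one_mul]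
      exact hm₀ _ (hge _ r (hψ0 k))
    have hsum : (δ - 3 * η) * N < ∑ r ∈ Finset.range N, RCLike.re (w r) := by
      have h1 := hm₁ (k + (m₀ + m₁)) (by omega)
      rw [← smul_eq_mul c, ← map_smul, hblk, ← RCLike.ofReal_natCast, RCLike.div_re_ofReal,
        map_sum, lt_div_iff₀ hNR0] at h1
      exact h1
    have hrest : ∑ r' ∈ (Finset.range N).erase r, RCLike.re (w r') ≤ (N - 1) * (δ + η) := by
      refine (Finset.sum_le_card_nsmul _ _ (δ + η) fun r' _ =>
        (RCLike.re_le_norm _).trans (hw r')).trans_eq ?_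
      rw [Finset.card_erase_of_mem (Finset.mem_range.2 hr), Finset.card_range, nsmul_eq_mul,
        Nat.cast_sub hN0, Nat.cast_one]
    rw [← Finset.add_sum_erase _ _ (Finset.mem_range.2 hr)] at hsum
    have hre : δ - 4 * (η * N) ≤ RCLike.re (w r) := by nlinarith
    have e : y (q (N * ψ k + r)) (c • x₀) - ((δ * sg (r.testBit n) : ℝ) : 𝕜)
        = (sg (r.testBit n) : 𝕜) * (w r - (δ : 𝕜)) := by
      have : (sg (r.testBit n) : 𝕜) * (sg (r.testBit n) : 𝕜) = 1 := by
        rw [← RCLike.ofReal_mul, hsg2, RCLike.ofReal_one]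
      simp only [w]
      push_cast
      linear_combination (-(y (q (N * ψ k + r)) (c • x₀))) * this
    rw [e, norm_mul, RCLike.norm_ofReal, hsg, one_mul]
    refine (pow_le_pow_iff_left₀ (norm_nonneg _) (by positivity) two_ne_zero).1 ?_
    have e2 : ‖w r - (δ : 𝕜)‖ ^ 2 = ‖w r‖ ^ 2 - 2 * δ * RCLike.re (w r) + δ ^ 2 := by
      simp only [RCLike.norm_sq_eq_def, map_sub, RCLike.ofReal_re, RCLike.ofReal_im]
      ring
    have h3 : ‖w r‖ ^ 2 ≤ (δ + η) ^ 2 := pow_le_pow_left₀ (norm_nonneg _) (hw r) 2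
    rw [e2]
    rw [hηN] at hre
    nlinarith
  refine ⟨c • x₀, fun i => N * ψ (i / N) + i % N, ?_, fun i j hij => ?_, fun i => ?_, fun i => ?_⟩
  · rw [norm_smul, hc1, one_mul]; exact hx₀
  · have h1 := Nat.div_add_mod i N
    have h2 := Nat.div_add_mod j N
    have h3 := Nat.mod_lt i hN0
    rcases (Nat.div_le_div_right (c := N) hij.le).eq_or_lt with h | h
    · simp only [h] at h1 ⊢
      omega
    · have : N * (ψ (i / N) + 1) ≤ N * ψ (j / N) := Nat.mul_le_mul_left _ (hψ h)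
      rw [Nat.mul_succ] at this
      change N * ψ (i / N) + i % N < N * ψ (j / N) + j % N
      omega
  · simp only [Nat.mul_add_mod, Nat.mod_mod]
  · have := key (i / N) (i % N) (Nat.mod_lt i hN0)
    have e : (i % N).testBit n = i.testBit n := by
      rw [hN, Nat.testBit_mod_two_pow]; simp
    rwa [e] at this

/-- Iterate `tree_step`: `q 0 = id`, `q (n+1) = q n ∘ p n`; for `j < n` and all `i`,
`‖y (q n i) (x j) - δ * sg (i.testBit j)‖ ≤ δ/4` (`Nat.testBit_mod_two_pow`).  Given `n, σ` take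
`i < 2^n` with `i.testBit j = σ j` for `j < n` (`Nat.ofBits`), `ψ = y (q n i)`; apply `sq_of_ell1`. -/
theorem sq_of_stable [CompleteSpace X] (y : ℕ → StrongDual 𝕜 X) (hy : ∀ i, ‖y i‖ ≤ 1) (δ : ℝ)
    (hδ : 0 < δ) (hle : LeW y δ) (hst : ∀ a, IsBlk a → ∀ s < δ, ¬ LeW (blk y a) s) : SQ 𝕜 X := by
  choose x p hx hp hmod hnear using tree_step y δ hδ hle hst
  let Q : ℕ → {q : ℕ → ℕ // StrictMono q} := fun n => Nat.rec ⟨id, strictMono_id⟩
    (fun n q => ⟨q.1 ∘ p q.1 q.2 n, q.2.comp (hp q.1 q.2 n)⟩) n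
  have key : ∀ n, ∀ j < n, ∀ i : ℕ, ‖y ((Q n).1 i) (x (Q j).1 (Q j).2 j) -
      ((δ * sg (i.testBit j) : ℝ) : 𝕜)‖ ≤ δ / 4 := by
    intro n
    induction n with
    | zero => intro j hj; omega
    | succ n ih =>
      intro j hj i
      rcases (Nat.lt_succ_iff.1 hj).eq_or_lt with rfl | hj'
      · exact hnear _ _ _ i
      · have e : (p (Q n).1 (Q n).2 n i).testBit j = i.testBit j := by
          have := congrArg (fun t => Nat.testBit t j) (hmod (Q n).1 (Q n).2 n i)
          simpa [Nat.testBit_mod_two_pow, hj] using this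
        have := ih j hj' (p (Q n).1 (Q n).2 n i)
        rw [e] at this
        exact this
  refine sq_of_ell1 (fun j => x (Q j).1 (Q j).2 j) (fun j => hx _ _ _) δ hδ fun n σ => ?_
  refine ⟨y ((Q n).1 (Nat.ofBits fun j : Fin n => σ j)), hy _, fun j hj => ?_⟩
  have := key n j hj (Nat.ofBits fun j : Fin n => σ j)
  rwa [Nat.testBit_ofBits_lt _ _ hj] at this

theorem sq_of_rvm [CompleteSpace X] (hc : Crest.AnalysisR.ContinuumRVM)
    (hX : ¬ FiniteDimensional 𝕜 X) : SQ 𝕜 X := by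
  rcases sq_or_propP hc hX with h | ⟨φ, hφ⟩
  · exact h
  rcases sq_or_LP φ hφ with h | ⟨w, C, hw⟩
  · exact h
  obtain ⟨y, δ, hy, h0, hle, hst⟩ := exists_stable w C hw
  rcases h0.eq_or_lt with h0 | h0
  · subst h0; exact sq_of_LP_null y C hy hle
  · exact sq_of_stable y hy.1 δ h0 hle hst

end Crest.Agent.R114
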