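import Crest.Agent.R114.L2c

/-! Basic properties of the norming set `W`. -/

set_option autoImplicit false
set_option linter.unusedSectionVars false
open Filter Topology

namespace Crest.Agent.R114

variable {𝕜 : Type} [RCLike 𝕜] {Γ : Type} [LinearOrder Γ]

theorem rs_nodeOf (E : Set Γ) (j : ℕ) (α : ℕ → Γ →₀ 𝕜) :
    rs E (nodeOf j α) = nodeOf j fun i => rs E (α i) := by
  rw [nodeOf, rs_smul, rs_sum, nodeOf]

theorem rs_seg (E E' : Set Γ) (σ : ℕ → Γ →₀ 𝕜) (u v : ℕ) :
    rs E (seg σ u v E') = seg σ u v (E ∩ E') := by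
  rw [seg, rs_rs, seg]

namespace Data

variable {D : Data 𝕜 Γ} [Nonempty Γ]

theorem W.zero : D.W 0 := by
  simpa using W.base (D := D) (Classical.arbitrary Γ) 0 D.R.zero_mem (by simp)

theorem W.smul {f : Γ →₀ 𝕜} (hf : D.W f) {c : 𝕜} (hc : c ∈ D.R) (h1 : ‖c‖ ≤ 1) : D.W (c • f) := by
  simpa using W.comb (D := D) 1 (fun _ => c) (fun _ => f) (fun _ => hc) (by simpa using h1) fun _ => hf

theorem Node.zero (j : ℕ) : D.Node j 0 := by
  refine ⟨fun _ => 0, fun _ => W.zero, ⟨fun _ _ _ _ h => by simp at h, fun _ => by simp⟩, ?_⟩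
  simp [nodeOf]

theorem SpN.zero : D.SpN 0 := by
  exact ⟨⟨fun _ _ _ _ h => by simp at h, fun _ h => (h rfl).elim⟩, fun j => Node.zero j⟩

/-- induction on `W`: `rs_sum`, `rs_smul`, `rs_rs`, `Adm.restr` -/
theorem W.restr {f : Γ →₀ 𝕜} (hf : D.W f) {E : Set Γ} (hE : E.OrdConnected) : D.W (rs E f) := by
  induction hf with
  | base γ c hc h1 =>
    by_cases h : γ ∈ E
    · rw [rs_eq_self fun a ha => by rwa [Finset.mem_singleton.1 (Finsupp.support_single_subset ha)]]
      exact W.base γ c hc h1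
    · have : rs E (Finsupp.single γ c) = 0 := by
        ext a
        rw [rs_apply]
        split_ifs with ha
        · exact Finsupp.single_eq_of_ne fun e => h (e ▸ ha)
        · rfl
      rw [this]
      exact W.zero
  | comb n c g hc h1 _ ih =>
    simp only [rs_sum, rs_smul]
    exact W.comb n c _ hc h1 ih
  | node j α _ ha ih =>
    rw [rs_nodeOf]
    exact W.node j _ ih (ha.restr E)
  | three n c α u v E' hc h1 hα ha hs hE' hd _ =>
    simp only [rs_sum, rs_smul, rs_seg]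
    exact W.three n c α u v _ hc h1 hα ha hs (fun r => hE.inter (hE' r)) hd

theorem Node.restr {j : ℕ} {f : Γ →₀ 𝕜} (hf : D.Node j f) {E : Set Γ} (hE : E.OrdConnected) :
    D.Node j (rs E f) := by
  obtain ⟨α, h1, h2, rfl⟩ := hf
  exact ⟨_, fun i => (h1 i).restr hE, h2.restr E, rs_nodeOf E j α⟩

theorem W.apply_mem {f : Γ →₀ 𝕜} (hf : D.W f) (γ : Γ) : f γ ∈ D.R := by
  have hn : ∀ (j : ℕ) (α : ℕ → Γ →₀ 𝕜), (∀ i, α i γ ∈ D.R) → nodeOf j α γ ∈ D.R := fun j α h => by
    simp only [nodeOf, Finsupp.smul_apply, Finsupp.finsetSum_apply, smul_eq_mul]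
    exact mul_mem (inv_mem (natCast_mem _ _)) (sum_mem fun i _ => h i)
  induction hf with
  | base a c hc _ =>
    rw [Finsupp.single_apply]
    split_ifs
    exacts [hc, D.R.zero_mem]
  | comb n c g hc _ _ ih =>
    simp only [Finsupp.smul_apply, Finsupp.finsetSum_apply, smul_eq_mul]
    exact sum_mem fun q _ => mul_mem (hc q) (ih q)
  | node j α _ _ ih => exact hn j α ih
  | three n c α u v E hc _ _ _ _ _ _ ih =>
    simp only [Finsupp.smul_apply, Finsupp.finsetSum_apply, smul_eq_mul, seg, rs_apply]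
    refine sum_mem fun r _ => mul_mem (hc r) ?_
    split_ifs
    exacts [sum_mem fun j _ => hn j _ (ih r j), D.R.zero_mem]

theorem Node.l2_le {j : ℕ} {f : Γ →₀ 𝕜} (hf : D.Node j f) : l2 f ≤ 2 / mm j := by
  obtain ⟨α, -, h2, rfl⟩ := hf
  rw [nodeOf, l2_smul, norm_inv, RCLike.norm_natCast, div_eq_inv_mul]
  exact mul_le_mul_of_nonneg_left ((l2_sum_le _ _).trans (h2.sum_l2_le _)) (by positivity)

theorem Three.window {n : ℕ} {c : ℕ → 𝕜} {σ : ℕ → ℕ → Γ →₀ 𝕜} {u v : ℕ → ℕ} {E : ℕ → Set Γ}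
    (h : D.Three n c σ u v E) (a b : ℕ) :
    D.Three n c σ (fun r => max (u r) a) (fun r => min (v r) b) E := by
  obtain ⟨h1, h2, h3, h4, h5⟩ := h
  refine ⟨h1, h2, h3, h4, fun r hr r' hr' hne j hj hj' => h5 r hr r' hr' hne j ?_ ?_⟩
  · exact Finset.Ico_subset_Ico (le_max_left _ _) (min_le_left _ _) hj
  · exact Finset.Ico_subset_Ico (le_max_left _ _) (min_le_left _ _) hj'

/-- A type III functional is a sum of nodes of distinct weights with coefficients in the unit ball,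
compatibly with weight windows.  (`S` = the weights `i` such that `i ∈ Ico (u r) (v r)`, `σ r i ≠ 0`
for some, necessarily unique, `r < n`; `e i = c r`, `f i = rs (E r) (σ r i)`.) -/
theorem Three.regroup {n : ℕ} {c : ℕ → 𝕜} {σ : ℕ → ℕ → Γ →₀ 𝕜} {u v : ℕ → ℕ}
    {E : ℕ → Set Γ} (h : D.Three n c σ u v E) :
    ∃ (S : Finset ℕ) (e : ℕ → 𝕜) (f : ℕ → Γ →₀ 𝕜), (∀ i, ‖e i‖ ≤ 1 ∧ D.Node i (f i)) ∧
      ∑ r ∈ Finset.range n, c r • seg (σ r) (u r) (v r) (E r) = ∑ i ∈ S, e i • f i ∧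
      ∀ a b, ∑ r ∈ Finset.range n, c r • seg (σ r) (max (u r) a) (min (v r) b) (E r) =
        ∑ i ∈ S.filter (fun i => a ≤ i ∧ i < b), e i • f i := by
  classical
  obtain ⟨-, h2, h3, h4, h5⟩ := h
  let P : ℕ → ℕ → Prop := fun i r => r < n ∧ i ∈ Finset.Ico (u r) (v r) ∧ σ r i ≠ 0
  let e : ℕ → 𝕜 := fun i => if h : ∃ r, P i r then c h.choose else 0
  let f : ℕ → Γ →₀ 𝕜 := fun i => if h : ∃ r, P i r then rs (E h.choose) (σ h.choose i) else 0
  let N := (Finset.range n).sup v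
  have hN : ∀ r ∈ Finset.range n, v r ≤ N := fun r hr => Finset.le_sup (f := v) hr
  have key : ∀ a b, ∑ r ∈ Finset.range n, c r • seg (σ r) (max (u r) a) (min (v r) b) (E r) =
      ∑ i ∈ (Finset.range N).filter (fun i => a ≤ i ∧ i < b), e i • f i := fun a b => by
    have h1 : ∀ r ∈ Finset.range n, c r • seg (σ r) (max (u r) a) (min (v r) b) (E r) =
        ∑ i ∈ (Finset.range N).filter (fun i => a ≤ i ∧ i < b),
          if i ∈ Finset.Ico (u r) (v r) then c r • rs (E r) (σ r i) else 0 := fun r hr => by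
      rw [← Finset.sum_filter, seg, rs_sum, Finset.smul_sum]
      refine Finset.sum_congr ?_ fun _ _ => rfl
      ext i
      have := hN r hr
      simp only [Finset.mem_Ico, Finset.mem_filter, Finset.mem_range]
      omega
    rw [Finset.sum_congr rfl h1, Finset.sum_comm]
    refine Finset.sum_congr rfl fun i _ => ?_
    by_cases hi : ∃ r, P i r
    · obtain ⟨p1, p2, p3⟩ := hi.choose_spec
      rw [Finset.sum_eq_single_of_mem hi.choose (Finset.mem_range.2 p1), if_pos p2]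
      · simp only [e, f, dif_pos hi]
      · intro r hr hne
        split_ifs with hr'
        · rw [(h5 r (Finset.mem_range.1 hr) _ p1 hne i hr' p2).resolve_right p3]
          simp
        · rfl
    · simp only [e, dif_neg hi, zero_smul]
      refine Finset.sum_eq_zero fun r hr => ?_
      split_ifs with hr'
      · have : σ r i = 0 := by
          by_contra h0
          exact hi ⟨r, Finset.mem_range.1 hr, hr', h0⟩
        simp [this]
      · rfl
  refine ⟨Finset.range N, e, f, fun i => ?_, ?_, key⟩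
  · by_cases hi : ∃ r, P i r
    · simp only [e, f, dif_pos hi]
      refine ⟨?_, ((h3 _).2 i).restr (h4 _)⟩
      refine (sq_le_one_iff₀ (norm_nonneg _)).1 (le_trans ?_ h2)
      exact Finset.single_le_sum (f := fun r => ‖c r‖ ^ 2) (fun _ _ => by positivity)
        (Finset.mem_range.2 hi.choose_spec.1)
    · simp only [e, f, dif_neg hi]
      exact ⟨by simp, Node.zero i⟩
  · have := key 0 N
    rw [Finset.filter_true_of_mem fun i hi => ⟨Nat.zero_le _, Finset.mem_range.1 hi⟩] at this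
    rw [← this]
    exact Finset.sum_congr rfl fun r hr => by rw [max_eq_left (Nat.zero_le _), min_eq_left (hN r hr)]

theorem W.l2_le {f : Γ →₀ 𝕜} (hf : D.W f) : l2 f ≤ 1 := by
  refine hf.cases_comb (P := fun f => l2 f ≤ 1) (fun γ c _ h => by rwa [l2_single])
    (fun n c g h1 ih => ?_) (fun j f h => h.l2_le.trans ?_) fun n c σ u v E h => ?_
  · refine (l2_sum_le _ _).trans (le_trans (Finset.sum_le_sum fun q _ => ?_) h1)
    rw [l2_smul]
    exact mul_le_of_le_one_right (norm_nonneg _) (ih q)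
  · rw [div_le_one (by exact_mod_cast mm_pos j)]
    have : 2 ^ 1 ≤ mm j := Nat.pow_le_pow_right (by norm_num) (by omega)
    exact_mod_cast this
  · obtain ⟨S, e, f, h1, h2, -⟩ := h.regroup
    rw [h2]
    have h3 := sum_inv_mm_le S 0 fun _ _ => Nat.zero_le _
    have h4 : ∑ i ∈ S, l2 (e i • f i) ≤ 2 * ∑ i ∈ S, (1 : ℝ) / mm i := by
      rw [Finset.mul_sum]
      refine Finset.sum_le_sum fun i _ => ?_
      rw [l2_smul, mul_one_div]
      exact (mul_le_of_le_one_left (l2_nonneg _) (h1 i).1).trans (h1 i).2.l2_le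
    refine (l2_sum_le _ _).trans (h4.trans ?_)
    norm_num [mm] at h3 ⊢
    linarith

theorem W.norm_apply_le {f : Γ →₀ 𝕜} (hf : D.W f) (γ : Γ) : ‖f γ‖ ≤ 1 :=
  (norm_apply_le_l2 f γ).trans hf.l2_le

/-- averages of successive functionals -/
theorem W.avg {g : ℕ → Γ →₀ 𝕜} (hg : ∀ q, D.W (g q)) (hs : Succ g) (a M : ℕ) (hM : 0 < M) :
    D.W ((M : 𝕜)⁻¹ • ∑ q ∈ Finset.Ico a (a + M), g q) ∧
      l2 ((M : 𝕜)⁻¹ • ∑ q ∈ Finset.Ico a (a + M), g q) ^ 2 ≤ 1 / M := by
  have hM' : (0 : ℝ) < M := by exact_mod_cast hM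
  constructor
  · rw [Finset.sum_Ico_eq_sum_range, Finset.smul_sum, Nat.add_sub_cancel_left]
    refine W.comb M (fun _ => (M : 𝕜)⁻¹) _ (fun _ => inv_mem (natCast_mem _ _)) ?_ fun q => hg _
    simp [hM.ne']
  · rw [l2_smul, mul_pow, hs.l2_sum_sq, norm_inv, RCLike.norm_natCast]
    have : ∑ q ∈ Finset.Ico a (a + M), l2 (g q) ^ 2 ≤ M := by
      refine (Finset.sum_le_card_nsmul _ _ 1 fun q _ => ?_).trans (by simp)
      exact (sq_le_one_iff₀ (l2_nonneg _)).2 (hg q).l2_le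
    refine (mul_le_mul_of_nonneg_left this (by positivity)).trans (le_of_eq ?_)
    field_simp

/-- almost unimodular scalars in `R` -/
theorem exists_rot (D : Data 𝕜 Γ) (z : 𝕜) (ε : ℝ) (hε : 0 < ε) :
    ∃ c ∈ D.R, ‖c‖ ≤ 1 ∧ ‖z‖ - ε ≤ RCLike.re (c * z) := by
  obtain ⟨w, hw, hwz⟩ := RCLike.exists_norm_eq_mul_self z
  have ho : IsOpen {c : 𝕜 | ‖z‖ - ε < RCLike.re (c * z)} :=
    isOpen_lt continuous_const (RCLike.continuous_re.comp (continuous_id.mul continuous_const))
  have h1 : w ∈ closure (Metric.ball (0 : 𝕜) 1) := by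
    rw [closure_ball _ one_ne_zero]
    simp [hw]
  obtain ⟨c, hc, hR⟩ := D.R_dense.inter_open_nonempty _ (ho.inter Metric.isOpen_ball)
    (mem_closure_iff.1 h1 _ ho (by rw [Set.mem_ofPred_eq, ← hwz]; simp [hε]))
  exact ⟨c, hR, (mem_ball_zero_iff.1 hc.2).le, hc.1.le⟩

end Data

end Crest.Agent.R114
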