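import Crest.Agent.R114.LB

/-! The normed space `Z` of all functions on which `W` is bounded. -/

set_option autoImplicit false
set_option linter.unusedSectionVars false
open Filter Topology

namespace Crest.Agent.R114

variable {𝕜 : Type} [RCLike 𝕜] {Γ : Type} [LinearOrder Γ]

namespace Data

variable (D : Data 𝕜 Γ) [Nonempty Γ]

/-- the submodule of functions on which `W` is bounded -/
def Zs : Submodule 𝕜 (Γ → 𝕜) where
  carrier := {z | D.Bdd z}
  add_mem' := Bdd.add
  zero_mem' := ⟨0, fun f _ => by simp⟩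
  smul_mem' c _ hz := hz.smul c

/-- type synonym carrying the norm `nrm` -/
def Z : Type := D.Zs

noncomputable instance : AddCommGroup D.Z := inferInstanceAs (AddCommGroup D.Zs)
noncomputable instance : Module 𝕜 D.Z := inferInstanceAs (Module 𝕜 D.Zs)

/-- the underlying function -/
noncomputable def val : D.Z →ₗ[𝕜] (Γ → 𝕜) := D.Zs.subtype

theorem val_injective : Function.Injective D.val := Subtype.val_injective

theorem bdd_val (z : D.Z) : D.Bdd (D.val z) := z.2

/-- constructor -/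
def mkZ (z : Γ → 𝕜) (hz : D.Bdd z) : D.Z := ⟨z, hz⟩

@[simp] theorem val_mkZ (z : Γ → 𝕜) (hz : D.Bdd z) : D.val (D.mkZ z hz) = z := rfl

noncomputable instance : NormedAddCommGroup D.Z :=
  AddGroupNorm.toNormedAddCommGroup
    { toFun := fun z => D.nrm (D.val z)
      map_zero' := by simp
      add_le' := fun z w => by
        rw [map_add]; exact nrm_add_le (D.bdd_val z) (D.bdd_val w)
      neg' := fun z => by
        rw [← neg_one_smul 𝕜 z, map_smul, nrm_smul]; simp
      eq_zero_of_map_eq_zero' := fun z hz => by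
        apply D.val_injective
        funext γ
        have := norm_apply_le_nrm (D.bdd_val z) γ
        rw [hz] at this
        simpa using this }

theorem norm_def (z : D.Z) : ‖z‖ = D.nrm (D.val z) := rfl

noncomputable instance : NormedSpace 𝕜 D.Z :=
  ⟨fun c z => by rw [norm_def, norm_def, map_smul, nrm_smul]⟩

/-- finitely supported vectors -/
noncomputable def iota : (Γ →₀ 𝕜) →ₗ[𝕜] D.Z where
  toFun x := D.mkZ x (D.bdd_finsupp x)
  map_add' _ _ := D.val_injective (by simp only [map_add, val_mkZ, Finsupp.coe_add])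
  map_smul' _ _ := D.val_injective (by
    simp only [map_smul, val_mkZ, Finsupp.coe_smul, RingHom.id_apply])

@[simp] theorem val_iota (x : Γ →₀ 𝕜) : D.val (D.iota x) = x := rfl

theorem norm_pair_val_le (f : Γ →₀ 𝕜) (z : D.Z) :
    ‖pair f (D.val z)‖ ≤ (∑ γ ∈ f.support, ‖f γ‖) * ‖z‖ := by
  rw [pair_eq_sum f _ _ le_rfl, Finset.sum_mul]
  refine (norm_sum_le _ _).trans (Finset.sum_le_sum fun γ _ => ?_)
  rw [norm_mul]
  exact mul_le_mul_of_nonneg_left (norm_apply_le_nrm (D.bdd_val z) γ) (norm_nonneg _)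

/-- finitely supported functionals -/
noncomputable def ev : (Γ →₀ 𝕜) →ₗ[𝕜] StrongDual 𝕜 D.Z where
  toFun f := LinearMap.mkContinuous
    { toFun := fun z => pair f (D.val z)
      map_add' := fun z w => by rw [map_add, pair_add_right]
      map_smul' := fun c z => by rw [map_smul, pair_smul_right]; rfl }
    (∑ γ ∈ f.support, ‖f γ‖) (D.norm_pair_val_le f)
  map_add' f g := by ext z; exact pair_add_left f g _
  map_smul' c f := by ext z; exact pair_smul_left c f _

@[simp] theorem ev_apply (f : Γ →₀ 𝕜) (z : D.Z) : D.ev f z = pair f (D.val z) := rfl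

/-- the projection on an order-convex set -/
noncomputable def proj (E : Set Γ) (hE : E.OrdConnected) : D.Z →L[𝕜] D.Z :=
  LinearMap.mkContinuous
    { toFun := fun z => D.mkZ (E.indicator (D.val z)) ((D.bdd_val z).indicator hE)
      map_add' := fun z w => D.val_injective (by
        simp only [map_add, val_mkZ]; exact Set.indicator_add' _ _ _)
      map_smul' := fun c z => D.val_injective (by
        simp only [map_smul, val_mkZ, RingHom.id_apply]
        funext γ; by_cases h : γ ∈ E <;> simp [h]) }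
    1 (fun z => by rw [one_mul]; exact nrm_indicator_le (D.bdd_val z) hE)

@[simp] theorem val_proj (E : Set Γ) (hE : E.OrdConnected) (z : D.Z) :
    D.val (D.proj E hE z) = E.indicator (D.val z) := rfl

theorem norm_proj_le (E : Set Γ) (hE : E.OrdConnected) (z : D.Z) : ‖D.proj E hE z‖ ≤ ‖z‖ :=
  nrm_indicator_le (D.bdd_val z) hE

variable {D}

theorem SpN.norm_sum_le {σ : ℕ → Γ →₀ 𝕜} (h : D.SpN σ) (a b : ℕ) (z : D.Z) :
    ‖∑ j ∈ Finset.Ico a b, pair (σ j) (D.val z)‖ ≤ ‖z‖ := by
  have := three_sq (D := D) ({()} : Finset Unit) (fun _ => σ) (fun _ => a) (fun _ => b)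
    (fun _ => Set.univ) (fun _ _ => h) (fun _ _ => Set.ordConnected_univ)
    (fun _ _ _ _ hne => absurd rfl hne) (D.bdd_val z)
  rw [Finset.sum_singleton, pair_seg_univ] at this
  exact (abs_le_of_sq_le_sq' this (norm_nonneg z)).2

theorem SpN.cauchy {σ : ℕ → Γ →₀ 𝕜} (h : D.SpN σ) (z : D.Z) :
    CauchySeq fun t => ∑ j ∈ Finset.range t, pair (σ j) (D.val z) := by
  rw [Metric.cauchySeq_iff']
  by_contra hn
  push Not at hn
  obtain ⟨ε, hε, hn⟩ := hn
  choose nx h1 h2 using hn
  let s : ℕ → ℕ := fun i => nx^[i] 0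
  have hs : ∀ i, s (i + 1) = nx (s i) := fun i => Function.iterate_succ_apply' _ _ _
  have hm : Monotone s := monotone_nat_of_le_succ fun i => by rw [hs]; exact h1 _
  obtain ⟨N, hN⟩ := exists_nat_gt (‖z‖ ^ 2 / ε ^ 2)
  have key := three_sq (D := D) (Finset.range N) (fun _ => σ) s (fun i => s (i + 1))
    (fun _ => Set.univ) (fun _ _ => h) (fun _ _ => Set.ordConnected_univ)
    (fun r _ r' _ hne j hj hj' => by
      rw [Finset.mem_Ico] at hj hj'
      rcases lt_or_gt_of_ne hne with hlt | hlt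
      · have := hm (Nat.succ_le_of_lt hlt); simp only [Nat.succ_eq_add_one] at this; omega
      · have := hm (Nat.succ_le_of_lt hlt); simp only [Nat.succ_eq_add_one] at this; omega)
    (D.bdd_val z)
  have h3 : ∑ _r ∈ Finset.range N, ε ^ 2 ≤ ‖z‖ ^ 2 := by
    refine le_trans (Finset.sum_le_sum fun r _ => ?_) key
    rw [pair_seg_univ, Finset.sum_Ico_eq_sub _ (hm (Nat.le_succ r)), ← dist_eq_norm, hs]
    exact pow_le_pow_left₀ hε.le (h2 _) 2
  rw [Finset.sum_const, Finset.card_range, nsmul_eq_mul] at h3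
  rw [div_lt_iff₀ (by positivity)] at hN
  linarith

/-- The partial sums are Cauchy: otherwise there are `ε > 0` and disjoint intervals `Ico (s i) (t i)` with
`‖∑_{j ∈ Ico (s i) (t i)} pair (σ j) z‖ ≥ ε`, against `three_sq`.  The limit is linear and bounded by `‖z‖`
(`three_sq` with one segment). -/
theorem SpN.exists_tl {σ : ℕ → Γ →₀ 𝕜} (h : D.SpN σ) : ∃ T : ℕ → StrongDual 𝕜 D.Z, ∀ n z,
    Tendsto (fun t => ∑ j ∈ Finset.Ico n t, pair (σ j) (D.val z)) atTop (𝓝 (T n z)) := by
  have h1 : ∀ n z, ∃ l, Tendsto (fun t => ∑ j ∈ Finset.Ico n t, pair (σ j) (D.val z)) atTop (𝓝 l) := by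
    intro n z
    obtain ⟨l, hl⟩ := cauchySeq_tendsto_of_complete (h.cauchy z)
    refine ⟨l - ∑ j ∈ Finset.range n, pair (σ j) (D.val z), ?_⟩
    refine (hl.sub_const _).congr' ((eventually_ge_atTop n).mono fun t ht => ?_)
    exact (Finset.sum_Ico_eq_sub _ ht).symm
  choose L hL using h1
  refine ⟨fun n => LinearMap.mkContinuous
    { toFun := L n
      map_add' := fun z w => tendsto_nhds_unique (hL n (z + w)) ?_
      map_smul' := fun c z => tendsto_nhds_unique (hL n (c • z)) ?_ } 1 fun z => ?_, hL⟩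
  · simpa only [map_add, pair_add_right, Finset.sum_add_distrib] using (hL n z).add (hL n w)
  · simpa only [map_smul, pair_smul_right, Finset.mul_sum, RingHom.id_apply, smul_eq_mul] using
      (hL n z).const_mul c
  · rw [one_mul]
    exact le_of_tendsto' (hL n z).norm fun t => h.norm_sum_le n t z

open Classical in
/-- the tail `∑_{j ≥ n} σ j` of a branch functional -/
noncomputable def tl (D : Data 𝕜 Γ) (σ : ℕ → Γ →₀ 𝕜) (n : ℕ) : StrongDual 𝕜 D.Z :=
  if h : D.SpN σ then h.exists_tl.choose n else 0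

theorem SpN.tendsto_tl {σ : ℕ → Γ →₀ 𝕜} (h : D.SpN σ) (n : ℕ) (z : D.Z) :
    Tendsto (fun t => ∑ j ∈ Finset.Ico n t, pair (σ j) (D.val z)) atTop (𝓝 (D.tl σ n z)) := by
  rw [tl, dif_pos h]; exact h.exists_tl.choose_spec n z

theorem SpN.tl_split {σ : ℕ → Γ →₀ 𝕜} (h : D.SpN σ) {n n' : ℕ} (hn : n ≤ n') :
    D.tl σ n = D.ev (∑ j ∈ Finset.Ico n n', σ j) + D.tl σ n' := by
  ext z
  refine tendsto_nhds_unique (h.tendsto_tl n z) ?_
  rw [_root_.add_apply, ev_apply, pair_sum_left]
  refine ((h.tendsto_tl n' z).const_add _).congr' ((eventually_ge_atTop n').mono fun t ht => ?_)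
  exact Finset.sum_Ico_consecutive _ hn ht

theorem SpN.tl_tendsto_zero {σ : ℕ → Γ →₀ 𝕜} (h : D.SpN σ) (z : D.Z) :
    Tendsto (fun n => D.tl σ n z) atTop (𝓝 0) := by
  have h1 := (h.tendsto_tl 0 z).const_sub (D.tl σ 0 z)
  rw [sub_self] at h1
  refine h1.congr fun n => ?_
  rw [h.tl_split (Nat.zero_le n), _root_.add_apply, ev_apply, pair_sum_left]
  ring

theorem SpN.norm_tl_le {σ : ℕ → Γ →₀ 𝕜} (h : D.SpN σ) (n : ℕ) : ‖D.tl σ n‖ ≤ 1 := by
  refine ContinuousLinearMap.opNorm_le_bound _ zero_le_one fun z => ?_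
  rw [one_mul]
  exact le_of_tendsto' (h.tendsto_tl n z).norm fun t => h.norm_sum_le n t z

theorem SpN.tl_proj {σ : ℕ → Γ →₀ 𝕜} (h : D.SpN σ) (n : ℕ) {E : Set Γ} (hE : E.OrdConnected)
    (hs : ∀ j, ∀ γ ∈ (σ j).support, γ ∈ E) (z : D.Z) : D.tl σ n (D.proj E hE z) = D.tl σ n z := by
  refine tendsto_nhds_unique (h.tendsto_tl n _) ((h.tendsto_tl n z).congr fun t => ?_)
  refine Finset.sum_congr rfl fun j _ => pair_congr _ fun γ hγ => ?_
  rw [val_proj, Set.indicator_of_mem (hs j γ hγ)]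

/-- Tails of branches sharing finitely many weights satisfy an upper `ℓ²` estimate: for large `n` the tails have
disjoint weights; `three_sq`, limit `t → ∞`, and `norm_pair_le_l2`. -/
theorem eventually_norm_sum_tl {b : Γ → ℕ → Γ →₀ 𝕜} (hb : ∀ γ, D.SpN (b γ))
    (hf : ∀ γ γ', γ ≠ γ' → {j | b γ j ≠ 0 ∧ b γ' j ≠ 0}.Finite) (f : Γ →₀ 𝕜) :
    ∀ᶠ n in atTop, ‖∑ γ ∈ f.support, f γ • D.tl (b γ) n‖ ≤ l2 f := by
  have h1 : ∀ᶠ n in atTop, ∀ γ ∈ f.support, ∀ γ' ∈ f.support, γ ≠ γ' →
      ∀ j, n ≤ j → b γ j = 0 ∨ b γ' j = 0 := by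
    rw [Filter.eventually_all_finset]
    intro γ _
    rw [Filter.eventually_all_finset]
    intro γ' _
    by_cases hne : γ = γ'
    · exact Eventually.of_forall fun n h => absurd hne h
    obtain ⟨N, hN⟩ := (hf γ γ' hne).bddAbove
    refine (eventually_gt_atTop N).mono fun n hn _ j hj => ?_
    by_contra hc
    push Not at hc
    have := hN hc
    omega
  refine h1.mono fun n hn => ContinuousLinearMap.opNorm_le_bound _ (l2_nonneg f) fun z => ?_
  have h2 : ∑ γ ∈ f.support, ‖D.tl (b γ) n z‖ ^ 2 ≤ ‖z‖ ^ 2 := by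
    refine le_of_tendsto' (tendsto_finsetSum _ fun γ _ =>
      ((hb γ).tendsto_tl n z).norm.pow 2) fun t => ?_
    have := three_sq (D := D) f.support b (fun _ => n) (fun _ => t) (fun _ => Set.univ)
      (fun γ _ => hb γ) (fun _ _ => Set.ordConnected_univ)
      (fun γ hγ γ' hγ' hne j hj _ => hn γ hγ γ' hγ' hne j (Finset.mem_Ico.1 hj).1) (D.bdd_val z)
    simpa only [pair_seg_univ, norm_def] using this
  have h3 := norm_pair_le_l2 f (fun γ => D.tl (b γ) n z) ‖z‖ (norm_nonneg z) h2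
  rw [pair_eq_sum f _ _ le_rfl] at h3
  simpa only [_root_.sum_apply, _root_.smul_apply, smul_eq_mul] using h3

end Data

end Crest.Agent.R114
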